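import Crest.Prelude.Def_MultiMarginal

/-!
Abstract part of S0175: given a probability measure `ν`, partner maps `b c d e`, and a dual
certificate `u` with contact set forced into partner graphs, the plan `piOf` is optimal and
no Monge plan attains the minimum.
-/

set_option autoImplicit false

namespace Crest.Agent.Lib.OT3

open MeasureTheory
open scoped ENNReal
open Crest.AnalysisR.OT

variable {E : Type*} [NormedAddCommGroup E] [MeasurableSpace E] [BorelSpace E]
  [SecondCountableTopology E]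

omit [MeasurableSpace E] [BorelSpace E] [SecondCountableTopology E] in
lemma pairCost_comm (s : ℝ) (x y : E) : pairCost s x y = pairCost s y x := by
  simp [pairCost, norm_sub_rev]

omit [MeasurableSpace E] [BorelSpace E] [SecondCountableTopology E] in
lemma tripleCost_cycle (s : ℝ) (x y z : E) : tripleCost s (y, z, x) = tripleCost s (x, y, z) := by
  simp only [tripleCost]
  rw [pairCost_comm s y x, pairCost_comm s z x]
  ac_rfl

omit [MeasurableSpace E] [BorelSpace E] [SecondCountableTopology E] in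
lemma tripleCost_swap12 (s : ℝ) (x y z : E) : tripleCost s (y, x, z) = tripleCost s (x, y, z) := by
  simp only [tripleCost]
  rw [pairCost_comm s y x]
  ac_rfl

omit [MeasurableSpace E] [BorelSpace E] [SecondCountableTopology E] in
lemma tripleCost_swap23 (s : ℝ) (x y z : E) : tripleCost s (x, z, y) = tripleCost s (x, y, z) := by
  simp only [tripleCost]
  rw [pairCost_comm s z y]
  ac_rfl

lemma measurable_pairCost (s : ℝ) : Measurable (fun P : E × E => pairCost s P.1 P.2) := by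
  unfold pairCost
  exact (ENNReal.measurable_ofReal.comp ((measurable_fst.sub measurable_snd).norm)).pow_const _

lemma measurable_tripleCost (s : ℝ) : Measurable (tripleCost (E := E) s) := by
  unfold tripleCost
  have h1 : Measurable (fun p : E × E × E => pairCost s p.1 p.2.1) :=
    (measurable_pairCost s).comp (measurable_fst.prodMk (measurable_fst.comp measurable_snd))
  have h2 : Measurable (fun p : E × E × E => pairCost s p.1 p.2.2) :=
    (measurable_pairCost s).comp (measurable_fst.prodMk (measurable_snd.comp measurable_snd))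
  have h3 : Measurable (fun p : E × E × E => pairCost s p.2.1 p.2.2) :=
    (measurable_pairCost s).comp
      ((measurable_fst.comp measurable_snd).prodMk (measurable_snd.comp measurable_snd))
  exact (h1.add h2).add h3

set_option linter.unusedSectionVars false

/-- The marginal: `1/6 (2 ν + b#ν + c#ν + d#ν + e#ν)`. -/
noncomputable def muOf (ν : Measure E) (b c d e : E → E) : Measure E :=
  (6 : ℝ≥0∞)⁻¹ • (ν + ν + ν.map b + ν.map c + ν.map d + ν.map e)

/-- The optimal plan. -/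
noncomputable def piOf (ν : Measure E) (b c d e : E → E) : Measure (E × E × E) :=
  (6 : ℝ≥0∞)⁻¹ • (ν.map (fun p => (p, b p, c p)) + ν.map (fun p => (b p, c p, p))
    + ν.map (fun p => (c p, p, b p)) + ν.map (fun p => (p, d p, e p))
    + ν.map (fun p => (d p, e p, p)) + ν.map (fun p => (e p, p, d p)))

section Coupling

variable {ν : Measure E} {b c d e : E → E}

lemma isCoupling_piOf (hb : Measurable b) (hc : Measurable c) (hd : Measurable d)
    (he : Measurable e) : IsCoupling₃ (muOf ν b c d e) (piOf ν b c d e) := by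
  have mf : Measurable (fun p : E × E × E => p.1) := measurable_fst
  have ms : Measurable (fun p : E × E × E => p.2.1) := measurable_fst.comp measurable_snd
  have mt : Measurable (fun p : E × E × E => p.2.2) := measurable_snd.comp measurable_snd
  have m1 : Measurable (fun p : E => (p, b p, c p)) := measurable_id.prodMk (hb.prodMk hc)
  have m2 : Measurable (fun p : E => (b p, c p, p)) := hb.prodMk (hc.prodMk measurable_id)
  have m3 : Measurable (fun p : E => (c p, p, b p)) := hc.prodMk (measurable_id.prodMk hb)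
  have m4 : Measurable (fun p : E => (p, d p, e p)) := measurable_id.prodMk (hd.prodMk he)
  have m5 : Measurable (fun p : E => (d p, e p, p)) := hd.prodMk (he.prodMk measurable_id)
  have m6 : Measurable (fun p : E => (e p, p, d p)) := he.prodMk (measurable_id.prodMk hd)
  refine ⟨?_, ?_, ?_⟩
  · unfold piOf muOf
    rw [Measure.map_smul]
    simp only [Measure.map_add _ _ mf, Measure.map_map mf m1, Measure.map_map mf m2,
      Measure.map_map mf m3, Measure.map_map mf m4, Measure.map_map mf m5, Measure.map_map mf m6]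
    have e1 : (fun p : E × E × E => p.1) ∘ (fun p => (p, b p, c p)) = id := rfl
    have e2 : (fun p : E × E × E => p.1) ∘ (fun p => (b p, c p, p)) = b := rfl
    have e3 : (fun p : E × E × E => p.1) ∘ (fun p => (c p, p, b p)) = c := rfl
    have e4 : (fun p : E × E × E => p.1) ∘ (fun p => (p, d p, e p)) = id := rfl
    have e5 : (fun p : E × E × E => p.1) ∘ (fun p => (d p, e p, p)) = d := rfl
    have e6 : (fun p : E × E × E => p.1) ∘ (fun p => (e p, p, d p)) = e := rfl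
    rw [e1, e2, e3, e4, e5, e6, Measure.map_id]
    congr 1
    abel
  · unfold piOf muOf
    rw [Measure.map_smul]
    simp only [Measure.map_add _ _ ms, Measure.map_map ms m1, Measure.map_map ms m2,
      Measure.map_map ms m3, Measure.map_map ms m4, Measure.map_map ms m5, Measure.map_map ms m6]
    have e1 : (fun p : E × E × E => p.2.1) ∘ (fun p => (p, b p, c p)) = b := rfl
    have e2 : (fun p : E × E × E => p.2.1) ∘ (fun p => (b p, c p, p)) = c := rfl
    have e3 : (fun p : E × E × E => p.2.1) ∘ (fun p => (c p, p, b p)) = id := rfl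
    have e4 : (fun p : E × E × E => p.2.1) ∘ (fun p => (p, d p, e p)) = d := rfl
    have e5 : (fun p : E × E × E => p.2.1) ∘ (fun p => (d p, e p, p)) = e := rfl
    have e6 : (fun p : E × E × E => p.2.1) ∘ (fun p => (e p, p, d p)) = id := rfl
    rw [e1, e2, e3, e4, e5, e6, Measure.map_id]
    congr 1
    abel
  · unfold piOf muOf
    rw [Measure.map_smul]
    simp only [Measure.map_add _ _ mt, Measure.map_map mt m1, Measure.map_map mt m2,
      Measure.map_map mt m3, Measure.map_map mt m4, Measure.map_map mt m5, Measure.map_map mt m6]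
    have e1 : (fun p : E × E × E => p.2.2) ∘ (fun p => (p, b p, c p)) = c := rfl
    have e2 : (fun p : E × E × E => p.2.2) ∘ (fun p => (b p, c p, p)) = id := rfl
    have e3 : (fun p : E × E × E => p.2.2) ∘ (fun p => (c p, p, b p)) = b := rfl
    have e4 : (fun p : E × E × E => p.2.2) ∘ (fun p => (p, d p, e p)) = e := rfl
    have e5 : (fun p : E × E × E => p.2.2) ∘ (fun p => (d p, e p, p)) = id := rfl
    have e6 : (fun p : E × E × E => p.2.2) ∘ (fun p => (e p, p, d p)) = d := rfl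
    rw [e1, e2, e3, e4, e5, e6, Measure.map_id]
    congr 1
    abel

end Coupling

section Duality

variable {μ : Measure E} {π : Measure (E × E × E)} {u : E → ℝ≥0∞} {K : Set E}

omit [SecondCountableTopology E] in
/-- Value of the separable function against a coupling. -/
lemma lintegral_sep (hc : IsCoupling₃ μ π) (hu : Measurable u) :
    ∫⁻ P, (u P.1 + u P.2.1 + u P.2.2) ∂π = 3 * ∫⁻ x, u x ∂μ := by
  have mf : Measurable (fun p : E × E × E => p.1) := measurable_fst
  have ms : Measurable (fun p : E × E × E => p.2.1) := measurable_fst.comp measurable_snd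
  have mt : Measurable (fun p : E × E × E => p.2.2) := measurable_snd.comp measurable_snd
  have h1 : ∫⁻ P, u P.1 ∂π = ∫⁻ x, u x ∂μ := by
    conv_rhs => rw [← hc.1]
    rw [lintegral_map hu mf]
  have h2 : ∫⁻ P, u P.2.1 ∂π = ∫⁻ x, u x ∂μ := by
    conv_rhs => rw [← hc.2.1]
    rw [lintegral_map hu ms]
  have h3 : ∫⁻ P, u P.2.2 ∂π = ∫⁻ x, u x ∂μ := by
    conv_rhs => rw [← hc.2.2]
    rw [lintegral_map hu mt]
  have s1 : ∫⁻ P, (u P.1 + u P.2.1 + u P.2.2) ∂π = ∫⁻ P, (u P.1 + u P.2.1) ∂π + ∫⁻ P, u P.2.2 ∂π :=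
    lintegral_add_right _ (hu.comp mt)
  have s2 : ∫⁻ P, (u P.1 + u P.2.1) ∂π = ∫⁻ P, u P.1 ∂π + ∫⁻ P, u P.2.1 ∂π :=
    lintegral_add_right _ (hu.comp ms)
  rw [s1, s2, h1, h2, h3]
  ring

omit [SecondCountableTopology E] in
/-- A coupling is concentrated on `K³`. -/
lemma ae_mem_of_coupling (hc : IsCoupling₃ μ π) (hK : MeasurableSet K) (hμK : μ Kᶜ = 0) :
    ∀ᵐ P ∂π, P.1 ∈ K ∧ P.2.1 ∈ K ∧ P.2.2 ∈ K := by
  have mf : Measurable (fun p : E × E × E => p.1) := measurable_fst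
  have ms : Measurable (fun p : E × E × E => p.2.1) := measurable_fst.comp measurable_snd
  have mt : Measurable (fun p : E × E × E => p.2.2) := measurable_snd.comp measurable_snd
  have h1 : ∀ᵐ P ∂π, P.1 ∈ K := by
    rw [← hc.1, Measure.map_apply mf hK.compl] at hμK
    exact hμK
  have h2 : ∀ᵐ P ∂π, P.2.1 ∈ K := by
    rw [← hc.2.1, Measure.map_apply ms hK.compl] at hμK
    exact hμK
  have h3 : ∀ᵐ P ∂π, P.2.2 ∈ K := by
    rw [← hc.2.2, Measure.map_apply mt hK.compl] at hμK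
    exact hμK
  filter_upwards [h1, h2, h3] with P a b c using ⟨a, b, c⟩

/-- Weak duality. -/
lemma weak_duality {s : ℝ} (hc : IsCoupling₃ μ π) (hu : Measurable u) (hK : MeasurableSet K)
    (hμK : μ Kᶜ = 0)
    (hkant : ∀ x ∈ K, ∀ y ∈ K, ∀ z ∈ K, u x + u y + u z ≤ tripleCost s (x, y, z)) :
    3 * ∫⁻ x, u x ∂μ ≤ ∫⁻ P, tripleCost s P ∂π := by
  rw [← lintegral_sep hc hu]
  apply lintegral_mono_ae
  filter_upwards [ae_mem_of_coupling hc hK hμK] with P hP
  exact hkant _ hP.1 _ hP.2.1 _ hP.2.2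

end Duality

section Main

variable {ν : Measure E} [IsProbabilityMeasure ν] {S K : Set E} {b c d e : E → E} {u : E → ℝ≥0∞}

/-- `π₀` is concentrated on contact points. -/
lemma cost_piOf_le {s : ℝ} (hS : ν Sᶜ = 0)
    (hb : Measurable b) (hc : Measurable c) (hd : Measurable d) (he : Measurable e)
    (hu : Measurable u)
    (hct1 : ∀ p ∈ S, tripleCost s (p, b p, c p) ≤ u p + u (b p) + u (c p))
    (hct2 : ∀ p ∈ S, tripleCost s (p, d p, e p) ≤ u p + u (d p) + u (e p)) :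
    ∫⁻ P, tripleCost s P ∂(piOf ν b c d e) ≤ 3 * ∫⁻ x, u x ∂(muOf ν b c d e) := by
  rw [← lintegral_sep (isCoupling_piOf hb hc hd he) hu]
  have hSae : ∀ᵐ p ∂ν, p ∈ S := by
    rw [ae_iff]; exact hS
  have mc := measurable_tripleCost (E := E) s
  have ms : Measurable (fun P : E × E × E => u P.1 + u P.2.1 + u P.2.2) :=
    ((hu.comp measurable_fst).add (hu.comp (measurable_fst.comp measurable_snd))).add
      (hu.comp (measurable_snd.comp measurable_snd))
  have m1 : Measurable (fun p : E => (p, b p, c p)) := measurable_id.prodMk (hb.prodMk hc)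
  have m2 : Measurable (fun p : E => (b p, c p, p)) := hb.prodMk (hc.prodMk measurable_id)
  have m3 : Measurable (fun p : E => (c p, p, b p)) := hc.prodMk (measurable_id.prodMk hb)
  have m4 : Measurable (fun p : E => (p, d p, e p)) := measurable_id.prodMk (hd.prodMk he)
  have m5 : Measurable (fun p : E => (d p, e p, p)) := hd.prodMk (he.prodMk measurable_id)
  have m6 : Measurable (fun p : E => (e p, p, d p)) := he.prodMk (measurable_id.prodMk hd)
  have key : ∀ f : E → E × E × E, Measurable f →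
      (∀ p ∈ S, tripleCost s (f p) ≤ u (f p).1 + u (f p).2.1 + u (f p).2.2) →
      ∫⁻ P, tripleCost s P ∂(ν.map f) ≤ ∫⁻ P, (u P.1 + u P.2.1 + u P.2.2) ∂(ν.map f) := by
    intro f hf hle
    rw [lintegral_map mc hf, lintegral_map ms hf]
    apply lintegral_mono_ae
    filter_upwards [hSae] with p hp using hle p hp
  unfold piOf
  simp only [lintegral_smul_measure, lintegral_add_measure]
  refine mul_le_mul' le_rfl ?_
  refine add_le_add (add_le_add (add_le_add (add_le_add (add_le_add ?_ ?_) ?_) ?_) ?_) ?_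
  · exact key _ m1 hct1
  · refine key _ m2 (fun p hp => ?_)
    have := hct1 p hp
    simp only
    rw [tripleCost_cycle]
    refine this.trans (le_of_eq ?_)
    ac_rfl
  · refine key _ m3 (fun p hp => ?_)
    have := hct1 p hp
    simp only
    rw [← tripleCost_cycle]
    refine this.trans (le_of_eq ?_)
    ac_rfl
  · exact key _ m4 hct2
  · refine key _ m5 (fun p hp => ?_)
    have := hct2 p hp
    simp only
    rw [tripleCost_cycle]
    refine this.trans (le_of_eq ?_)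
    ac_rfl
  · refine key _ m6 (fun p hp => ?_)
    have := hct2 p hp
    simp only
    rw [← tripleCost_cycle]
    refine this.trans (le_of_eq ?_)
    ac_rfl

lemma le_muOf_apply (A : Set E) (b c d e : E → E) :
    (6 : ℝ≥0∞)⁻¹ * (ν A + ν A) ≤ muOf ν b c d e A := by
  simp only [muOf, Measure.smul_apply, Measure.add_apply, smul_eq_mul]
  refine mul_le_mul' le_rfl ?_
  calc ν A + ν A ≤ ν A + ν A + (ν.map b) A := le_self_add
    _ ≤ ν A + ν A + (ν.map b) A + (ν.map c) A := le_self_add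
    _ ≤ ν A + ν A + (ν.map b) A + (ν.map c) A + (ν.map d) A := le_self_add
    _ ≤ ν A + ν A + (ν.map b) A + (ν.map c) A + (ν.map d) A + (ν.map e) A := le_self_add

lemma abs_cont_muOf (b c d e : E → E) : ν ≪ muOf ν b c d e := by
  intro A hA
  have h := le_muOf_apply (ν := ν) A b c d e
  rw [hA] at h
  have h2 : (6 : ℝ≥0∞)⁻¹ * (ν A + ν A) = 0 := le_antisymm h bot_le
  have h6 : (6 : ℝ≥0∞)⁻¹ ≠ 0 := by simp
  have h3 := (mul_eq_zero.mp h2).resolve_left h6
  simpa using h3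

/-- Mass compression: `T₂` cannot follow a partner map on a set of positive mass. -/
lemma null_of_compress {μ : Measure E} {T₂ h : E → E} (hμ : μ = muOf ν b c d e)
    (hT₂ : Measurable T₂) (h₂ : μ.map T₂ = μ) {P : Set E}
    (hcomp : ∃ Q, MeasurableSet Q ∧ h '' P ⊆ Q ∧ μ Q ≤ (6 : ℝ≥0∞)⁻¹ * ν P)
    (hP : ∀ p ∈ P, T₂ p = h p) : ν P = 0 := by
  obtain ⟨Q, hQm, hQ, hQle⟩ := hcomp
  have h1 : P ⊆ T₂ ⁻¹' Q := by
    intro p hp
    show T₂ p ∈ Q
    rw [hP p hp]
    exact hQ ⟨p, hp, rfl⟩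
  have h2 : μ (T₂ ⁻¹' Q) = μ Q := by
    rw [← Measure.map_apply hT₂ hQm, h₂]
  have h3 : (6 : ℝ≥0∞)⁻¹ * (ν P + ν P) ≤ (6 : ℝ≥0∞)⁻¹ * ν P := by
    calc (6 : ℝ≥0∞)⁻¹ * (ν P + ν P) ≤ μ P := by rw [hμ]; exact le_muOf_apply P b c d e
      _ ≤ μ (T₂ ⁻¹' Q) := measure_mono h1
      _ = μ Q := h2
      _ ≤ _ := hQle
  have h6 : (6 : ℝ≥0∞)⁻¹ ≠ 0 := by simp
  have h6' : (6 : ℝ≥0∞)⁻¹ ≠ ⊤ := by simp
  have h4 : ν P + ν P ≤ ν P := (ENNReal.mul_le_mul_iff_right h6 h6').mp h3
  have hfin : ν P ≠ ⊤ := measure_ne_top ν P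
  have h5 : ν P + ν P ≤ ν P + 0 := by simpa using h4
  have := (ENNReal.add_le_add_iff_left hfin).mp h5
  exact le_antisymm this bot_le

/-- No Monge plan attains the dual value. -/
theorem monge_strict {s : ℝ} (hS : ν Sᶜ = 0) (hSm : MeasurableSet S)
    (hu : Measurable u) (hK : MeasurableSet K) (hμK : muOf ν b c d e Kᶜ = 0)
    (hkant : ∀ x ∈ K, ∀ y ∈ K, ∀ z ∈ K, u x + u y + u z ≤ tripleCost s (x, y, z))
    (hfin : ∫⁻ x, u x ∂(muOf ν b c d e) ≠ ⊤)
    (hb : Measurable b) (hc : Measurable c) (hd : Measurable d) (he : Measurable e)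
    (hrigid : ∀ p ∈ S, ∀ y ∈ K, ∀ z ∈ K, tripleCost s (p, y, z) ≤ u p + u y + u z →
      y = b p ∨ y = c p ∨ y = d p ∨ y = e p)
    (hcompb : ∀ P ⊆ S, MeasurableSet P → ∃ Q, MeasurableSet Q ∧ b '' P ⊆ Q ∧
      muOf ν b c d e Q ≤ (6 : ℝ≥0∞)⁻¹ * ν P)
    (hcompc : ∀ P ⊆ S, MeasurableSet P → ∃ Q, MeasurableSet Q ∧ c '' P ⊆ Q ∧
      muOf ν b c d e Q ≤ (6 : ℝ≥0∞)⁻¹ * ν P)
    (hcompd : ∀ P ⊆ S, MeasurableSet P → ∃ Q, MeasurableSet Q ∧ d '' P ⊆ Q ∧
      muOf ν b c d e Q ≤ (6 : ℝ≥0∞)⁻¹ * ν P)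
    (hcompe : ∀ P ⊆ S, MeasurableSet P → ∃ Q, MeasurableSet Q ∧ e '' P ⊆ Q ∧
      muOf ν b c d e Q ≤ (6 : ℝ≥0∞)⁻¹ * ν P)
    {T₂ T₃ : E → E} (hT₂ : Measurable T₂) (hT₃ : Measurable T₃)
    (h₂ : (muOf ν b c d e).map T₂ = muOf ν b c d e)
    (h₃ : (muOf ν b c d e).map T₃ = muOf ν b c d e) :
    3 * ∫⁻ x, u x ∂(muOf ν b c d e) < ∫⁻ x, tripleCost s (x, T₂ x, T₃ x) ∂(muOf ν b c d e) := by
  set μ := muOf ν b c d e with hμ
  by_contra hnot
  have hle : ∫⁻ x, tripleCost s (x, T₂ x, T₃ x) ∂μ ≤ 3 * ∫⁻ x, u x ∂μ := not_lt.mp hnot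
  -- a.e. membership in `K`
  have hK1 : ∀ᵐ x ∂μ, x ∈ K := by rw [ae_iff]; exact hμK
  have hK2 : ∀ᵐ x ∂μ, T₂ x ∈ K := by
    have : μ (T₂ ⁻¹' Kᶜ) = 0 := by
      rw [← Measure.map_apply hT₂ hK.compl, h₂]; exact hμK
    rw [ae_iff]; exact this
  have hK3 : ∀ᵐ x ∂μ, T₃ x ∈ K := by
    have : μ (T₃ ⁻¹' Kᶜ) = 0 := by
      rw [← Measure.map_apply hT₃ hK.compl, h₃]; exact hμK
    rw [ae_iff]; exact this
  have hfg : (fun x => u x + u (T₂ x) + u (T₃ x)) ≤ᵐ[μ] fun x => tripleCost s (x, T₂ x, T₃ x) := by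
    filter_upwards [hK1, hK2, hK3] with x h1 h2 h3 using hkant x h1 _ h2 _ h3
  have mfst : Measurable (fun x => u (T₂ x)) := hu.comp hT₂
  have mthd : Measurable (fun x => u (T₃ x)) := hu.comp hT₃
  have hint : ∫⁻ x, (u x + u (T₂ x) + u (T₃ x)) ∂μ = 3 * ∫⁻ x, u x ∂μ := by
    have s1 : ∫⁻ x, (u x + u (T₂ x) + u (T₃ x)) ∂μ =
        ∫⁻ x, (u x + u (T₂ x)) ∂μ + ∫⁻ x, u (T₃ x) ∂μ := lintegral_add_right _ mthd
    have s2 : ∫⁻ x, (u x + u (T₂ x)) ∂μ = ∫⁻ x, u x ∂μ + ∫⁻ x, u (T₂ x) ∂μ :=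
      lintegral_add_right _ mfst
    have s3 : ∫⁻ x, u (T₂ x) ∂μ = ∫⁻ x, u x ∂μ := by
      conv_rhs => rw [← h₂]
      rw [lintegral_map hu hT₂]
    have s4 : ∫⁻ x, u (T₃ x) ∂μ = ∫⁻ x, u x ∂μ := by
      conv_rhs => rw [← h₃]
      rw [lintegral_map hu hT₃]
    rw [s1, s2, s3, s4]; ring
  have hfinite : ∫⁻ x, (u x + u (T₂ x) + u (T₃ x)) ∂μ ≠ ⊤ := by
    rw [hint]; exact ENNReal.mul_ne_top (by simp) hfin
  have mg : Measurable (fun x => tripleCost s (x, T₂ x, T₃ x)) :=
    (measurable_tripleCost s).comp (measurable_id.prodMk (hT₂.prodMk hT₃))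
  have heq := ae_eq_of_ae_le_of_lintegral_le hfg hfinite mg.aemeasurable (by rw [hint]; exact hle)
  -- transfer to `ν`
  have hac := abs_cont_muOf (ν := ν) b c d e
  have hSae : ∀ᵐ p ∂ν, p ∈ S := by rw [ae_iff]; exact hS
  have hall : ∀ᵐ p ∂ν, p ∈ S ∧ (T₂ p = b p ∨ T₂ p = c p ∨ T₂ p = d p ∨ T₂ p = e p) := by
    filter_upwards [hSae, hac.ae_le hK2, hac.ae_le hK3, hac.ae_le heq] with p hp h2 h3 h4
    exact ⟨hp, hrigid p hp _ h2 _ h3 (le_of_eq h4.symm)⟩
  have nb : ν {p | p ∈ S ∧ T₂ p = b p} = 0 := by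
    have hm : MeasurableSet {p | p ∈ S ∧ T₂ p = b p} := hSm.inter (measurableSet_eq_fun hT₂ hb)
    exact null_of_compress hμ hT₂ h₂ (hcompb _ (fun p hp => hp.1) hm) (fun p hp => hp.2)
  have nc : ν {p | p ∈ S ∧ T₂ p = c p} = 0 := by
    have hm : MeasurableSet {p | p ∈ S ∧ T₂ p = c p} := hSm.inter (measurableSet_eq_fun hT₂ hc)
    exact null_of_compress hμ hT₂ h₂ (hcompc _ (fun p hp => hp.1) hm) (fun p hp => hp.2)
  have nd : ν {p | p ∈ S ∧ T₂ p = d p} = 0 := by
    have hm : MeasurableSet {p | p ∈ S ∧ T₂ p = d p} := hSm.inter (measurableSet_eq_fun hT₂ hd)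
    exact null_of_compress hμ hT₂ h₂ (hcompd _ (fun p hp => hp.1) hm) (fun p hp => hp.2)
  have ne' : ν {p | p ∈ S ∧ T₂ p = e p} = 0 := by
    have hm : MeasurableSet {p | p ∈ S ∧ T₂ p = e p} := hSm.inter (measurableSet_eq_fun hT₂ he)
    exact null_of_compress hμ hT₂ h₂ (hcompe _ (fun p hp => hp.1) hm) (fun p hp => hp.2)
  have hb0 : ∀ᵐ p ∂ν, ¬ (p ∈ S ∧ T₂ p = b p) := by rw [ae_iff]; simpa using nb
  have hc0 : ∀ᵐ p ∂ν, ¬ (p ∈ S ∧ T₂ p = c p) := by rw [ae_iff]; simpa using nc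
  have hd0 : ∀ᵐ p ∂ν, ¬ (p ∈ S ∧ T₂ p = d p) := by rw [ae_iff]; simpa using nd
  have he0 : ∀ᵐ p ∂ν, ¬ (p ∈ S ∧ T₂ p = e p) := by rw [ae_iff]; simpa using ne'
  have hfalse : ∀ᵐ p ∂ν, False := by
    filter_upwards [hall, hb0, hc0, hd0, he0] with p h1 h2 h3 h4 h5
    rcases h1.2 with h | h | h | h
    · exact h2 ⟨h1.1, h⟩
    · exact h3 ⟨h1.1, h⟩
    · exact h4 ⟨h1.1, h⟩
    · exact h5 ⟨h1.1, h⟩
  have : ν Set.univ = 0 := by
    rw [ae_iff] at hfalse
    simpa using hfalse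
  simp at this

/-- Gluing of measurable maps on a disjoint family. -/
noncomputable def glue {ι : Type*} (R : ι → Set E) (g : ι → E → E) (x : E) : E :=
  open Classical in if h : ∃ i, x ∈ R i then g h.choose x else x

lemma glue_eq {ι : Type*} {R : ι → Set E} (g : ι → E → E) (hdisj : Pairwise (Function.onFun Disjoint R))
    {i : ι} {x : E} (hx : x ∈ R i) : glue R g x = g i x := by
  classical
  have h : ∃ i, x ∈ R i := ⟨i, hx⟩
  unfold glue
  rw [dif_pos h]
  have hc : h.choose = i := by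
    by_contra hne
    exact Set.disjoint_left.mp (hdisj hne) h.choose_spec hx
  rw [hc]

lemma glue_of_not {ι : Type*} {R : ι → Set E} (g : ι → E → E) {x : E} (hx : ∀ i, x ∉ R i) :
    glue R g x = x := by
  classical
  unfold glue
  rw [dif_neg (by simpa using hx)]

lemma measurable_glue {ι : Type*} [Countable ι] {R : ι → Set E} {g : ι → E → E}
    (hR : ∀ i, MeasurableSet (R i)) (hdisj : Pairwise (Function.onFun Disjoint R))
    (hg : ∀ i, Measurable (g i)) : Measurable (glue R g) := by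
  intro W hW
  have : glue R g ⁻¹' W = (⋃ i, R i ∩ g i ⁻¹' W) ∪ ((⋃ i, R i)ᶜ ∩ W) := by
    ext x
    simp only [Set.mem_preimage, Set.mem_union, Set.mem_iUnion, Set.mem_inter_iff, Set.mem_compl_iff,
      not_exists]
    constructor
    · intro hx
      by_cases h : ∃ i, x ∈ R i
      · obtain ⟨i, hi⟩ := h
        left
        refine ⟨i, hi, ?_⟩
        rwa [glue_eq g hdisj hi] at hx
      · push_neg at h
        right
        refine ⟨h, ?_⟩
        rwa [glue_of_not g h] at hx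
    · rintro (⟨i, hi, hxi⟩ | ⟨h, hx⟩)
      · rwa [glue_eq g hdisj hi]
      · rwa [glue_of_not g h]
  rw [this]
  exact (MeasurableSet.iUnion fun i => (hR i).inter (hg i hW)).union
    ((MeasurableSet.iUnion hR).compl.inter hW)

/-- The cyclic shift on six labels. -/
def sigma6 : Equiv.Perm (Fin 6) where
  toFun := ![1, 2, 0, 4, 5, 3]
  invFun := ![2, 0, 1, 5, 3, 4]
  left_inv := by decide
  right_inv := by decide

/-- Monge approximants from a fine mixing. -/
theorem monge_approx {s : ℝ} {ι₁ ι₂ : E → E} (hS : ν Sᶜ = 0)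
    (hb : Measurable b) (hc : Measurable c) (hd : Measurable d) (he : Measurable e)
    (hι₁ : Measurable ι₁) (hι₂ : Measurable ι₂)
    (hmix : ν.map ι₁ + ν.map ι₂ = ν + ν)
    (R : Fin 6 → Set E) (hR : ∀ i, MeasurableSet (R i))
    (hdisj : Pairwise (Function.onFun Disjoint R))
    (l : Fin 6 → E → E) (hl : ∀ i, Measurable (l i))
    (hf : ∀ i, ∀ p ∈ S, (![ι₁, b, c, ι₂, d, e] : Fin 6 → E → E) i p ∈ R i ∧
      l i ((![ι₁, b, c, ι₂, d, e] : Fin 6 → E → E) i p) = p)
    (η : ℝ≥0∞)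
    (h1 : ∀ p ∈ S, tripleCost s (ι₁ p, b p, c p) ≤ tripleCost s (p, b p, c p) + η)
    (h2 : ∀ p ∈ S, tripleCost s (ι₂ p, d p, e p) ≤ tripleCost s (p, d p, e p) + η) :
    ∃ T₂ T₃ : E → E, Measurable T₂ ∧ Measurable T₃ ∧
      (muOf ν b c d e).map T₂ = muOf ν b c d e ∧ (muOf ν b c d e).map T₃ = muOf ν b c d e ∧
      ∫⁻ x, tripleCost s (x, T₂ x, T₃ x) ∂(muOf ν b c d e) ≤
        ∫⁻ P, tripleCost s P ∂(piOf ν b c d e) + η := by
  set f : Fin 6 → E → E := ![ι₁, b, c, ι₂, d, e] with hfdef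
  have hfm : ∀ i, Measurable (f i) := by
    intro i; fin_cases i
    · exact hι₁
    · exact hb
    · exact hc
    · exact hι₂
    · exact hd
    · exact he
  have hSae : ∀ᵐ p ∂ν, p ∈ S := by rw [ae_iff]; exact hS
  have hmu : muOf ν b c d e = (6 : ℝ≥0∞)⁻¹ • ∑ i, ν.map (f i) := by
    rw [Fin.sum_univ_six]
    have e0 : f 0 = ι₁ := rfl
    have e1 : f 1 = b := rfl
    have e2 : f 2 = c := rfl
    have e3 : f 3 = ι₂ := rfl
    have e4 : f 4 = d := rfl
    have e5 : f 5 = e := rfl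
    rw [e0, e1, e2, e3, e4, e5]
    unfold muOf
    congr 1
    rw [← hmix]
    abel
  -- the maps
  let g₂ : Fin 6 → E → E := fun i => f (sigma6 i) ∘ l i
  let g₃ : Fin 6 → E → E := fun i => f (sigma6 (sigma6 i)) ∘ l i
  have hg₂ : ∀ i, Measurable (g₂ i) := fun i => (hfm _).comp (hl i)
  have hg₃ : ∀ i, Measurable (g₃ i) := fun i => (hfm _).comp (hl i)
  let T₂ := glue R g₂
  let T₃ := glue R g₃
  have mT₂ : Measurable T₂ := measurable_glue hR hdisj hg₂
  have mT₃ : Measurable T₃ := measurable_glue hR hdisj hg₃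
  have hT₂ : ∀ i, ∀ p ∈ S, T₂ (f i p) = f (sigma6 i) p := by
    intro i p hp
    obtain ⟨h3, h4⟩ := hf i p hp
    show glue R g₂ (f i p) = _
    rw [glue_eq g₂ hdisj h3]
    show f (sigma6 i) (l i (f i p)) = _
    rw [h4]
  have hT₃ : ∀ i, ∀ p ∈ S, T₃ (f i p) = f (sigma6 (sigma6 i)) p := by
    intro i p hp
    obtain ⟨h3, h4⟩ := hf i p hp
    show glue R g₃ (f i p) = _
    rw [glue_eq g₃ hdisj h3]
    show f (sigma6 (sigma6 i)) (l i (f i p)) = _
    rw [h4]
  have hpres : ∀ T : E → E, Measurable T → ∀ τ : Equiv.Perm (Fin 6),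
      (∀ i, ∀ p ∈ S, T (f i p) = f (τ i) p) →
      (muOf ν b c d e).map T = muOf ν b c d e := by
    intro T hT τ hτ
    rw [hmu, Measure.map_smul]
    congr 1
    have hsum : (∑ i, ν.map (f i)).map T = ∑ i, (ν.map (f i)).map T := by
      rw [Fin.sum_univ_six, Fin.sum_univ_six]
      simp only [Measure.map_add _ _ hT]
    rw [hsum]
    have hterm : ∀ i, (ν.map (f i)).map T = ν.map (f (τ i)) := by
      intro i
      rw [Measure.map_map hT (hfm i)]
      apply Measure.map_congr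
      filter_upwards [hSae] with p hp using hτ i p hp
    simp only [hterm]
    exact Equiv.sum_comp τ (fun i => ν.map (f i))
  refine ⟨T₂, T₃, mT₂, mT₃, hpres T₂ mT₂ sigma6 hT₂,
    hpres T₃ mT₃ (sigma6 * sigma6) (fun i p hp => hT₃ i p hp), ?_⟩
  -- the cost
  have mcT : Measurable (fun x => tripleCost s (x, T₂ x, T₃ x)) :=
    (measurable_tripleCost s).comp (measurable_id.prodMk (mT₂.prodMk mT₃))
  have mc := measurable_tripleCost (E := E) s
  set A₁ := ∫⁻ p, tripleCost s (ι₁ p, b p, c p) ∂ν with hA₁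
  set A₂ := ∫⁻ p, tripleCost s (ι₂ p, d p, e p) ∂ν with hA₂
  set B₁ := ∫⁻ p, tripleCost s (p, b p, c p) ∂ν with hB₁
  set B₂ := ∫⁻ p, tripleCost s (p, d p, e p) ∂ν with hB₂
  have hterm : ∀ i : Fin 6, ∫⁻ x, tripleCost s (x, T₂ x, T₃ x) ∂(ν.map (f i)) =
      ∫⁻ p, tripleCost s (f i p, f (sigma6 i) p, f (sigma6 (sigma6 i)) p) ∂ν := by
    intro i
    rw [lintegral_map mcT (hfm i)]
    apply lintegral_congr_ae
    filter_upwards [hSae] with p hp
    rw [hT₂ i p hp, hT₃ i p hp]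
  have hcost : ∫⁻ x, tripleCost s (x, T₂ x, T₃ x) ∂(muOf ν b c d e) =
      (6 : ℝ≥0∞)⁻¹ * (A₁ + A₁ + A₁ + A₂ + A₂ + A₂) := by
    rw [hmu, lintegral_smul_measure, Fin.sum_univ_six]
    simp only [lintegral_add_measure, hterm, smul_eq_mul]
    congr 1
    have e0 : ∀ p, tripleCost s (f 0 p, f (sigma6 0) p, f (sigma6 (sigma6 0)) p) =
        tripleCost s (ι₁ p, b p, c p) := fun p => rfl
    have e1 : ∀ p, tripleCost s (f 1 p, f (sigma6 1) p, f (sigma6 (sigma6 1)) p) =
        tripleCost s (ι₁ p, b p, c p) := fun p => tripleCost_cycle s (ι₁ p) (b p) (c p)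
    have e2 : ∀ p, tripleCost s (f 2 p, f (sigma6 2) p, f (sigma6 (sigma6 2)) p) =
        tripleCost s (ι₁ p, b p, c p) := fun p => by
      show tripleCost s (c p, ι₁ p, b p) = _
      rw [← tripleCost_cycle]
    have e3 : ∀ p, tripleCost s (f 3 p, f (sigma6 3) p, f (sigma6 (sigma6 3)) p) =
        tripleCost s (ι₂ p, d p, e p) := fun p => rfl
    have e4 : ∀ p, tripleCost s (f 4 p, f (sigma6 4) p, f (sigma6 (sigma6 4)) p) =
        tripleCost s (ι₂ p, d p, e p) := fun p => tripleCost_cycle s (ι₂ p) (d p) (e p)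
    have e5 : ∀ p, tripleCost s (f 5 p, f (sigma6 5) p, f (sigma6 (sigma6 5)) p) =
        tripleCost s (ι₂ p, d p, e p) := fun p => by
      show tripleCost s (e p, ι₂ p, d p) = _
      rw [← tripleCost_cycle]
    simp only [e0, e1, e2, e3, e4, e5]
    rfl
  have hcost0 : ∫⁻ P, tripleCost s P ∂(piOf ν b c d e) =
      (6 : ℝ≥0∞)⁻¹ * (B₁ + B₁ + B₁ + B₂ + B₂ + B₂) := by
    unfold piOf
    rw [lintegral_smul_measure]
    simp only [lintegral_add_measure, smul_eq_mul]
    have m1 : Measurable (fun p : E => (p, b p, c p)) := measurable_id.prodMk (hb.prodMk hc)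
    have m2 : Measurable (fun p : E => (b p, c p, p)) := hb.prodMk (hc.prodMk measurable_id)
    have m3 : Measurable (fun p : E => (c p, p, b p)) := hc.prodMk (measurable_id.prodMk hb)
    have m4 : Measurable (fun p : E => (p, d p, e p)) := measurable_id.prodMk (hd.prodMk he)
    have m5 : Measurable (fun p : E => (d p, e p, p)) := hd.prodMk (he.prodMk measurable_id)
    have m6 : Measurable (fun p : E => (e p, p, d p)) := he.prodMk (measurable_id.prodMk hd)
    rw [lintegral_map mc m1, lintegral_map mc m2, lintegral_map mc m3, lintegral_map mc m4,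
      lintegral_map mc m5, lintegral_map mc m6]
    congr 1
    have e2 : ∀ p, tripleCost s (b p, c p, p) = tripleCost s (p, b p, c p) :=
      fun p => tripleCost_cycle s p (b p) (c p)
    have e3 : ∀ p, tripleCost s (c p, p, b p) = tripleCost s (p, b p, c p) :=
      fun p => by rw [← tripleCost_cycle]
    have e5 : ∀ p, tripleCost s (d p, e p, p) = tripleCost s (p, d p, e p) :=
      fun p => tripleCost_cycle s p (d p) (e p)
    have e6 : ∀ p, tripleCost s (e p, p, d p) = tripleCost s (p, d p, e p) :=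
      fun p => by rw [← tripleCost_cycle]
    simp only [e2, e3, e5, e6]
    rfl
  have hA1 : A₁ ≤ B₁ + η := by
    calc A₁ ≤ ∫⁻ p, (tripleCost s (p, b p, c p) + η) ∂ν :=
          lintegral_mono_ae (by filter_upwards [hSae] with p hp using h1 p hp)
      _ = B₁ + ∫⁻ _, η ∂ν := lintegral_add_right _ measurable_const
      _ = B₁ + η := by simp
  have hA2 : A₂ ≤ B₂ + η := by
    calc A₂ ≤ ∫⁻ p, (tripleCost s (p, d p, e p) + η) ∂ν :=
          lintegral_mono_ae (by filter_upwards [hSae] with p hp using h2 p hp)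
      _ = B₂ + ∫⁻ _, η ∂ν := lintegral_add_right _ measurable_const
      _ = B₂ + η := by simp
  rw [hcost, hcost0]
  have hsum : A₁ + A₁ + A₁ + A₂ + A₂ + A₂ ≤ (B₁ + B₁ + B₁ + B₂ + B₂ + B₂) + 6 * η := by
    calc A₁ + A₁ + A₁ + A₂ + A₂ + A₂
        ≤ (B₁ + η) + (B₁ + η) + (B₁ + η) + (B₂ + η) + (B₂ + η) + (B₂ + η) := by gcongr
      _ = (B₁ + B₁ + B₁ + B₂ + B₂ + B₂) + 6 * η := by ring
  calc (6 : ℝ≥0∞)⁻¹ * (A₁ + A₁ + A₁ + A₂ + A₂ + A₂)
      ≤ (6 : ℝ≥0∞)⁻¹ * ((B₁ + B₁ + B₁ + B₂ + B₂ + B₂) + 6 * η) := by gcongr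
    _ = (6 : ℝ≥0∞)⁻¹ * (B₁ + B₁ + B₁ + B₂ + B₂ + B₂) + η := by
        rw [mul_add, ← mul_assoc, ENNReal.inv_mul_cancel (by simp) (by simp), one_mul]

end Main

end Crest.Agent.Lib.OT3
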