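import Crest.Agent.Lib.OT3.Clusters

/-!
Choice of the small parameters and of the local diffeomorphisms.
-/

set_option autoImplicit false

namespace Crest.Agent.Lib.OT3

set_option linter.unusedSectionVars false

open scoped RealInnerProductSpace ContDiff Topology ENNReal
open Crest.AnalysisR.OT Metric Filter

lemma exists_params {s Λ L : ℝ} (hs : 0 < s) (hΛ : 0 < Λ) (hL : 0 ≤ L) :
    ∃ τ τ' ε : ℝ, 0 < τ ∧ 0 < τ' ∧ τ' ≤ τ / 2 ∧ τ + τ' ≤ (3:ℝ) ^ (-s) ∧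
      τ' ≤ 2 + (2:ℝ) ^ (-s) - 2 * τ ∧ 0 < ε ∧ ε ≤ 1 / 8 ∧
      (Λ / 2) * ε ^ 2 ≤ 2 + (2:ℝ) ^ (-s) - 2 * τ ∧
      L * ε + (Λ / 2) * ε ^ 2 ≤ τ' ∧
      3 * (2 + (2:ℝ) ^ (-s) - 2 * τ + τ) < (2 * ε) ^ (-s) ∧
      2 + (2:ℝ) ^ (-s) + 2 * τ' < 2 * (1 + 2 * ε) ^ (-s) + (Real.sqrt 2 + 2 * ε) ^ (-s) := by
  have h3pos : 0 < (3:ℝ) ^ (-s) := Real.rpow_pos_of_pos (by norm_num) _
  have h3le : (3:ℝ) ^ (-s) ≤ 1 := Real.rpow_le_one_of_one_le_of_nonpos (by norm_num) (by linarith)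
  have h2pos : 0 < (2:ℝ) ^ (-s) := Real.rpow_pos_of_pos (by norm_num) _
  have hsq : 0 < Real.sqrt 2 := by positivity
  have hsq2 : Real.sqrt 2 < 2 := by
    rw [Real.sqrt_lt' (by norm_num)]; norm_num
  have hm : 0 < (Real.sqrt 2) ^ (-s) - (2:ℝ) ^ (-s) := by
    have := Real.rpow_lt_rpow_of_neg hsq hsq2 (neg_lt_zero.mpr hs)
    linarith
  set m := (Real.sqrt 2) ^ (-s) - (2:ℝ) ^ (-s) with hmdef
  set τ : ℝ := (3:ℝ) ^ (-s) / 2 with hτ
  have hτpos : 0 < τ := by positivity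
  set τ' : ℝ := min (τ / 2) (m / 4) with hτ'
  have hτ'pos : 0 < τ' := lt_min (by positivity) (by positivity)
  have hτ'1 : τ' ≤ τ / 2 := min_le_left _ _
  have hτ'2 : τ' ≤ m / 4 := min_le_right _ _
  have hU : 0 < 2 + (2:ℝ) ^ (-s) - 2 * τ := by
    rw [hτ]; linarith
  have hU' : τ' ≤ 2 + (2:ℝ) ^ (-s) - 2 * τ := by
    rw [hτ] at hτ'1 ⊢
    linarith
  -- the eventual conditions
  have c1 : ∀ᶠ ε in 𝓝[>] (0:ℝ), ε ≤ 1 / 8 := by
    filter_upwards [Ioc_mem_nhdsGT (by norm_num : (0:ℝ) < 1 / 8)] with ε hε using hε.2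
  have cont2 : Continuous (fun ε : ℝ => (Λ / 2) * ε ^ 2) := by fun_prop
  have c2 : ∀ᶠ ε in 𝓝[>] (0:ℝ), (Λ / 2) * ε ^ 2 < 2 + (2:ℝ) ^ (-s) - 2 * τ := by
    apply Filter.Eventually.filter_mono nhdsWithin_le_nhds
    apply cont2.continuousAt.eventually_lt continuousAt_const
    simpa using hU
  have cont3 : Continuous (fun ε : ℝ => L * ε + (Λ / 2) * ε ^ 2) := by fun_prop
  have c3 : ∀ᶠ ε in 𝓝[>] (0:ℝ), L * ε + (Λ / 2) * ε ^ 2 < τ' := by
    apply Filter.Eventually.filter_mono nhdsWithin_le_nhds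
    apply cont3.continuousAt.eventually_lt continuousAt_const
    simpa using hτ'pos
  have c4 : ∀ᶠ ε in 𝓝[>] (0:ℝ), 3 * (2 + (2:ℝ) ^ (-s) - 2 * τ + τ) < (2 * ε) ^ (-s) := by
    have h1 : Tendsto (fun ε : ℝ => 2 * ε) (𝓝[>] 0) (𝓝[>] 0) := by
      apply tendsto_nhdsWithin_of_tendsto_nhds_of_eventually_within
      · have : Tendsto (fun ε : ℝ => 2 * ε) (𝓝 0) (𝓝 (2 * 0)) :=
          (continuous_const.mul continuous_id).tendsto 0
        rw [mul_zero] at this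
        exact this.mono_left nhdsWithin_le_nhds
      · filter_upwards [self_mem_nhdsWithin] with ε hε
        have : 0 < ε := hε
        simp only [Set.mem_Ioi]; positivity
    have h2 := (tendsto_rpow_neg_nhdsGT_zero (y := -s) (by linarith)).comp h1
    exact h2.eventually (eventually_gt_atTop _)
  have c5 : ∀ᶠ ε in 𝓝[>] (0:ℝ),
      2 + (2:ℝ) ^ (-s) + 2 * τ' < 2 * (1 + 2 * ε) ^ (-s) + (Real.sqrt 2 + 2 * ε) ^ (-s) := by
    apply Filter.Eventually.filter_mono nhdsWithin_le_nhds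
    have hc1 : ContinuousAt (fun ε : ℝ => (1 + 2 * ε) ^ (-s)) 0 := by
      apply ContinuousAt.rpow_const (by fun_prop)
      left; simp
    have hc2 : ContinuousAt (fun ε : ℝ => (Real.sqrt 2 + 2 * ε) ^ (-s)) 0 := by
      apply ContinuousAt.rpow_const (by fun_prop)
      left; simp
    have hc3 : ContinuousAt (fun ε : ℝ => 2 * (1 + 2 * ε) ^ (-s) + (Real.sqrt 2 + 2 * ε) ^ (-s)) 0 :=
      (continuousAt_const.mul hc1).add hc2
    apply continuousAt_const.eventually_lt hc3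
    simp only [mul_zero, add_zero, Real.one_rpow, mul_one]
    linarith
  have hex := (((((c1.and c2).and c3).and c4).and c5).and self_mem_nhdsWithin).exists
  obtain ⟨ε, ⟨⟨⟨⟨h1, h2⟩, h3⟩, h4⟩, h5⟩, h6⟩ := hex
  refine ⟨τ, τ', ε, hτpos, hτ'pos, hτ'1, ?_, hU', h6, h1, h2.le, h3.le, h4, h5⟩
  rw [hτ] at hτ'1 ⊢
  linarith

variable {E : Type*} [NormedAddCommGroup E] [InnerProductSpace ℝ E]

lemma measurable_rpow_norm_sub [MeasurableSpace E] [BorelSpace E] [SecondCountableTopology E] (s : ℝ) :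
    Measurable (fun P : E × E => ‖P.1 - P.2‖ ^ (-s)) :=
  (measurable_fst.sub measurable_snd).norm.pow_const _

lemma measurable_Fc [MeasurableSpace E] [BorelSpace E] [SecondCountableTopology E]
    (s Λ τ : ℝ) (e0 : E) :
    Measurable (fun P : E × E × E => Fc s Λ τ e0 P.1 P.2.1 P.2.2) := by
  have ms : Measurable (fun p : E × E × E => p.2.1) := measurable_fst.comp measurable_snd
  have mt : Measurable (fun p : E × E × E => p.2.2) := measurable_snd.comp measurable_snd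
  have h1 : Measurable (fun P : E × E × E => costR s P.1 P.2.1 P.2.2) := by
    unfold costR
    exact (((measurable_rpow_norm_sub s).comp (measurable_fst.prodMk ms)).add
      ((measurable_rpow_norm_sub s).comp (measurable_fst.prodMk mt))).add
      ((measurable_rpow_norm_sub s).comp (ms.prodMk mt))
  have h2 : Measurable (fun P : E × E × E => uA s Λ τ P.1) := by
    unfold uA
    exact measurable_const.sub (measurable_const.mul (measurable_fst.norm.pow_const 2))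
  have h3 : Measurable (fun P : E × E × E => uB s Λ τ e0 P.2.1) := by
    unfold uB
    have h4 : Measurable (fun P : E × E × E => P.2.1 - e0) := ms.sub_const e0
    exact (measurable_const.add (h4.const_inner)).sub (measurable_const.mul (h4.norm.pow_const 2))
  unfold Fc
  exact (h1.sub h2).sub h3

lemma Fc_base {s : ℝ} {Λ τ : ℝ} {e0 : E} (he0 : ‖e0‖ = 1) :
    Fc s Λ τ e0 0 e0 (-e0) = τ := by
  have h2 : ‖e0 + e0‖ = 2 := by
    have : e0 + e0 = (2:ℝ) • e0 := by rw [two_smul]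
    rw [this, norm_smul, he0]; simp
  simp only [Fc, costR, uA, uB, sub_self, inner_zero_right, norm_zero, zero_sub, sub_neg_eq_add,
    zero_add, norm_neg, he0, Real.one_rpow, h2]
  have : (0:ℝ) ^ 2 = 0 := by norm_num
  simp only [this, mul_zero]
  ring

lemma continuousAt_rpow_norm_sub {F : Type*} [TopologicalSpace F] {f g : F → E} {x : F} (s : ℝ)
    (hf : ContinuousAt f x) (hg : ContinuousAt g x) (h : f x ≠ g x) :
    ContinuousAt (fun y => ‖f y - g y‖ ^ (-s)) x := by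
  apply ContinuousAt.rpow_const (hf.sub hg).norm
  left
  exact norm_ne_zero_iff.mpr (sub_ne_zero.mpr h)

lemma continuousAt_Fc {s Λ τ : ℝ} {e0 : E} {b c : E → E} (hb : ContinuousAt b 0)
    (hc : ContinuousAt c 0) (h1 : (0:E) ≠ b 0) (h2 : (0:E) ≠ c 0) (h3 : b 0 ≠ c 0) :
    ContinuousAt (fun q => Fc s Λ τ e0 q (b q) (c q)) 0 := by
  unfold Fc costR uA uB
  have hid : ContinuousAt (fun q : E => q) 0 := continuousAt_id
  apply ContinuousAt.sub
  · apply ContinuousAt.sub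
    · exact ((continuousAt_rpow_norm_sub s hid hb h1).add (continuousAt_rpow_norm_sub s hid hc h2)).add
        (continuousAt_rpow_norm_sub s hb hc h3)
    · apply ContinuousAt.sub continuousAt_const
      exact continuousAt_const.mul (hid.norm.pow 2)
  · apply ContinuousAt.sub
    · apply ContinuousAt.add continuousAt_const
      exact continuousAt_const.inner (hb.sub continuousAt_const)
    · exact continuousAt_const.mul ((hb.sub continuousAt_const).norm.pow 2)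

/-- All the data with the parameter set `O` not yet shrunk to `S`. -/
structure Base (E : Type*) [NormedAddCommGroup E] [InnerProductSpace ℝ E] [MeasurableSpace E]
    where
  s : ℝ
  Λ : ℝ
  τ : ℝ
  τ' : ℝ
  ε : ℝ
  hs : 0 < s
  hΛ : 3 * s * (2:ℝ) ^ (s + 2) < Λ
  e0 : E
  e1 : E
  he0 : ‖e0‖ = 1
  he1 : ‖e1‖ = 1
  horth : ⟪e0, e1⟫ = 0
  R : E →ₗᵢ[ℝ] E
  hR : ∀ x, R (R x) = x
  hRe : R e0 = e1
  O : Set E
  hOo : IsOpen O
  h0O : (0:E) ∈ O
  b : E → E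
  c : E → E
  uC : E → ℝ
  mb : Measurable b
  mc : Measurable c
  muC : Measurable uC
  eb : OpenPartialHomeomorph E E
  ec : OpenPartialHomeomorph E E
  ebs : eb.source = O
  ecs : ec.source = O
  ebb : ∀ x ∈ O, b x = eb x
  ecc : ∀ x ∈ O, c x = ec x
  sb : ContDiffOn ℝ ∞ eb eb.source
  sc : ContDiffOn ℝ ∞ ec ec.source
  sb' : ContDiffOn ℝ ∞ eb.symm eb.target
  sc' : ContDiffOn ℝ ∞ ec.symm ec.target
  binv : E → E
  cinv : E → E
  mbinv : Measurable binv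
  mcinv : Measurable cinv
  hbinv : ∀ x ∈ O, binv (b x) = x
  hcinv : ∀ x ∈ O, cinv (c x) = x
  hst1 : ∀ x ∈ O, G s (x - b x) + G s (x - c x) + Λ • x = 0
  hst2 : ∀ x ∈ O, G s (b x - x) + G s (b x - c x) + Λ • (b x - e0) - (G s e0 + G s ((2:ℝ) • e0)) = 0
  hSε : ∀ x ∈ O, ‖x‖ < ε
  hbε : ∀ x ∈ O, ‖b x - e0‖ < ε
  hcε : ∀ x ∈ O, ‖c x + e0‖ < ε
  huC : ∀ x ∈ O, uC (c x) = Fc s Λ τ e0 x (b x) (c x)
  hFc : ∀ x ∈ O, |Fc s Λ τ e0 x (b x) (c x) - τ| ≤ τ'
  hτ : 0 < τ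
  hτ' : 0 ≤ τ'
  hτ'τ : τ' ≤ τ / 2
  hτ3 : τ + τ' ≤ (3:ℝ) ^ (-s)
  hU : τ' ≤ 2 + (2:ℝ) ^ (-s) - 2 * τ
  hε0 : 0 < ε
  hε8 : ε ≤ 1 / 8
  hA0 : ∀ x : E, ‖x‖ < ε → 0 ≤ uA s Λ τ x
  hB : ∀ y : E, ‖y - e0‖ < ε → |uB s Λ τ e0 y - τ| ≤ τ'
  hrep : 3 * (2 + (2:ℝ) ^ (-s) - 2 * τ + τ) < (2 * ε) ^ (-s)
  hcross : 2 + (2:ℝ) ^ (-s) + 2 * τ' < 2 * (1 + 2 * ε) ^ (-s) + (Real.sqrt 2 + 2 * ε) ^ (-s)

/-- Restricting the base data to a smaller invariant set. -/
def Base.cluster [MeasurableSpace E] (B : Base E) (S : Set E) (hS : S ⊆ B.O) (hRS : ∀ x ∈ S, B.R x ∈ S) :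
    ClusterData E where
  s := B.s
  Λ := B.Λ
  τ := B.τ
  τ' := B.τ'
  ε := B.ε
  hs := B.hs
  hΛ := B.hΛ
  e0 := B.e0
  e1 := B.e1
  he0 := B.he0
  he1 := B.he1
  horth := B.horth
  R := B.R
  hR := B.hR
  hRe := B.hRe
  S := S
  b := B.b
  c := B.c
  uC := B.uC
  hRS := hRS
  hst1 := fun x hx => B.hst1 x (hS hx)
  hst2 := fun x hx => B.hst2 x (hS hx)
  hSε := fun x hx => B.hSε x (hS hx)
  hbε := fun x hx => B.hbε x (hS hx)
  hcε := fun x hx => B.hcε x (hS hx)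
  huC := fun x hx => B.huC x (hS hx)
  hFc := fun x hx => B.hFc x (hS hx)
  hτ := B.hτ
  hτ' := B.hτ'
  hτ'τ := B.hτ'τ
  hτ3 := B.hτ3
  hU := B.hU
  hε0 := B.hε0
  hε8 := B.hε8
  hA0 := B.hA0
  hB := B.hB
  hrep := B.hrep
  hcross := B.hcross

/-- Existence of the base data. -/
theorem exists_base [FiniteDimensional ℝ E] [MeasurableSpace E] [BorelSpace E]
    [SecondCountableTopology E] {s : ℝ} (hs : 0 < s) {e0 e1 : E} (he0 : ‖e0‖ = 1) (he1 : ‖e1‖ = 1)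
    (horth : ⟪e0, e1⟫ = 0) (R : E →ₗᵢ[ℝ] E) (hR : ∀ x, R (R x) = x) (hRe : R e0 = e1) :
    ∃ B : Base E, B.s = s ∧ B.e0 = e0 ∧ B.e1 = e1 ∧ B.R = R := by
  -- the constant `Λ`
  set Λ : ℝ := 4 * s * (2:ℝ) ^ (s + 5) with hΛdef
  have h2pow : ∀ t : ℝ, 0 < (2:ℝ) ^ t := fun t => Real.rpow_pos_of_pos (by norm_num) _
  have hpow5 : (2:ℝ) ^ (s + 5) = 8 * (2:ℝ) ^ (s + 2) := by
    have : s + 5 = (s + 2) + 3 := by ring
    rw [this, Real.rpow_add (by norm_num)]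
    norm_num
    ring
  have hpow2 : (1:ℝ) ≤ (2:ℝ) ^ (s + 2) := Real.one_le_rpow (by norm_num) (by linarith)
  have hΛ₀ : 3 * s * (2:ℝ) ^ (s + 2) < Λ := by
    rw [hΛdef, hpow5]
    have := mul_pos hs (h2pow (s + 2))
    nlinarith
  have hΛ₁ : 3 * s < Λ := by
    have h1 : 3 * s ≤ 3 * s * (2:ℝ) ^ (s + 2) := by nlinarith
    linarith
  have hΛ₂ : (2 + (2:ℝ) ^ (s + 2)) * s < Λ := by
    rw [hΛdef, hpow5]
    have := mul_pos hs (h2pow (s + 2))
    nlinarith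
  have hΛpos : 0 < Λ := by
    have := mul_pos hs (h2pow (s + 5))
    rw [hΛdef]; linarith
  obtain ⟨U₁, b₀, c₀, hU₁, h0U, hbs, hcs, hb0, hc0, hst1, hst2, hinjb, hinjc⟩ :=
    exists_family hs he0 hΛ₁ hΛ₂
  set ℓ : E := G s e0 + G s ((2:ℝ) • e0) with hℓ
  obtain ⟨τ, τ', ε, hτ, hτ'pos, hτ'τ, hτ3, hU, hε0, hε8, hε1, hε2, hrep, hcross⟩ :=
    exists_params (L := ‖ℓ‖) hs hΛpos (norm_nonneg _)
  -- local diffeomorphisms
  have diffeo : ∀ f : E → E, (∀ x ∈ U₁, ContDiffAt ℝ ∞ f x) → Function.Injective (fderiv ℝ f 0) →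
      ∃ e : OpenPartialHomeomorph E E, (0:E) ∈ e.source ∧ e.source ⊆ U₁ ∧ ((e : E → E) = f) ∧
        (∀ y ∈ e.target, ContDiffAt ℝ ∞ e.symm y) := by
    intro f hf hinj
    let L : E ≃L[ℝ] E :=
      (LinearEquiv.ofInjectiveEndo (fderiv ℝ f 0).toLinearMap hinj).toContinuousLinearEquiv
    have hLcoe : (L : E →L[ℝ] E) = fderiv ℝ f 0 := by
      ext v; rfl
    have hD : HasFDerivAt f (L : E →L[ℝ] E) 0 := by
      rw [hLcoe]
      exact ((hf 0 h0U).differentiableAt (by simp)).hasFDerivAt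
    have hon : ContDiffOn ℝ ∞ f U₁ := fun x hx => (hf x hx).contDiffWithinAt
    obtain ⟨e, h1, h2, h3, _, h5⟩ := exists_local_diffeo hU₁ hon h0U L hD
    exact ⟨e, h1, h2, h3, h5⟩
  obtain ⟨eb₀, hb1, hb2, hb3, hb5⟩ := diffeo b₀ hbs hinjb
  obtain ⟨ec₀, hc1, hc2, hc3, hc5⟩ := diffeo c₀ hcs hinjc
  -- smallness near zero
  have hcb : ContinuousAt b₀ 0 := (hbs 0 h0U).continuousAt
  have hcc : ContinuousAt c₀ 0 := (hcs 0 h0U).continuousAt
  have hne0 : e0 ≠ 0 := by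
    intro h; rw [h] at he0; simp at he0
  have n1 : (0:E) ≠ b₀ 0 := by rw [hb0]; exact hne0.symm
  have n2 : (0:E) ≠ c₀ 0 := by rw [hc0]; simpa using hne0
  have n3 : b₀ 0 ≠ c₀ 0 := by
    rw [hb0, hc0]
    intro h
    have : (2:ℝ) • e0 = 0 := by
      rw [two_smul]; nth_rw 1 [h]; simp
    simp [hne0] at this
  have ev1 : ∀ᶠ x : E in 𝓝 0, ‖x‖ < ε := by
    have : Tendsto (fun x : E => ‖x‖) (𝓝 0) (𝓝 ‖(0:E)‖) := continuous_norm.tendsto 0
    rw [norm_zero] at this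
    exact this.eventually (gt_mem_nhds hε0)
  have ev2 : ∀ᶠ x : E in 𝓝 0, ‖b₀ x - e0‖ < ε := by
    have : Tendsto (fun x : E => ‖b₀ x - e0‖) (𝓝 0) (𝓝 ‖b₀ 0 - e0‖) :=
      (hcb.sub continuousAt_const).norm
    rw [hb0, sub_self, norm_zero] at this
    exact this.eventually (gt_mem_nhds hε0)
  have ev3 : ∀ᶠ x : E in 𝓝 0, ‖c₀ x + e0‖ < ε := by
    have : Tendsto (fun x : E => ‖c₀ x + e0‖) (𝓝 0) (𝓝 ‖c₀ 0 + e0‖) :=
      (hcc.add continuousAt_const).norm
    rw [hc0, neg_add_cancel, norm_zero] at this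
    exact this.eventually (gt_mem_nhds hε0)
  have ev4 : ∀ᶠ x : E in 𝓝 0, |Fc s Λ τ e0 x (b₀ x) (c₀ x) - τ| ≤ τ' := by
    have h1 := continuousAt_Fc (s := s) (Λ := Λ) (τ := τ) (e0 := e0) hcb hcc n1 n2 n3
    have h2 : Tendsto (fun x : E => |Fc s Λ τ e0 x (b₀ x) (c₀ x) - τ|) (𝓝 0)
        (𝓝 |Fc s Λ τ e0 0 (b₀ 0) (c₀ 0) - τ|) := (h1.sub continuousAt_const).abs
    rw [hb0, hc0, Fc_base he0, sub_self, abs_zero] at h2
    filter_upwards [h2.eventually (gt_mem_nhds hτ'pos)] with x hx using hx.le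
  have ev5 : eb₀.source ∩ ec₀.source ∈ 𝓝 (0:E) :=
    Filter.inter_mem (eb₀.open_source.mem_nhds hb1) (ec₀.open_source.mem_nhds hc1)
  have hall : {x : E | ‖x‖ < ε} ∩ {x : E | ‖b₀ x - e0‖ < ε} ∩ {x : E | ‖c₀ x + e0‖ < ε} ∩
      {x : E | |Fc s Λ τ e0 x (b₀ x) (c₀ x) - τ| ≤ τ'} ∩ (eb₀.source ∩ ec₀.source) ∈ 𝓝 (0:E) :=
    Filter.inter_mem (Filter.inter_mem (Filter.inter_mem (Filter.inter_mem ev1 ev2) ev3) ev4) ev5
  obtain ⟨O, hOsub, hOo, h0O⟩ := _root_.mem_nhds_iff.mp hall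
  have hOb : O ⊆ eb₀.source := fun x hx => (hOsub hx).2.1
  have hOc : O ⊆ ec₀.source := fun x hx => (hOsub hx).2.2
  -- the restricted partial homeomorphisms
  let eb := eb₀.restrOpen O hOo
  let ec := ec₀.restrOpen O hOo
  have hebs : eb.source = O := by
    show (eb₀.restrOpen O hOo).source = O
    simp only [OpenPartialHomeomorph.restrOpen_source]
    exact Set.inter_eq_self_of_subset_right hOb
  have hecs : ec.source = O := by
    show (ec₀.restrOpen O hOo).source = O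
    simp only [OpenPartialHomeomorph.restrOpen_source]
    exact Set.inter_eq_self_of_subset_right hOc
  have hebcoe : (eb : E → E) = b₀ := hb3
  have heccoe : (ec : E → E) = c₀ := hc3
  have hebt : ∀ y ∈ eb.target, ContDiffAt ℝ ∞ eb.symm y := by
    intro y hy
    have hy' : y ∈ eb₀.target := hy.1
    exact hb5 y hy'
  have hect : ∀ y ∈ ec.target, ContDiffAt ℝ ∞ ec.symm y := by
    intro y hy
    have hy' : y ∈ ec₀.target := hy.1
    exact hc5 y hy'
  classical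
  -- global measurable versions
  let b : E → E := O.piecewise b₀ (fun _ => 0)
  let c : E → E := O.piecewise c₀ (fun _ => 0)
  have hbon : ContinuousOn b₀ O := fun x hx =>
    (hbs x (hb2 (hOb hx))).continuousAt.continuousWithinAt
  have hcon : ContinuousOn c₀ O := fun x hx =>
    (hcs x (hc2 (hOc hx))).continuousAt.continuousWithinAt
  have mb : Measurable b := hbon.measurable_piecewise continuousOn_const hOo.measurableSet
  have mc : Measurable c := hcon.measurable_piecewise continuousOn_const hOo.measurableSet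
  have hbO : ∀ x ∈ O, b x = b₀ x := fun x hx => Set.piecewise_eq_of_mem _ _ _ hx
  have hcO : ∀ x ∈ O, c x = c₀ x := fun x hx => Set.piecewise_eq_of_mem _ _ _ hx
  let binv : E → E := eb.target.piecewise eb.symm (fun _ => 0)
  let cinv : E → E := ec.target.piecewise ec.symm (fun _ => 0)
  have mbinv : Measurable binv :=
    eb.continuousOn_symm.measurable_piecewise continuousOn_const eb.open_target.measurableSet
  have mcinv : Measurable cinv :=
    ec.continuousOn_symm.measurable_piecewise continuousOn_const ec.open_target.measurableSet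
  have hbinv : ∀ x ∈ O, binv (b x) = x := by
    intro x hx
    have hxs : x ∈ eb.source := by rw [hebs]; exact hx
    have e1 : b x = eb x := by rw [hbO x hx, hebcoe]
    rw [e1]
    have : eb x ∈ eb.target := eb.map_source hxs
    show eb.target.piecewise eb.symm (fun _ => 0) (eb x) = x
    rw [Set.piecewise_eq_of_mem _ _ _ this]
    exact eb.left_inv hxs
  have hcinv : ∀ x ∈ O, cinv (c x) = x := by
    intro x hx
    have hxs : x ∈ ec.source := by rw [hecs]; exact hx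
    have e1 : c x = ec x := by rw [hcO x hx, heccoe]
    rw [e1]
    have : ec x ∈ ec.target := ec.map_source hxs
    show ec.target.piecewise ec.symm (fun _ => 0) (ec x) = x
    rw [Set.piecewise_eq_of_mem _ _ _ this]
    exact ec.left_inv hxs
  let uC : E → ℝ := fun z => Fc s Λ τ e0 (cinv z) (b (cinv z)) (c (cinv z))
  have muC : Measurable uC :=
    (measurable_Fc s Λ τ e0).comp (mcinv.prodMk ((mb.comp mcinv).prodMk (mc.comp mcinv)))
  have hΛ3 : 0 ≤ Λ / 2 := by positivity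
  refine ⟨{
    s := s
    Λ := Λ
    τ := τ
    τ' := τ'
    ε := ε
    hs := hs
    hΛ := hΛ₀
    e0 := e0
    e1 := e1
    he0 := he0
    he1 := he1
    horth := horth
    R := R
    hR := hR
    hRe := hRe
    O := O
    hOo := hOo
    h0O := h0O
    b := b
    c := c
    uC := uC
    mb := mb
    mc := mc
    muC := muC
    eb := eb
    ec := ec
    ebs := hebs
    ecs := hecs
    ebb := fun x hx => by rw [hbO x hx, hebcoe]
    ecc := fun x hx => by rw [hcO x hx, heccoe]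
    sb := ?_
    sc := ?_
    sb' := fun y hy => (hebt y hy).contDiffWithinAt
    sc' := fun y hy => (hect y hy).contDiffWithinAt
    binv := binv
    cinv := cinv
    mbinv := mbinv
    mcinv := mcinv
    hbinv := hbinv
    hcinv := hcinv
    hst1 := ?_
    hst2 := ?_
    hSε := fun x hx => (hOsub hx).1.1.1.1
    hbε := fun x hx => by rw [hbO x hx]; exact (hOsub hx).1.1.1.2
    hcε := fun x hx => by rw [hcO x hx]; exact (hOsub hx).1.1.2
    huC := ?_
    hFc := fun x hx => by rw [hbO x hx, hcO x hx]; exact (hOsub hx).1.2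
    hτ := hτ
    hτ' := hτ'pos.le
    hτ'τ := hτ'τ
    hτ3 := hτ3
    hU := hU
    hε0 := hε0
    hε8 := hε8
    hA0 := ?_
    hB := ?_
    hrep := hrep
    hcross := hcross }, rfl, rfl, rfl, rfl⟩
  · rw [hebs, hebcoe]
    exact fun x hx => (hbs x (hb2 (hOb hx))).contDiffWithinAt
  · rw [hecs, heccoe]
    exact fun x hx => (hcs x (hc2 (hOc hx))).contDiffWithinAt
  · intro x hx
    rw [hbO x hx, hcO x hx]
    exact hst1 x (hb2 (hOb hx))
  · intro x hx
    rw [hbO x hx, hcO x hx]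
    exact hst2 x (hb2 (hOb hx))
  · intro x hx
    show Fc s Λ τ e0 (cinv (c x)) (b (cinv (c x))) (c (cinv (c x))) = _
    rw [hcinv x hx]
  · intro x hx
    have h1 : ‖x‖ ^ 2 ≤ ε ^ 2 := pow_le_pow_left₀ (norm_nonneg _) hx.le 2
    have h2 : (Λ / 2) * ‖x‖ ^ 2 ≤ (Λ / 2) * ε ^ 2 := mul_le_mul_of_nonneg_left h1 hΛ3
    simp only [uA]
    linarith
  · intro y hy
    have h1 : ‖y - e0‖ ^ 2 ≤ ε ^ 2 := pow_le_pow_left₀ (norm_nonneg _) hy.le 2
    have h2 : (Λ / 2) * ‖y - e0‖ ^ 2 ≤ (Λ / 2) * ε ^ 2 := mul_le_mul_of_nonneg_left h1 hΛ3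
    have h3 : |⟪ℓ, y - e0⟫| ≤ ‖ℓ‖ * ε := by
      calc |⟪ℓ, y - e0⟫| ≤ ‖ℓ‖ * ‖y - e0‖ := abs_real_inner_le_norm _ _
        _ ≤ ‖ℓ‖ * ε := mul_le_mul_of_nonneg_left hy.le (norm_nonneg _)
    have h4 := abs_le.mp h3
    have h5 : 0 ≤ (Λ / 2) * ‖y - e0‖ ^ 2 := by positivity
    simp only [uB]
    rw [abs_le]
    constructor <;> linarith [h4.1, h4.2]

end Crest.Agent.Lib.OT3
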