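import Mathlib

/-!
Calculus for the inverse power kernel: the gradient `G`, its derivative, the exact tangent
inequality, and a general "local diffeomorphism" packaging of the inverse function theorem.
-/

set_option autoImplicit false

namespace Crest.Agent.Lib.OT3

open scoped RealInnerProductSpace ContDiff Topology

section Basic

variable {E : Type*} [NormedAddCommGroup E] [InnerProductSpace ℝ E]

/-- The gradient of `r ↦ ‖r‖ ^ (-s)`. -/
noncomputable def G (s : ℝ) (r : E) : E := (-s * ‖r‖ ^ (-s - 2)) • r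

lemma G_neg (s : ℝ) (r : E) : G s (-r) = - G s r := by simp [G]

lemma G_sub_comm (s : ℝ) (x y : E) : G s (x - y) = - G s (y - x) := by
  rw [← G_neg, neg_sub]

lemma bernoulli_neg {a x : ℝ} (ha : 0 ≤ a) (hx : 0 < x) : 1 - a * (x - 1) ≤ x ^ (-a) := by
  have h1 : Real.log x ≤ x - 1 := Real.log_le_sub_one_of_pos hx
  have h2 : x ^ (-a) = Real.exp (-a * Real.log x) := by
    rw [Real.rpow_def_of_pos hx]; ring_nf
  rw [h2]
  have h3 := Real.add_one_le_exp (-a * Real.log x)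
  nlinarith [mul_le_mul_of_nonneg_left h1 ha]

/-- The exact tangent inequality. -/
lemma tangent_ineq {s : ℝ} (hs : 0 < s) {r r' : E} (hr : r ≠ 0) (hr' : r' ≠ 0) :
    ‖r‖ ^ (-s) + ⟪G s r, r' - r⟫ - (s / 2) * ‖r‖ ^ (-s - 2) * ‖r' - r‖ ^ 2 ≤ ‖r'‖ ^ (-s) := by
  have hn : 0 < ‖r‖ := norm_pos_iff.mpr hr
  have hn' : 0 < ‖r'‖ := norm_pos_iff.mpr hr'
  set x := ‖r'‖ ^ 2 / ‖r‖ ^ 2 with hx
  have hxpos : 0 < x := by positivity
  have hb := bernoulli_neg (a := s / 2) (by positivity) hxpos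
  have hxr : x ^ (-(s / 2)) = ‖r'‖ ^ (-s) / ‖r‖ ^ (-s) := by
    rw [hx, Real.div_rpow (by positivity) (by positivity)]
    congr 1
    · rw [← Real.rpow_natCast, ← Real.rpow_mul hn'.le]; congr 1; push_cast; ring
    · rw [← Real.rpow_natCast, ← Real.rpow_mul hn.le]; congr 1; push_cast; ring
  rw [hxr] at hb
  have hp : 0 < ‖r‖ ^ (-s) := Real.rpow_pos_of_pos hn _
  have hb' : ‖r‖ ^ (-s) * (1 - s / 2 * (x - 1)) ≤ ‖r'‖ ^ (-s) := by
    have := mul_le_mul_of_nonneg_left hb hp.le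
    rwa [mul_div_cancel₀ _ hp.ne'] at this
  have hq : ‖r‖ ^ (-s - 2) = ‖r‖ ^ (-s) / ‖r‖ ^ 2 := by
    rw [Real.rpow_sub hn, Real.rpow_two]
  have hin : ‖r' - r‖ ^ 2 = ‖r'‖ ^ 2 - 2 * ⟪r, r' - r⟫ - ‖r‖ ^ 2 := by
    have h1 : ‖r'‖ ^ 2 = ‖r + (r' - r)‖ ^ 2 := by simp
    rw [h1, norm_add_sq_real]; ring
  have hG : ⟪G s r, r' - r⟫ = (-s * ‖r‖ ^ (-s - 2)) * ⟪r, r' - r⟫ := by
    simp only [G, inner_smul_left]; simp
  rw [hG, hin, hq]
  have hn2 : ‖r‖ ^ 2 ≠ 0 := by positivity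
  refine le_trans (le_of_eq ?_) hb'
  rw [hx]
  field_simp
  ring

end Basic

section Deriv

variable {E : Type*} [NormedAddCommGroup E] [InnerProductSpace ℝ E]

/-- Derivative of `G` at `r`. -/
noncomputable def DG (s : ℝ) (r : E) : E →L[ℝ] E :=
  (-s * ‖r‖ ^ (-s - 2)) • ContinuousLinearMap.id ℝ E +
    (s * (s + 2) * ‖r‖ ^ (-s - 4)) • (innerSL ℝ r).smulRight r

lemma DG_apply (s : ℝ) (r v : E) :
    DG s r v = (-s * ‖r‖ ^ (-s - 2)) • v + (s * (s + 2) * ‖r‖ ^ (-s - 4) * ⟪r, v⟫) • r := by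
  simp [DG, mul_smul]

lemma hasFDerivAt_norm_rpow' {r : E} (hr : r ≠ 0) (p : ℝ) :
    HasFDerivAt (fun x : E => ‖x‖ ^ p) ((p * ‖r‖ ^ (p - 2)) • innerSL ℝ r) r := by
  have hn : 0 < ‖r‖ := norm_pos_iff.mpr hr
  have h1 : HasFDerivAt (fun x : E => ‖x‖ ^ 2) (2 • innerSL ℝ r) r :=
    (hasStrictFDerivAt_norm_sq r).hasFDerivAt
  have h2 := h1.rpow_const (p := p / 2) (Or.inl (by positivity))
  have h3 : (fun x : E => (‖x‖ ^ 2) ^ (p / 2)) = fun x : E => ‖x‖ ^ p := by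
    funext x
    rw [← Real.rpow_natCast, ← Real.rpow_mul (norm_nonneg x)]
    congr 1; push_cast; ring
  rw [h3] at h2
  convert h2 using 1
  have h4 : (‖r‖ ^ 2) ^ (p / 2 - 1) = ‖r‖ ^ (p - 2) := by
    rw [← Real.rpow_natCast, ← Real.rpow_mul (norm_nonneg r)]
    congr 1; push_cast; ring
  rw [h4]
  ext v
  simp only [_root_.smul_apply, nsmul_eq_mul, smul_eq_mul]
  simp
  ring

lemma hasFDerivAt_G (s : ℝ) {r : E} (hr : r ≠ 0) : HasFDerivAt (G s) (DG s r) r := by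
  have h1 := hasFDerivAt_norm_rpow' hr (-s - 2)
  have h2 : HasFDerivAt (fun x : E => (-s * ‖x‖ ^ (-s - 2)) • x)
      ((-s * ‖r‖ ^ (-s - 2)) • ContinuousLinearMap.id ℝ E +
        ((-s) • ((-s - 2) * ‖r‖ ^ (-s - 2 - 2)) • innerSL ℝ r).smulRight r) r :=
    ((h1.const_mul (-s)).smul (hasFDerivAt_id r)).congr_fderiv (by
      ext v; simp [mul_assoc])
  refine h2.congr_fderiv ?_
  ext v
  have e1 : (-s - 2 - 2 : ℝ) = -s - 4 := by ring
  simp only [DG, _root_.add_apply, _root_.smul_apply,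
    ContinuousLinearMap.id_apply, ContinuousLinearMap.smulRight_apply, e1, smul_eq_mul,
    innerSL_apply_apply]
  congr 1
  simp only [smul_smul]
  congr 1
  ring

lemma contDiffAt_G (s : ℝ) {r : E} (hr : r ≠ 0) : ContDiffAt ℝ ∞ (G s) r := by
  have hn : ‖r‖ ≠ 0 := norm_ne_zero_iff.mpr hr
  have h1 : ContDiffAt ℝ ∞ (fun x : E => ‖x‖) r := contDiffAt_norm ℝ hr
  have h2 : ContDiffAt ℝ ∞ (fun x : E => ‖x‖ ^ (-s - 2)) r := h1.rpow_const_of_ne hn
  exact (contDiffAt_const.mul h2).smul contDiffAt_id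

end Deriv

section Diffeo

variable {F : Type*} [NormedAddCommGroup F] [NormedSpace ℝ F] [CompleteSpace F]
  {F' : Type*} [NormedAddCommGroup F'] [NormedSpace ℝ F']

/-- Packaging of the inverse function theorem for a smooth map on an open set. -/
lemma exists_local_diffeo {f : F → F'} {W : Set F} (hW : IsOpen W) (hf : ContDiffOn ℝ ∞ f W)
    {a : F} (ha : a ∈ W) (f' : F ≃L[ℝ] F') (hf' : HasFDerivAt f (f' : F →L[ℝ] F') a) :
    ∃ e : OpenPartialHomeomorph F F', a ∈ e.source ∧ e.source ⊆ W ∧ ((e : F → F') = f) ∧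
      (∀ x ∈ e.source, ∃ L : F ≃L[ℝ] F', HasFDerivAt f (L : F →L[ℝ] F') x) ∧
      (∀ y ∈ e.target, ContDiffAt ℝ ∞ e.symm y) := by
  have hfa : ContDiffAt ℝ ∞ f a := hf.contDiffAt (hW.mem_nhds ha)
  have hne : (∞ : WithTop ℕ∞) ≠ 0 := by simp
  let e₀ := hfa.toOpenPartialHomeomorph f hf' hne
  have he₀ : a ∈ e₀.source := hfa.mem_toOpenPartialHomeomorph_source hf' hne
  have hcoe : ∀ x, e₀ x = f x := fun x => by
    have := hfa.toOpenPartialHomeomorph_coe hf' hne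
    exact congrFun this x
  -- the derivative is continuous at `a`
  have hcont : ContinuousAt (fderiv ℝ f) a :=
    hfa.continuousAt_fderiv (by simp)
  have hfd : fderiv ℝ f a = (f' : F →L[ℝ] F') := hf'.fderiv
  have hnhds : Set.range ((↑) : (F ≃L[ℝ] F') → (F →L[ℝ] F')) ∈ 𝓝 (fderiv ℝ f a) := by
    rw [hfd]; exact f'.nhds
  have hU : (fderiv ℝ f) ⁻¹' Set.range ((↑) : (F ≃L[ℝ] F') → (F →L[ℝ] F')) ∈ 𝓝 a :=
    hcont hnhds
  have hall : W ∩ e₀.source ∩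
      (fderiv ℝ f) ⁻¹' Set.range ((↑) : (F ≃L[ℝ] F') → (F →L[ℝ] F')) ∈ 𝓝 a :=
    Filter.inter_mem (Filter.inter_mem (hW.mem_nhds ha) (e₀.open_source.mem_nhds he₀)) hU
  obtain ⟨O, hOsub, hOopen, haO⟩ := mem_nhds_iff.mp hall
  have hsource : (e₀.restrOpen O hOopen).source = e₀.source ∩ O := by
    simp
  have hderiv : ∀ x ∈ O, ∃ L : F ≃L[ℝ] F', HasFDerivAt f (L : F →L[ℝ] F') x := by
    intro x hx
    have hxW := (hOsub hx).1.1
    obtain ⟨L, hL⟩ := (hOsub hx).2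
    refine ⟨L, ?_⟩
    rw [hL]
    exact ((hf.contDiffAt (hW.mem_nhds hxW)).differentiableAt (by simp)).hasFDerivAt
  refine ⟨e₀.restrOpen O hOopen, ?_, ?_, ?_, ?_, ?_⟩
  · rw [hsource]; exact ⟨he₀, haO⟩
  · rw [hsource]; intro x hx; exact (hOsub hx.2).1.1
  · funext x; exact hcoe x
  · intro x hx; rw [hsource] at hx; exact hderiv x hx.2
  · intro y hy
    have hy' : (e₀.restrOpen O hOopen).symm y ∈ (e₀.restrOpen O hOopen).source :=
      (e₀.restrOpen O hOopen).map_target hy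
    rw [hsource] at hy'
    obtain ⟨L, hL⟩ := hderiv _ hy'.2
    have hxW := (hOsub hy'.2).1.1
    have hco : ((e₀.restrOpen O hOopen : OpenPartialHomeomorph F F') : F → F') = f := by
      funext x; exact hcoe x
    refine (e₀.restrOpen O hOopen).contDiffAt_symm hy (f₀' := L) ?_ ?_
    · rw [hco]; exact hL
    · rw [hco]; exact hf.contDiffAt (hW.mem_nhds hxW)

end Diffeo

end Crest.Agent.Lib.OT3
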