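import Crest.Agent.Lib.OT3.Core

/-!
Five clusters: the dual certificate `u`, the Kantorovich inequality, and rigidity of the contact set.
-/

set_option autoImplicit false

namespace Crest.Agent.Lib.OT3

set_option linter.unusedSectionVars false

open scoped RealInnerProductSpace ContDiff Topology ENNReal
open Crest.AnalysisR.OT Metric

variable {E : Type*} [NormedAddCommGroup E] [InnerProductSpace ℝ E]

/-- All the data of the five clusters after the small parameters have been chosen. -/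
structure ClusterData (E : Type*) [NormedAddCommGroup E] [InnerProductSpace ℝ E] where
  s : ℝ
  Λ : ℝ
  τ : ℝ
  τ' : ℝ
  ε : ℝ
  hs : 0 < s
  hΛ : 3 * s * (2:ℝ) ^ (s + 2) < Λ
  e0 : E
  e1 : E
  he0 : ‖e0‖ = 1
  he1 : ‖e1‖ = 1
  horth : ⟪e0, e1⟫ = 0
  R : E →ₗᵢ[ℝ] E
  hR : ∀ x, R (R x) = x
  hRe : R e0 = e1
  S : Set E
  b : E → E
  c : E → E
  uC : E → ℝ
  hRS : ∀ x ∈ S, R x ∈ S
  hst1 : ∀ x ∈ S, G s (x - b x) + G s (x - c x) + Λ • x = 0
  hst2 : ∀ x ∈ S, G s (b x - x) + G s (b x - c x) + Λ • (b x - e0) - (G s e0 + G s ((2:ℝ) • e0)) = 0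
  hSε : ∀ x ∈ S, ‖x‖ < ε
  hbε : ∀ x ∈ S, ‖b x - e0‖ < ε
  hcε : ∀ x ∈ S, ‖c x + e0‖ < ε
  huC : ∀ x ∈ S, uC (c x) = Fc s Λ τ e0 x (b x) (c x)
  hFc : ∀ x ∈ S, |Fc s Λ τ e0 x (b x) (c x) - τ| ≤ τ'
  hτ : 0 < τ
  hτ' : 0 ≤ τ'
  hτ'τ : τ' ≤ τ / 2
  hτ3 : τ + τ' ≤ (3:ℝ) ^ (-s)
  hU : τ' ≤ 2 + (2:ℝ) ^ (-s) - 2 * τ
  hε0 : 0 < ε
  hε8 : ε ≤ 1 / 8
  hA0 : ∀ x : E, ‖x‖ < ε → 0 ≤ uA s Λ τ x
  hB : ∀ y : E, ‖y - e0‖ < ε → |uB s Λ τ e0 y - τ| ≤ τ'
  hrep : 3 * (2 + (2:ℝ) ^ (-s) - 2 * τ + τ) < (2 * ε) ^ (-s)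
  hcross : 2 + (2:ℝ) ^ (-s) + 2 * τ' < 2 * (1 + 2 * ε) ^ (-s) + (Real.sqrt 2 + 2 * ε) ^ (-s)

namespace ClusterData

variable (D : ClusterData E)

/-- The partner map on the type-two cluster. -/
noncomputable def d (x : E) : E := D.R (D.b (D.R x))
/-- The partner map on the type-two cluster. -/
noncomputable def e (x : E) : E := D.R (D.c (D.R x))

/-- Central part of the potential. -/
noncomputable def uAe (x : E) : ℝ≥0∞ :=
  (ball (0:E) (1 / 8)).indicator (fun x => ENNReal.ofReal (uA D.s D.Λ D.τ x)) x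
/-- Part of the potential. -/
noncomputable def uBe (x : E) : ℝ≥0∞ :=
  (ball D.e0 (1 / 8)).indicator (fun x => ENNReal.ofReal (uB D.s D.Λ D.τ D.e0 x)) x
/-- Part of the potential. -/
noncomputable def uCe (x : E) : ℝ≥0∞ :=
  (ball (-D.e0) (1 / 8)).indicator (fun x => ENNReal.ofReal (D.uC x)) x

/-- The dual potential. -/
noncomputable def u (x : E) : ℝ≥0∞ :=
  D.uAe x + D.uBe x + D.uCe x + D.uBe (D.R x) + D.uCe (D.R x)

/-- The upper bound of the potential on the centre. -/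
noncomputable def U : ℝ := 2 + (2:ℝ) ^ (-D.s) - 2 * D.τ

/-- The support. -/
def K : Set E := D.S ∪ D.b '' D.S ∪ D.c '' D.S ∪ D.d '' D.S ∪ D.e '' D.S

lemma e0_ne : D.e0 ≠ 0 := by
  intro h; have := D.he0; rw [h] at this; simp at this

lemma norm_R (x : E) : ‖D.R x‖ = ‖x‖ := D.R.norm_map x

lemma R_sub (x y : E) : D.R x - D.R y = D.R (x - y) := (map_sub D.R x y).symm

lemma norm_R_sub (x y : E) : ‖D.R x - D.R y‖ = ‖x - y‖ := by rw [R_sub, norm_R]

lemma R_neg (x : E) : D.R (-x) = - D.R x := map_neg D.R x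

lemma Λ_pos : 0 < D.Λ := by
  have h1 : 0 < (2:ℝ) ^ (D.s + 2) := Real.rpow_pos_of_pos (by norm_num) _
  have := D.hΛ
  have h2 : 0 < 3 * D.s * (2:ℝ) ^ (D.s + 2) := by
    have := D.hs; positivity
  linarith

lemma tripleCost_R (x y z : E) :
    tripleCost D.s (D.R x, D.R y, D.R z) = tripleCost D.s (x, y, z) := by
  simp only [tripleCost, pairCost, norm_R_sub]

lemma uA_R (x : E) : uA D.s D.Λ D.τ (D.R x) = uA D.s D.Λ D.τ x := by
  simp [uA]

lemma uAe_R (x : E) : D.uAe (D.R x) = D.uAe x := by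
  unfold uAe
  by_cases h : x ∈ ball (0:E) (1 / 8)
  · have h' : D.R x ∈ ball (0:E) (1 / 8) := by
      simp only [mem_ball_zero_iff] at h ⊢; rwa [norm_R]
    rw [Set.indicator_of_mem h, Set.indicator_of_mem h', uA_R]
  · have h' : D.R x ∉ ball (0:E) (1 / 8) := by
      simp only [mem_ball_zero_iff] at h ⊢; rwa [norm_R]
    rw [Set.indicator_of_notMem h, Set.indicator_of_notMem h']

lemma u_R (x : E) : D.u (D.R x) = D.u x := by
  unfold u
  rw [uAe_R, D.hR]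
  ac_rfl

/-- Two balls of radius `1/8` with far centres are disjoint. -/
lemma not_mem_of_far {p q x : E} (hx : x ∈ ball p (1 / 8)) (hpq : 1 / 4 ≤ ‖p - q‖) :
    x ∉ ball q (1 / 8) := by
  intro hq
  rw [mem_ball_iff_norm] at hx hq
  have : ‖p - q‖ ≤ ‖x - q‖ + ‖x - p‖ := by
    have h := norm_sub_le (x - q) (x - p)
    have e : x - q - (x - p) = p - q := by abel
    rwa [e] at h
  linarith

lemma d00 : ‖(0:E) - D.e0‖ = 1 := by simp [D.he0]
lemma d01 : ‖(0:E) - (-D.e0)‖ = 1 := by simp [D.he0]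
lemma d02 : ‖D.e0 - (-D.e0)‖ = 2 := by
  have : D.e0 - (-D.e0) = (2:ℝ) • D.e0 := by rw [two_smul]; abel
  rw [this, norm_smul, D.he0]; simp

lemma he1' : D.R D.e0 = D.e1 := D.hRe

lemma sq_cross (a b : ℝ) (ha : a ^ 2 = 1) (hb : b ^ 2 = 1) :
    ‖a • D.e0 - b • D.e1‖ = Real.sqrt 2 := by
  have h : ‖a • D.e0 - b • D.e1‖ ^ 2 = 2 := by
    rw [norm_sub_sq_real, norm_smul, norm_smul, inner_smul_left, inner_smul_right, D.horth, D.he0,
      D.he1]
    simp only [Real.norm_eq_abs, mul_zero, mul_pow, sq_abs, ha, hb]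
    simp
    norm_num
  have h2 : 0 ≤ ‖a • D.e0 - b • D.e1‖ := norm_nonneg _
  rw [← h, Real.sqrt_sq h2]

lemma cross_pp : ‖D.e0 - D.e1‖ = Real.sqrt 2 := by
  have := D.sq_cross 1 1 (by norm_num) (by norm_num); simpa using this
lemma cross_pm : ‖D.e0 - (-D.e1)‖ = Real.sqrt 2 := by
  have := D.sq_cross 1 (-1) (by norm_num) (by norm_num); simpa using this
lemma cross_mp : ‖-D.e0 - D.e1‖ = Real.sqrt 2 := by
  have := D.sq_cross (-1) 1 (by norm_num) (by norm_num); simpa using this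
lemma cross_mm : ‖-D.e0 - (-D.e1)‖ = Real.sqrt 2 := by
  have := D.sq_cross (-1) (-1) (by norm_num) (by norm_num); simpa using this

lemma one_le_sqrt2 : (1:ℝ) ≤ Real.sqrt 2 := by
  rw [show (1:ℝ) = Real.sqrt 1 by simp]
  exact Real.sqrt_le_sqrt (by norm_num)

/-- Values of the potential in each region. -/
lemma u_of_ball0 {x : E} (hx : x ∈ ball (0:E) (1 / 8)) :
    D.u x = ENNReal.ofReal (uA D.s D.Λ D.τ x) := by
  have h1 : x ∉ ball D.e0 (1 / 8) := not_mem_of_far hx (by rw [d00]; norm_num)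
  have h2 : x ∉ ball (-D.e0) (1 / 8) := not_mem_of_far hx (by rw [d01]; norm_num)
  have hR : D.R x ∈ ball (0:E) (1 / 8) := by
    simp only [mem_ball_zero_iff] at hx ⊢; rwa [norm_R]
  have h3 : D.R x ∉ ball D.e0 (1 / 8) := not_mem_of_far hR (by rw [d00]; norm_num)
  have h4 : D.R x ∉ ball (-D.e0) (1 / 8) := not_mem_of_far hR (by rw [d01]; norm_num)
  simp only [u, uAe, uBe, uCe]
  rw [Set.indicator_of_mem hx, Set.indicator_of_notMem h1, Set.indicator_of_notMem h2,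
    Set.indicator_of_notMem h3, Set.indicator_of_notMem h4]
  simp

lemma R_ball_e0 {x : E} (hx : x ∈ ball D.e0 (1 / 8)) : D.R x ∈ ball D.e1 (1 / 8) := by
  rw [mem_ball_iff_norm] at hx ⊢
  rw [← D.hRe, D.norm_R_sub]; exact hx

lemma R_ball_me0 {x : E} (hx : x ∈ ball (-D.e0) (1 / 8)) : D.R x ∈ ball (-D.e1) (1 / 8) := by
  rw [mem_ball_iff_norm] at hx ⊢
  rw [← D.hRe, ← D.R_neg, D.norm_R_sub]; exact hx

lemma sqrt2_ge_quarter : (1:ℝ) / 4 ≤ Real.sqrt 2 := by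
  have := one_le_sqrt2; linarith

lemma norm_e1_sub_e0 : ‖D.e1 - D.e0‖ = Real.sqrt 2 := by rw [norm_sub_rev]; exact D.cross_pp
lemma norm_e1_add_e0 : ‖D.e1 - (-D.e0)‖ = Real.sqrt 2 := by
  have : D.e1 - (-D.e0) = -(-D.e0 - D.e1) := by abel
  rw [this, norm_neg]; exact D.cross_mp
lemma norm_me1_sub_e0 : ‖-D.e1 - D.e0‖ = Real.sqrt 2 := by
  rw [norm_sub_rev]; exact D.cross_pm
lemma norm_me1_add_e0 : ‖-D.e1 - (-D.e0)‖ = Real.sqrt 2 := by
  rw [norm_sub_rev]; exact D.cross_mm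

lemma u_of_ball_e0 {x : E} (hx : x ∈ ball D.e0 (1 / 8)) :
    D.u x = ENNReal.ofReal (uB D.s D.Λ D.τ D.e0 x) := by
  have h0 : x ∉ ball (0:E) (1 / 8) := by
    intro h; exact not_mem_of_far h (by rw [d00]; norm_num) hx
  have h2 : x ∉ ball (-D.e0) (1 / 8) := not_mem_of_far hx (by rw [d02]; norm_num)
  have hR := D.R_ball_e0 hx
  have h3 : D.R x ∉ ball D.e0 (1 / 8) :=
    not_mem_of_far hR (by rw [norm_e1_sub_e0]; exact sqrt2_ge_quarter)
  have h4 : D.R x ∉ ball (-D.e0) (1 / 8) :=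
    not_mem_of_far hR (by rw [norm_e1_add_e0]; exact sqrt2_ge_quarter)
  simp only [u, uAe, uBe, uCe]
  rw [Set.indicator_of_notMem h0, Set.indicator_of_mem hx, Set.indicator_of_notMem h2,
    Set.indicator_of_notMem h3, Set.indicator_of_notMem h4]
  simp

lemma u_of_ball_me0 {x : E} (hx : x ∈ ball (-D.e0) (1 / 8)) :
    D.u x = ENNReal.ofReal (D.uC x) := by
  have h0 : x ∉ ball (0:E) (1 / 8) := by
    intro h; exact not_mem_of_far h (by rw [d01]; norm_num) hx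
  have h1 : x ∉ ball D.e0 (1 / 8) := by
    intro h; exact not_mem_of_far h (by rw [d02]; norm_num) hx
  have hR := D.R_ball_me0 hx
  have h3 : D.R x ∉ ball D.e0 (1 / 8) :=
    not_mem_of_far hR (by rw [norm_me1_sub_e0]; exact sqrt2_ge_quarter)
  have h4 : D.R x ∉ ball (-D.e0) (1 / 8) :=
    not_mem_of_far hR (by rw [norm_me1_add_e0]; exact sqrt2_ge_quarter)
  simp only [u, uAe, uBe, uCe]
  rw [Set.indicator_of_notMem h0, Set.indicator_of_notMem h1, Set.indicator_of_mem hx,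
    Set.indicator_of_notMem h3, Set.indicator_of_notMem h4]
  simp

lemma ball_of_ε {p x : E} (hx : ‖x - p‖ < D.ε) : x ∈ ball p (1 / 8) := by
  rw [mem_ball_iff_norm]; exact lt_of_lt_of_le hx D.hε8

lemma S_ball {x : E} (hx : x ∈ D.S) : x ∈ ball (0:E) (1 / 8) := by
  apply D.ball_of_ε; simpa using D.hSε x hx

lemma b_ball {x : E} (hx : x ∈ D.S) : D.b x ∈ ball D.e0 (1 / 8) := D.ball_of_ε (D.hbε x hx)

lemma c_ball {x : E} (hx : x ∈ D.S) : D.c x ∈ ball (-D.e0) (1 / 8) :=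
  D.ball_of_ε (by rw [sub_neg_eq_add]; exact D.hcε x hx)

lemma triangle3 (a q w : E) : ‖a‖ ≤ ‖q - w‖ + ‖q‖ + ‖w - a‖ := by
  have e : a = q - (q - w) - (w - a) := by abel
  calc ‖a‖ = ‖q - (q - w) - (w - a)‖ := by rw [← e]
    _ ≤ ‖q - (q - w)‖ + ‖w - a‖ := norm_sub_le _ _
    _ ≤ ‖q‖ + ‖q - w‖ + ‖w - a‖ := by gcongr; exact norm_sub_le _ _
    _ = _ := by ring

lemma pairCost_ge {s t : ℝ} (hs : 0 < s) (_ht : 0 < t) {x y : E} (h : ‖x - y‖ ≤ t) :
    ENNReal.ofReal (t ^ (-s)) ≤ pairCost s x y := by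
  by_cases hxy : x = y
  · rw [hxy, pairCost_self hs]; exact le_top
  · rw [pairCost_eq_ofReal s hxy]
    apply ENNReal.ofReal_le_ofReal
    exact Real.rpow_le_rpow_of_nonpos (norm_pos_iff.mpr (sub_ne_zero.mpr hxy)) h (by linarith)

lemma tripleCost_ge {s t₁ t₂ t₃ : ℝ} (hs : 0 < s) (h1 : 0 < t₁) (h2 : 0 < t₂) (h3 : 0 < t₃)
    {x y z : E} (hxy : ‖x - y‖ ≤ t₁) (hxz : ‖x - z‖ ≤ t₂) (hyz : ‖y - z‖ ≤ t₃) :
    ENNReal.ofReal (t₁ ^ (-s) + t₂ ^ (-s) + t₃ ^ (-s)) ≤ tripleCost s (x, y, z) := by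
  rw [ENNReal.ofReal_add (by positivity) (by positivity), ENNReal.ofReal_add (by positivity)
    (by positivity)]
  simp only [tripleCost]
  exact add_le_add (add_le_add (pairCost_ge hs h1 hxy) (pairCost_ge hs h2 hxz))
    (pairCost_ge hs h3 hyz)

lemma pair_le_triple1 (s : ℝ) (x y z : E) : pairCost s x y ≤ tripleCost s (x, y, z) := by
  simp only [tripleCost]; rw [add_assoc]; exact le_self_add

lemma pair_le_triple2 (s : ℝ) (x y z : E) : pairCost s x z ≤ tripleCost s (x, y, z) := by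
  simp only [tripleCost]; exact le_trans le_add_self le_self_add

lemma pair_le_triple3 (s : ℝ) (x y z : E) : pairCost s y z ≤ tripleCost s (x, y, z) := by
  simp only [tripleCost]; exact le_add_self

lemma U_nonneg_aux : 0 < D.U := by
  have h1 : (3:ℝ) ^ (-D.s) ≤ 1 := Real.rpow_le_one_of_one_le_of_nonpos (by norm_num)
    (by linarith [D.hs])
  have h2 : 0 < (2:ℝ) ^ (-D.s) := Real.rpow_pos_of_pos (by norm_num) _
  have h3 := D.hτ3
  have h4 := D.hτ'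
  simp only [U]
  nlinarith

lemma tt_nonneg : 0 ≤ D.τ - D.τ' := by linarith [D.hτ'τ, D.hτ]

lemma tt'_le_M : D.τ + D.τ' ≤ D.U + D.τ := by
  have := D.hU
  simp only [U]; linarith

lemma uA_le (x : E) : uA D.s D.Λ D.τ x ≤ D.U := by
  have h : 0 ≤ (D.Λ / 2) * ‖x‖ ^ 2 := by
    have := D.Λ_pos; positivity
  simp only [uA, U]; linarith

lemma val_S {x : E} (hx : x ∈ D.S) : D.u x ≤ ENNReal.ofReal D.U := by
  rw [D.u_of_ball0 (D.S_ball hx)]
  exact ENNReal.ofReal_le_ofReal (D.uA_le x)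

lemma val_b {q : E} (hq : q ∈ D.S) : D.u (D.b q) ≤ ENNReal.ofReal (D.τ + D.τ') := by
  rw [D.u_of_ball_e0 (D.b_ball hq)]
  apply ENNReal.ofReal_le_ofReal
  have := abs_le.mp (D.hB _ (D.hbε q hq))
  linarith [this.2]

lemma val_c_eq {q : E} (hq : q ∈ D.S) :
    D.u (D.c q) = ENNReal.ofReal (Fc D.s D.Λ D.τ D.e0 q (D.b q) (D.c q)) := by
  rw [D.u_of_ball_me0 (D.c_ball hq), D.huC q hq]

lemma val_c {q : E} (hq : q ∈ D.S) : D.u (D.c q) ≤ ENNReal.ofReal (D.τ + D.τ') := by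
  rw [D.val_c_eq hq]
  apply ENNReal.ofReal_le_ofReal
  have := abs_le.mp (D.hFc q hq)
  linarith [this.2]

lemma val_d {q : E} (hq : q ∈ D.S) : D.u (D.d q) ≤ ENNReal.ofReal (D.τ + D.τ') := by
  unfold d; rw [D.u_R]; exact D.val_b (D.hRS q hq)

lemma val_e {q : E} (hq : q ∈ D.S) : D.u (D.e q) ≤ ENNReal.ofReal (D.τ + D.τ') := by
  unfold e; rw [D.u_R]; exact D.val_c (D.hRS q hq)

lemma near_d {q : E} (hq : q ∈ D.S) : ‖D.d q - D.e1‖ < D.ε := by
  unfold d; rw [← D.hRe, D.norm_R_sub]; exact D.hbε _ (D.hRS q hq)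

lemma near_e {q : E} (hq : q ∈ D.S) : ‖D.e q - (-D.e1)‖ < D.ε := by
  unfold e; rw [← D.hRe, ← D.R_neg, D.norm_R_sub, sub_neg_eq_add]
  exact D.hcε _ (D.hRS q hq)

lemma near_c {q : E} (hq : q ∈ D.S) : ‖D.c q - (-D.e0)‖ < D.ε := by
  rw [sub_neg_eq_add]; exact D.hcε q hq

/-- Everything in `K` has bounded potential. -/
lemma val_K {x : E} (hx : x ∈ D.K) : D.u x ≤ ENNReal.ofReal (D.U + D.τ) := by
  have hU := D.U_nonneg_aux
  have h := D.tt'_le_M
  have hτ := D.hτ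
  rcases hx with ((((hx | ⟨q, hq, rfl⟩) | ⟨q, hq, rfl⟩) | ⟨q, hq, rfl⟩) | ⟨q, hq, rfl⟩)
  · exact (D.val_S hx).trans (ENNReal.ofReal_le_ofReal (by linarith))
  · exact (D.val_b hq).trans (ENNReal.ofReal_le_ofReal h)
  · exact (D.val_c hq).trans (ENNReal.ofReal_le_ofReal h)
  · exact (D.val_d hq).trans (ENNReal.ofReal_le_ofReal h)
  · exact (D.val_e hq).trans (ENNReal.ofReal_le_ofReal h)

/-- Two points at distance at most `2ε`: strict inequality. -/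
lemma rep_lt {x y z w₁ w₂ : E} (h : ‖w₁ - w₂‖ ≤ 2 * D.ε)
    (hle : pairCost D.s w₁ w₂ ≤ tripleCost D.s (x, y, z))
    (hx : x ∈ D.K) (hy : y ∈ D.K) (hz : z ∈ D.K) :
    D.u x + D.u y + D.u z < tripleCost D.s (x, y, z) := by
  have hU := D.U_nonneg_aux
  have hτ := D.hτ
  have hM : 0 ≤ D.U + D.τ := by linarith
  have h1 : D.u x + D.u y + D.u z ≤ ENNReal.ofReal (3 * (D.U + D.τ)) := by
    have e : (3 * (D.U + D.τ)) = (D.U + D.τ) + (D.U + D.τ) + (D.U + D.τ) := by ring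
    rw [e, ENNReal.ofReal_add (by linarith) hM, ENNReal.ofReal_add hM hM]
    exact add_le_add (add_le_add (D.val_K hx) (D.val_K hy)) (D.val_K hz)
  have h2 : ENNReal.ofReal (3 * (D.U + D.τ)) < ENNReal.ofReal ((2 * D.ε) ^ (-D.s)) := by
    rw [ENNReal.ofReal_lt_ofReal_iff (Real.rpow_pos_of_pos (by have := D.hε0; positivity) _)]
    exact D.hrep
  have h3 : ENNReal.ofReal ((2 * D.ε) ^ (-D.s)) ≤ pairCost D.s w₁ w₂ :=
    pairCost_ge D.hs (by have := D.hε0; positivity) h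
  exact lt_of_le_of_lt h1 (lt_of_lt_of_le h2 (h3.trans hle))

/-- A point near a unit vector has norm at most `1 + ε`. -/
lemma norm_le_of_near {p x : E} (hp : ‖p‖ = 1) (h : ‖x - p‖ < D.ε) : ‖x‖ ≤ 1 + D.ε := by
  have : ‖x‖ ≤ ‖x - p‖ + ‖p‖ := by
    have := norm_add_le (x - p) p
    simpa using this
  linarith

lemma sub_le_of_near {p p' x y : E} (h : ‖x - p‖ < D.ε) (h' : ‖y - p'‖ < D.ε) :
    ‖x - y‖ ≤ ‖p - p'‖ + 2 * D.ε := by
  have e : x - y = (x - p) + (p - p') - (y - p') := by abel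
  rw [e]
  calc ‖(x - p) + (p - p') - (y - p')‖ ≤ ‖(x - p) + (p - p')‖ + ‖y - p'‖ := norm_sub_le _ _
    _ ≤ ‖x - p‖ + ‖p - p'‖ + ‖y - p'‖ := by gcongr; exact norm_add_le _ _
    _ ≤ _ := by linarith

/-- The cross case: strict inequality. -/
lemma cross_lt {x y z p p' : E} (hx : x ∈ D.S) (hp : ‖p‖ = 1) (hp' : ‖p'‖ = 1)
    (hpp' : ‖p - p'‖ = Real.sqrt 2) (hy : ‖y - p‖ < D.ε) (hz : ‖z - p'‖ < D.ε)
    (huy : D.u y ≤ ENNReal.ofReal (D.τ + D.τ')) (huz : D.u z ≤ ENNReal.ofReal (D.τ + D.τ')) :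
    D.u x + D.u y + D.u z < tripleCost D.s (x, y, z) := by
  have hU := D.U_nonneg_aux
  have hτ := D.hτ
  have hτ' := D.hτ'
  have hε := D.hε0
  have h0 : ‖x - (0:E)‖ < D.ε := by simpa using D.hSε x hx
  have h1 : ‖x - y‖ ≤ 1 + 2 * D.ε := by
    have := D.sub_le_of_near h0 hy
    simpa [hp] using this
  have h2 : ‖x - z‖ ≤ 1 + 2 * D.ε := by
    have := D.sub_le_of_near h0 hz
    simpa [hp'] using this
  have h3 : ‖y - z‖ ≤ Real.sqrt 2 + 2 * D.ε := by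
    have := D.sub_le_of_near hy hz
    rwa [hpp'] at this
  have hsq : (0:ℝ) < Real.sqrt 2 := by positivity
  have hT := tripleCost_ge D.hs (by linarith : 0 < 1 + 2 * D.ε) (by linarith : 0 < 1 + 2 * D.ε)
    (by linarith : 0 < Real.sqrt 2 + 2 * D.ε) h1 h2 h3
  have hsum : D.u x + D.u y + D.u z ≤ ENNReal.ofReal (2 + (2:ℝ) ^ (-D.s) + 2 * D.τ') := by
    have e : 2 + (2:ℝ) ^ (-D.s) + 2 * D.τ' = D.U + (D.τ + D.τ') + (D.τ + D.τ') := by
      simp only [U]; ring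
    rw [e, ENNReal.ofReal_add (by linarith) (by linarith), ENNReal.ofReal_add (by linarith)
      (by linarith)]
    exact add_le_add (add_le_add (D.val_S hx) huy) huz
  refine lt_of_le_of_lt hsum (lt_of_lt_of_le ?_ hT)
  have hpos : 0 < (1 + 2 * D.ε) ^ (-D.s) + (1 + 2 * D.ε) ^ (-D.s) + (Real.sqrt 2 + 2 * D.ε) ^ (-D.s) := by
    have h4 : 0 < (1 + 2 * D.ε) ^ (-D.s) := Real.rpow_pos_of_pos (by linarith) _
    have h5 : 0 < (Real.sqrt 2 + 2 * D.ε) ^ (-D.s) := Real.rpow_pos_of_pos (by linarith) _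
    linarith
  rw [ENNReal.ofReal_lt_ofReal_iff hpos]
  have := D.hcross
  linarith

/-- The contact inequality. -/
lemma contact1 {x y q : E} (hx : x ∈ D.S) (hy : ‖y - D.e0‖ < D.ε) (hq : q ∈ D.S) :
    D.u x + D.u y + D.u (D.c q) ≤ tripleCost D.s (x, y, D.c q) ∧
      (tripleCost D.s (x, y, D.c q) ≤ D.u x + D.u y + D.u (D.c q) → x = q ∧ y = D.b q) := by
  have hε := D.hε8
  have hq0 := D.hSε q hq
  have hbq := D.hbε q hq
  have hcq := D.hcε q hq
  have hx0 := D.hSε x hx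
  have hA := D.hA0 x hx0
  have hB := abs_le.mp (D.hB y hy)
  have hF := abs_le.mp (D.hFc q hq)
  have htt := D.tt_nonneg
  set A := uA D.s D.Λ D.τ x with hAdef
  set B := uB D.s D.Λ D.τ D.e0 y with hBdef
  set F := Fc D.s D.Λ D.τ D.e0 q (D.b q) (D.c q) with hFdef
  have hB0 : 0 ≤ B := by linarith [hB.1]
  have hF0 : 0 ≤ F := by linarith [hF.1]
  have hu1 : D.u x = ENNReal.ofReal A := D.u_of_ball0 (D.S_ball hx)
  have hu2 : D.u y = ENNReal.ofReal B := D.u_of_ball_e0 (D.ball_of_ε hy)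
  have hu3 : D.u (D.c q) = ENNReal.ofReal F := D.val_c_eq hq
  -- distances
  have hsum : D.u x + D.u y + D.u (D.c q) = ENNReal.ofReal (A + B + F) := by
    rw [hu1, hu2, hu3, ENNReal.ofReal_add (by linarith) hF0, ENNReal.ofReal_add hA hB0]
  have dist1 : 1 / 2 ≤ ‖q - D.b q‖ := by
    have h1 : ‖D.e0‖ ≤ ‖q - D.b q‖ + ‖q‖ + ‖D.b q - D.e0‖ := triangle3 D.e0 q (D.b q)
    rw [D.he0] at h1; linarith
  have dist2 : 1 / 2 ≤ ‖q - D.c q‖ := by
    have h1 : ‖-D.e0‖ ≤ ‖q - D.c q‖ + ‖q‖ + ‖D.c q - (-D.e0)‖ :=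
      triangle3 (-D.e0) q (D.c q)
    rw [norm_neg, D.he0, sub_neg_eq_add] at h1; linarith
  have dist3 : 1 / 2 ≤ ‖D.b q - D.c q‖ := by
    have e : (2:ℝ) • D.e0 = (D.b q - D.c q) - (D.b q - D.e0) + (D.c q + D.e0) := by
      rw [two_smul]; abel
    have h1 : ‖(2:ℝ) • D.e0‖ ≤ ‖D.b q - D.c q‖ + ‖D.b q - D.e0‖ + ‖D.c q + D.e0‖ := by
      rw [e]
      calc _ ≤ ‖(D.b q - D.c q) - (D.b q - D.e0)‖ + ‖D.c q + D.e0‖ := norm_add_le _ _
        _ ≤ _ := by gcongr; exact norm_sub_le _ _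
    rw [norm_smul, D.he0] at h1
    norm_num at h1
    linarith
  -- no collisions
  have hxy : x ≠ y := by
    rintro rfl
    exact not_mem_of_far (D.S_ball hx) (by rw [d00]; norm_num) (D.ball_of_ε hy)
  have hxz : x ≠ D.c q := by
    intro h
    exact not_mem_of_far (D.S_ball hx) (by rw [d01]; norm_num) (h ▸ D.c_ball hq)
  have hyz : y ≠ D.c q := by
    intro h
    exact not_mem_of_far (D.ball_of_ε hy) (by rw [d02]; norm_num) (h ▸ D.c_ball hq)
  have hcore := core_ineq (τ := D.τ) D.hs D.e0 (D.hst1 q hq) (D.hst2 q hq) dist1 dist2 dist3 hxy hxz hyz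
  have hT : tripleCost D.s (x, y, D.c q) = ENNReal.ofReal (costR D.s x y (D.c q)) :=
    tripleCost_eq_ofReal D.s hxy hxz hyz
  set γ : ℝ := (D.Λ - 3 * D.s * (2:ℝ) ^ (D.s + 2)) / 2 with hγ
  have hγpos : 0 < γ := by
    have := D.hΛ; rw [hγ]; linarith
  have hnn : 0 ≤ γ * (‖x - q‖ ^ 2 + ‖y - D.b q‖ ^ 2) := by positivity
  rw [hsum, hT]
  constructor
  · apply ENNReal.ofReal_le_ofReal
    linarith
  · intro hle
    have hsum0 : 0 ≤ A + B + F := by linarith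
    have h1 : costR D.s x y (D.c q) ≤ A + B + F := (ENNReal.ofReal_le_ofReal_iff hsum0).mp hle
    have h2 : γ * (‖x - q‖ ^ 2 + ‖y - D.b q‖ ^ 2) ≤ 0 := by linarith
    have h3 : ‖x - q‖ ^ 2 + ‖y - D.b q‖ ^ 2 ≤ 0 := by
      by_contra hc
      rw [not_le] at hc
      have := mul_pos hγpos hc
      linarith
    have h4 : ‖x - q‖ ^ 2 = 0 := by
      have := sq_nonneg ‖x - q‖
      have := sq_nonneg ‖y - D.b q‖
      linarith
    have h5 : ‖y - D.b q‖ ^ 2 = 0 := by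
      have := sq_nonneg ‖x - q‖
      have := sq_nonneg ‖y - D.b q‖
      linarith
    constructor
    · exact sub_eq_zero.mp (norm_eq_zero.mp (pow_eq_zero_iff (n := 2) (by norm_num) |>.mp h4))
    · exact sub_eq_zero.mp (norm_eq_zero.mp (pow_eq_zero_iff (n := 2) (by norm_num) |>.mp h5))

/-- The contact inequality for the rotated triple. -/
lemma contact2 {x y q : E} (hx : x ∈ D.S) (hy : ‖y - D.e1‖ < D.ε) (hq : q ∈ D.S) :
    D.u x + D.u y + D.u (D.e q) ≤ tripleCost D.s (x, y, D.e q) ∧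
      (tripleCost D.s (x, y, D.e q) ≤ D.u x + D.u y + D.u (D.e q) → x = q ∧ y = D.d q) := by
  have hRx := D.hRS x hx
  have hRq := D.hRS q hq
  have hRy : ‖D.R y - D.e0‖ < D.ε := by
    have : ‖D.R y - D.R D.e1‖ = ‖y - D.e1‖ := D.norm_R_sub _ _
    have h2 : D.R D.e1 = D.e0 := by rw [← D.hRe, D.hR]
    rw [h2] at this
    rwa [this]
  have h := D.contact1 hRx hRy hRq
  have e1 : D.e q = D.R (D.c (D.R q)) := rfl
  have hc : D.R (D.e q) = D.c (D.R q) := by rw [e1, D.hR]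
  rw [← hc, D.u_R, D.u_R, D.u_R, D.tripleCost_R] at h
  refine ⟨h.1, fun hle => ?_⟩
  obtain ⟨h1, h2⟩ := h.2 hle
  constructor
  · have := congrArg D.R h1
    rwa [D.hR, D.hR] at this
  · have := congrArg D.R h2
    rwa [D.hR] at this

lemma near_b {q : E} (hq : q ∈ D.S) : ‖D.b q - D.e0‖ < D.ε := D.hbε q hq

lemma me0_norm : ‖-D.e0‖ = 1 := by rw [norm_neg]; exact D.he0
lemma me1_norm : ‖-D.e1‖ = 1 := by rw [norm_neg]; exact D.he1

/-- The central dichotomy. -/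
theorem main_A {x y z : E} (hx : x ∈ D.S) (hy : y ∈ D.K) (hz : z ∈ D.K) :
    D.u x + D.u y + D.u z ≤ tripleCost D.s (x, y, z) ∧
      (tripleCost D.s (x, y, z) ≤ D.u x + D.u y + D.u z →
        y = D.b x ∨ y = D.c x ∨ y = D.d x ∨ y = D.e x) := by
  have hxK : x ∈ D.K := Or.inl (Or.inl (Or.inl (Or.inl hx)))
  have hε := D.hε0
  -- convert strict inequalities
  have fromLt : D.u x + D.u y + D.u z < tripleCost D.s (x, y, z) →
      D.u x + D.u y + D.u z ≤ tripleCost D.s (x, y, z) ∧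
      (tripleCost D.s (x, y, z) ≤ D.u x + D.u y + D.u z →
        y = D.b x ∨ y = D.c x ∨ y = D.d x ∨ y = D.e x) := fun h =>
    ⟨h.le, fun h' => absurd h' (not_le.mpr h)⟩
  have near0 : ∀ {w : E}, w ∈ D.S → ‖w - (0:E)‖ < D.ε := fun hw => by simpa using D.hSε _ hw
  have two : ∀ {w w' p : E}, ‖w - p‖ < D.ε → ‖w' - p‖ < D.ε → ‖w - w'‖ ≤ 2 * D.ε := by
    intro w w' p h h'
    have := D.sub_le_of_near h h'
    simpa using this
  rcases hy with ((((hy | ⟨q, hq, rfl⟩) | ⟨q, hq, rfl⟩) | ⟨q, hq, rfl⟩) | ⟨q, hq, rfl⟩)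
  · -- y in the centre
    exact fromLt (D.rep_lt (two (near0 hx) (near0 hy)) (pair_le_triple1 _ _ _ _) hxK
      (Or.inl (Or.inl (Or.inl (Or.inl hy)))) hz)
  · -- y = b q
    have hyK : D.b q ∈ D.K := Or.inl (Or.inl (Or.inl (Or.inr ⟨q, hq, rfl⟩)))
    rcases hz with ((((hz | ⟨r, hr, rfl⟩) | ⟨r, hr, rfl⟩) | ⟨r, hr, rfl⟩) | ⟨r, hr, rfl⟩)
    · exact fromLt (D.rep_lt (two (near0 hx) (near0 hz)) (pair_le_triple2 _ _ _ _) hxK hyK
        (Or.inl (Or.inl (Or.inl (Or.inl hz)))))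
    · exact fromLt (D.rep_lt (two (D.near_b hq) (D.near_b hr)) (pair_le_triple3 _ _ _ _) hxK hyK
        (Or.inl (Or.inl (Or.inl (Or.inr ⟨r, hr, rfl⟩)))))
    · have h := D.contact1 hx (D.near_b hq) hr
      refine ⟨h.1, fun hle => ?_⟩
      obtain ⟨h1, h2⟩ := h.2 hle
      left; rw [h1]; exact h2
    · exact fromLt (D.cross_lt hx D.he0 D.he1 D.cross_pp (D.near_b hq) (D.near_d hr) (D.val_b hq)
        (D.val_d hr))
    · exact fromLt (D.cross_lt hx D.he0 D.me1_norm D.cross_pm (D.near_b hq) (D.near_e hr)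
        (D.val_b hq) (D.val_e hr))
  · -- y = c q
    have hyK : D.c q ∈ D.K := Or.inl (Or.inl (Or.inr ⟨q, hq, rfl⟩))
    rcases hz with ((((hz | ⟨r, hr, rfl⟩) | ⟨r, hr, rfl⟩) | ⟨r, hr, rfl⟩) | ⟨r, hr, rfl⟩)
    · exact fromLt (D.rep_lt (two (near0 hx) (near0 hz)) (pair_le_triple2 _ _ _ _) hxK hyK
        (Or.inl (Or.inl (Or.inl (Or.inl hz)))))
    · have h := D.contact1 hx (D.near_b hr) hq
      rw [tripleCost_swap23, add_right_comm (D.u x)] at h
      refine ⟨h.1, fun hle => ?_⟩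
      obtain ⟨h1, _⟩ := h.2 hle
      right; left; rw [h1]
    · exact fromLt (D.rep_lt (two (D.near_c hq) (D.near_c hr)) (pair_le_triple3 _ _ _ _) hxK hyK
        (Or.inl (Or.inl (Or.inr ⟨r, hr, rfl⟩))))
    · exact fromLt (D.cross_lt hx D.me0_norm D.he1 D.cross_mp (D.near_c hq) (D.near_d hr)
        (D.val_c hq) (D.val_d hr))
    · exact fromLt (D.cross_lt hx D.me0_norm D.me1_norm D.cross_mm (D.near_c hq) (D.near_e hr)
        (D.val_c hq) (D.val_e hr))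
  · -- y = d q
    have hyK : D.d q ∈ D.K := Or.inl (Or.inr ⟨q, hq, rfl⟩)
    rcases hz with ((((hz | ⟨r, hr, rfl⟩) | ⟨r, hr, rfl⟩) | ⟨r, hr, rfl⟩) | ⟨r, hr, rfl⟩)
    · exact fromLt (D.rep_lt (two (near0 hx) (near0 hz)) (pair_le_triple2 _ _ _ _) hxK hyK
        (Or.inl (Or.inl (Or.inl (Or.inl hz)))))
    · have h := D.cross_lt (y := D.b r) (z := D.d q) hx D.he0 D.he1 D.cross_pp (D.near_b hr)
        (D.near_d hq) (D.val_b hr) (D.val_d hq)
      rw [tripleCost_swap23, add_right_comm (D.u x)] at h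
      exact fromLt h
    · have h := D.cross_lt (y := D.c r) (z := D.d q) hx D.me0_norm D.he1 D.cross_mp (D.near_c hr)
        (D.near_d hq) (D.val_c hr) (D.val_d hq)
      rw [tripleCost_swap23, add_right_comm (D.u x)] at h
      exact fromLt h
    · exact fromLt (D.rep_lt (two (D.near_d hq) (D.near_d hr)) (pair_le_triple3 _ _ _ _) hxK hyK
        (Or.inl (Or.inr ⟨r, hr, rfl⟩)))
    · have h := D.contact2 hx (D.near_d hq) hr
      refine ⟨h.1, fun hle => ?_⟩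
      obtain ⟨h1, h2⟩ := h.2 hle
      right; right; left; rw [h1]; exact h2
  · -- y = e q
    have hyK : D.e q ∈ D.K := Or.inr ⟨q, hq, rfl⟩
    rcases hz with ((((hz | ⟨r, hr, rfl⟩) | ⟨r, hr, rfl⟩) | ⟨r, hr, rfl⟩) | ⟨r, hr, rfl⟩)
    · exact fromLt (D.rep_lt (two (near0 hx) (near0 hz)) (pair_le_triple2 _ _ _ _) hxK hyK
        (Or.inl (Or.inl (Or.inl (Or.inl hz)))))
    · have h := D.cross_lt (y := D.b r) (z := D.e q) hx D.he0 D.me1_norm D.cross_pm (D.near_b hr)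
        (D.near_e hq) (D.val_b hr) (D.val_e hq)
      rw [tripleCost_swap23, add_right_comm (D.u x)] at h
      exact fromLt h
    · have h := D.cross_lt (y := D.c r) (z := D.e q) hx D.me0_norm D.me1_norm D.cross_mm (D.near_c hr)
        (D.near_e hq) (D.val_c hr) (D.val_e hq)
      rw [tripleCost_swap23, add_right_comm (D.u x)] at h
      exact fromLt h
    · have h := D.contact2 hx (D.near_d hr) hq
      rw [tripleCost_swap23, add_right_comm (D.u x)] at h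
      refine ⟨h.1, fun hle => ?_⟩
      obtain ⟨h1, _⟩ := h.2 hle
      right; right; right; rw [h1]
    · exact fromLt (D.rep_lt (two (D.near_e hq) (D.near_e hr)) (pair_le_triple3 _ _ _ _) hxK hyK
        (Or.inr ⟨r, hr, rfl⟩))

/-- Non-central points are within distance `3`. -/
lemma rest_near {x : E} (hx : x ∈ D.K) (hxS : x ∉ D.S) : ‖x‖ ≤ 1 + D.ε ∧
    D.u x ≤ ENNReal.ofReal (D.τ + D.τ') := by
  rcases hx with ((((hx | ⟨q, hq, rfl⟩) | ⟨q, hq, rfl⟩) | ⟨q, hq, rfl⟩) | ⟨q, hq, rfl⟩)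
  · exact absurd hx hxS
  · exact ⟨D.norm_le_of_near D.he0 (D.near_b hq), D.val_b hq⟩
  · exact ⟨D.norm_le_of_near D.me0_norm (D.near_c hq), D.val_c hq⟩
  · exact ⟨D.norm_le_of_near D.he1 (D.near_d hq), D.val_d hq⟩
  · exact ⟨D.norm_le_of_near D.me1_norm (D.near_e hq), D.val_e hq⟩

/-- The Kantorovich inequality on `K`. -/
theorem kant {x y z : E} (hx : x ∈ D.K) (hy : y ∈ D.K) (hz : z ∈ D.K) :
    D.u x + D.u y + D.u z ≤ tripleCost D.s (x, y, z) := by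
  by_cases h1 : x ∈ D.S
  · exact (D.main_A h1 hy hz).1
  by_cases h2 : y ∈ D.S
  · have := (D.main_A h2 hx hz).1
    rw [tripleCost_swap12, add_comm (D.u y)] at this
    exact this
  by_cases h3 : z ∈ D.S
  · have := (D.main_A h3 hx hy).1
    have e : tripleCost D.s (z, x, y) = tripleCost D.s (x, y, z) :=
      (tripleCost_cycle D.s y z x).trans (tripleCost_cycle D.s x y z)
    rw [e] at this
    calc D.u x + D.u y + D.u z = D.u z + D.u x + D.u y := by ac_rfl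
      _ ≤ _ := this
  obtain ⟨n1, u1⟩ := D.rest_near hx h1
  obtain ⟨n2, u2⟩ := D.rest_near hy h2
  obtain ⟨n3, u3⟩ := D.rest_near hz h3
  have hε := D.hε8
  have hτ := D.hτ
  have hτ' := D.hτ'
  have d12 : ‖x - y‖ ≤ 3 := by
    have := norm_sub_le x y
    linarith
  have d13 : ‖x - z‖ ≤ 3 := by
    have := norm_sub_le x z
    linarith
  have d23 : ‖y - z‖ ≤ 3 := by
    have := norm_sub_le y z
    linarith
  have hT := tripleCost_ge D.hs (by norm_num : (0:ℝ) < 3) (by norm_num : (0:ℝ) < 3)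
    (by norm_num : (0:ℝ) < 3) d12 d13 d23
  refine le_trans ?_ hT
  have h0 : 0 ≤ D.τ + D.τ' := by linarith
  have hadd : ENNReal.ofReal (D.τ + D.τ') + ENNReal.ofReal (D.τ + D.τ') + ENNReal.ofReal (D.τ + D.τ')
      ≤ ENNReal.ofReal ((3:ℝ) ^ (-D.s) + (3:ℝ) ^ (-D.s) + (3:ℝ) ^ (-D.s)) := by
    rw [← ENNReal.ofReal_add h0 h0, ← ENNReal.ofReal_add (by linarith) h0]
    apply ENNReal.ofReal_le_ofReal
    have := D.hτ3
    linarith
  exact (add_le_add (add_le_add u1 u2) u3).trans hadd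

/-- Contact: equality on the graph of the first type. -/
theorem contact_graph1 {p : E} (hp : p ∈ D.S) :
    tripleCost D.s (p, D.b p, D.c p) ≤ D.u p + D.u (D.b p) + D.u (D.c p) := by
  have hc0 := D.hcε p hp
  have hb0 := D.hbε p hp
  have hx0 := D.hSε p hp
  have hxy : p ≠ D.b p := by
    intro h
    have hb := D.b_ball hp
    rw [← h] at hb
    exact not_mem_of_far (D.S_ball hp) (by rw [D.d00]; norm_num) hb
  have hxz : p ≠ D.c p := by
    intro h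
    have hb := D.c_ball hp
    rw [← h] at hb
    exact not_mem_of_far (D.S_ball hp) (by rw [D.d01]; norm_num) hb
  have hyz : D.b p ≠ D.c p := by
    intro h
    have hb := D.c_ball hp
    rw [← h] at hb
    exact not_mem_of_far (D.b_ball hp) (by rw [D.d02]; norm_num) hb
  rw [tripleCost_eq_ofReal D.s hxy hxz hyz, D.u_of_ball0 (D.S_ball hp), D.u_of_ball_e0 (D.b_ball hp),
    D.val_c_eq hp]
  have hA := D.hA0 p hx0
  have hB := abs_le.mp (D.hB _ hb0)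
  have hF := abs_le.mp (D.hFc p hp)
  have htt := D.tt_nonneg
  have hB0 : 0 ≤ uB D.s D.Λ D.τ D.e0 (D.b p) := by linarith [hB.1]
  rw [← ENNReal.ofReal_add hA hB0, ← ENNReal.ofReal_add (by linarith) (by linarith [hF.1])]
  apply ENNReal.ofReal_le_ofReal
  simp only [Fc]
  linarith

theorem contact_graph2 {p : E} (hp : p ∈ D.S) :
    tripleCost D.s (p, D.d p, D.e p) ≤ D.u p + D.u (D.d p) + D.u (D.e p) := by
  have h := D.contact_graph1 (D.hRS p hp)
  have e1 : D.b (D.R p) = D.R (D.d p) := by simp [d, D.hR]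
  have e2 : D.c (D.R p) = D.R (D.e p) := by simp [e, D.hR]
  rw [e1, e2, D.tripleCost_R, D.u_R, D.u_R, D.u_R] at h
  exact h

end ClusterData

end Crest.Agent.Lib.OT3
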