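import Crest.Agent.Lib.OT3.Local
import Crest.Agent.Lib.OT3.Abstract

/-!
The main quadratic inequality at a stationary triple, and the conversion between the extended
cost and the real cost.
-/

set_option autoImplicit false

namespace Crest.Agent.Lib.OT3

set_option linter.unusedSectionVars false

open scoped RealInnerProductSpace ContDiff Topology ENNReal
open Crest.AnalysisR.OT

section Real

variable {E : Type*} [NormedAddCommGroup E] [InnerProductSpace ℝ E]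

/-- The real cost. -/
noncomputable def costR (s : ℝ) (x y z : E) : ℝ := ‖x - y‖ ^ (-s) + ‖x - z‖ ^ (-s) + ‖y - z‖ ^ (-s)

lemma costR_pos (s : ℝ) {x y z : E} (h : x ≠ y) : 0 < costR s x y z := by
  have h1 : 0 < ‖x - y‖ ^ (-s) := Real.rpow_pos_of_pos (norm_pos_iff.mpr (sub_ne_zero.mpr h)) _
  have h2 : 0 ≤ ‖x - z‖ ^ (-s) := Real.rpow_nonneg (norm_nonneg _) _
  have h3 : 0 ≤ ‖y - z‖ ^ (-s) := Real.rpow_nonneg (norm_nonneg _) _
  unfold costR; linarith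

lemma pairCost_eq_ofReal (s : ℝ) {x y : E} (h : x ≠ y) :
    pairCost s x y = ENNReal.ofReal (‖x - y‖ ^ (-s)) :=
  ENNReal.ofReal_rpow_of_pos (norm_pos_iff.mpr (sub_ne_zero.mpr h))

lemma pairCost_self {s : ℝ} (hs : 0 < s) (x : E) : pairCost s x x = ⊤ := by
  simp [pairCost, ENNReal.zero_rpow_of_neg (neg_lt_zero.mpr hs)]

lemma tripleCost_eq_ofReal (s : ℝ) {x y z : E} (h1 : x ≠ y) (h2 : x ≠ z) (h3 : y ≠ z) :
    tripleCost s (x, y, z) = ENNReal.ofReal (costR s x y z) := by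
  simp only [tripleCost, costR]
  rw [pairCost_eq_ofReal s h1, pairCost_eq_ofReal s h2, pairCost_eq_ofReal s h3,
    ENNReal.ofReal_add (by positivity) (by positivity), ENNReal.ofReal_add (by positivity) (by positivity)]

lemma tripleCost_top {s : ℝ} (hs : 0 < s) {x y z : E} (h : x = y ∨ x = z ∨ y = z) :
    tripleCost s (x, y, z) = ⊤ := by
  simp only [tripleCost]
  rcases h with rfl | rfl | rfl
  · simp [pairCost_self hs]
  · simp [pairCost_self hs]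
  · simp [pairCost_self hs]

/-- The potential on the central cluster. -/
noncomputable def uA (s Λ τ : ℝ) (x : E) : ℝ := 2 + (2:ℝ) ^ (-s) - 2 * τ - (Λ / 2) * ‖x‖ ^ 2

/-- The potential on the cluster around `e0`. -/
noncomputable def uB (s Λ τ : ℝ) (e0 y : E) : ℝ :=
  τ + ⟪G s e0 + G s ((2:ℝ) • e0), y - e0⟫ - (Λ / 2) * ‖y - e0‖ ^ 2

/-- The value of the third potential along the family, as a function of parameters `x y z`. -/
noncomputable def Fc (s Λ τ : ℝ) (e0 x y z : E) : ℝ :=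
  costR s x y z - uA s Λ τ x - uB s Λ τ e0 y

lemma wt_le {s : ℝ} (hs : 0 < s) {r : E} (h : 1 / 2 ≤ ‖r‖) : ‖r‖ ^ (-s - 2) ≤ (2:ℝ) ^ (s + 2) := by
  have h0 : (0:ℝ) < 1 / 2 := by norm_num
  calc ‖r‖ ^ (-s - 2) ≤ (1 / 2 : ℝ) ^ (-s - 2) :=
        Real.rpow_le_rpow_of_nonpos h0 h (by linarith)
    _ = (2:ℝ) ^ (s + 2) := by
        rw [one_div, Real.inv_rpow (by norm_num), ← Real.rpow_neg (by norm_num)]
        congr 1; ring

/-- The fundamental inequality at a stationary triple. -/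
theorem core_ineq {s Λ τ : ℝ} (hs : 0 < s) (e0 : E) {q bq cq x' y' : E}
    (h1 : G s (q - bq) + G s (q - cq) + Λ • q = 0)
    (h2 : G s (bq - q) + G s (bq - cq) + Λ • (bq - e0) - (G s e0 + G s ((2:ℝ) • e0)) = 0)
    (hd1 : 1 / 2 ≤ ‖q - bq‖) (hd2 : 1 / 2 ≤ ‖q - cq‖) (hd3 : 1 / 2 ≤ ‖bq - cq‖)
    (hx1 : x' ≠ y') (hx2 : x' ≠ cq) (hx3 : y' ≠ cq) :
    uA s Λ τ x' + uB s Λ τ e0 y' + Fc s Λ τ e0 q bq cq +
      ((Λ - 3 * s * (2:ℝ) ^ (s + 2)) / 2) * (‖x' - q‖ ^ 2 + ‖y' - bq‖ ^ 2) ≤ costR s x' y' cq := by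
  set ℓ : E := G s e0 + G s ((2:ℝ) • e0) with hℓ
  set r₁ := q - bq with hr₁
  set r₂ := q - cq with hr₂
  set r₃ := bq - cq with hr₃
  set ξ := x' - q with hξ
  set η := y' - bq with hη
  have r₁0 : r₁ ≠ 0 := by
    intro h; rw [h] at hd1; simp at hd1; linarith
  have r₂0 : r₂ ≠ 0 := by
    intro h; rw [h] at hd2; simp at hd2; linarith
  have r₃0 : r₃ ≠ 0 := by
    intro h; rw [h] at hd3; simp at hd3; linarith
  have t1 := tangent_ineq hs r₁0 (sub_ne_zero.mpr hx1)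
  have t2 := tangent_ineq hs r₂0 (sub_ne_zero.mpr hx2)
  have t3 := tangent_ineq hs r₃0 (sub_ne_zero.mpr hx3)
  have e1 : x' - y' - r₁ = ξ - η := by simp only [hr₁, hξ, hη]; abel
  have e2 : x' - cq - r₂ = ξ := by simp only [hr₂, hξ]; abel
  have e3 : y' - cq - r₃ = η := by simp only [hr₃, hη]; abel
  rw [e1] at t1
  rw [e2] at t2
  rw [e3] at t3
  have w1 := wt_le hs hd1
  have w2 := wt_le hs hd2
  have w3 := wt_le hs hd3
  have hG2 : G s r₂ = - G s r₁ - Λ • q := by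
    have : G s r₂ = (G s r₁ + G s r₂ + Λ • q) - G s r₁ - Λ • q := by abel
    rw [this, h1]; simp
  have hG3 : G s r₃ = ℓ + G s r₁ - Λ • (bq - e0) := by
    have h21 : G s (bq - q) = - G s r₁ := by rw [hr₁, G_sub_comm s q bq]; simp
    rw [h21] at h2
    have : G s r₃ = (- G s r₁ + G s r₃ + Λ • (bq - e0) - ℓ) + ℓ + G s r₁ - Λ • (bq - e0) := by abel
    rw [this, h2]; simp
  have i1 : ⟪G s r₁, ξ - η⟫ + ⟪G s r₂, ξ⟫ + ⟪G s r₃, η⟫ =
      -(Λ * ⟪q, ξ⟫) + ⟪ℓ, η⟫ - Λ * ⟪bq - e0, η⟫ := by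
    rw [hG2, hG3]
    simp only [inner_sub_left, inner_sub_right, inner_add_left, inner_neg_left, inner_smul_left,
      conj_trivial]
    ring
  have n1 : ‖x'‖ ^ 2 = ‖q‖ ^ 2 + 2 * ⟪q, ξ⟫ + ‖ξ‖ ^ 2 := by
    have : x' = q + ξ := by simp [hξ]
    rw [this, norm_add_sq_real]
  have n2 : ‖y' - e0‖ ^ 2 = ‖bq - e0‖ ^ 2 + 2 * ⟪bq - e0, η⟫ + ‖η‖ ^ 2 := by
    have : y' - e0 = (bq - e0) + η := by simp only [hη]; abel
    rw [this, norm_add_sq_real]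
  have n3 : ⟪ℓ, y' - e0⟫ = ⟪ℓ, bq - e0⟫ + ⟪ℓ, η⟫ := by
    have : y' - e0 = (bq - e0) + η := by simp only [hη]; abel
    rw [this, inner_add_right]
  have hpar : ‖ξ - η‖ ^ 2 ≤ 2 * ‖ξ‖ ^ 2 + 2 * ‖η‖ ^ 2 := by
    have := parallelogram_law_with_norm ℝ ξ η
    nlinarith [sq_nonneg ‖ξ + η‖]
  have hn1 : 0 ≤ ‖ξ‖ ^ 2 := by positivity
  have hn2 : 0 ≤ ‖η‖ ^ 2 := by positivity
  have hn3 : 0 ≤ ‖ξ - η‖ ^ 2 := by positivity
  set W : ℝ := (2:ℝ) ^ (s + 2) with hW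
  have b1 : (s / 2) * ‖r₁‖ ^ (-s - 2) * ‖ξ - η‖ ^ 2 ≤ (s / 2) * W * (2 * ‖ξ‖ ^ 2 + 2 * ‖η‖ ^ 2) := by
    apply mul_le_mul _ hpar hn3 (by positivity)
    exact mul_le_mul_of_nonneg_left w1 (by positivity)
  have b2 : (s / 2) * ‖r₂‖ ^ (-s - 2) * ‖ξ‖ ^ 2 ≤ (s / 2) * W * ‖ξ‖ ^ 2 := by
    apply mul_le_mul_of_nonneg_right _ hn1
    exact mul_le_mul_of_nonneg_left w2 (by positivity)
  have b3 : (s / 2) * ‖r₃‖ ^ (-s - 2) * ‖η‖ ^ 2 ≤ (s / 2) * W * ‖η‖ ^ 2 := by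
    apply mul_le_mul_of_nonneg_right _ hn2
    exact mul_le_mul_of_nonneg_left w3 (by positivity)
  simp only [uA, uB, Fc, costR, hr₁.symm, hr₂.symm, hr₃.symm]
  rw [n1, n2, n3]
  have hsplit : ((Λ - 3 * s * W) / 2) * (‖ξ‖ ^ 2 + ‖η‖ ^ 2) =
      (Λ / 2) * ‖ξ‖ ^ 2 + (Λ / 2) * ‖η‖ ^ 2 - (3 * s * W / 2) * (‖ξ‖ ^ 2 + ‖η‖ ^ 2) := by ring
  rw [hsplit]
  nlinarith

end Real

end Crest.Agent.Lib.OT3
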