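import Mathlib

/-!
Push-forward of a smooth density `g²` under a smooth open partial diffeomorphism `e` of
`EuclideanSpace ℝ (Fin d)` (module M-PUSH for S0175).

`pushRoot e g y = g (e.symm y) * sqrt |det D(e.symm)(y)|` on `e.target`, `0` off it.
-/

set_option autoImplicit false

open MeasureTheory Set
open scoped ENNReal ContDiff Topology

namespace Crest.Agent.Lib.OT3

/-- Euclidean space of dimension `d`. -/
abbrev Eu (d : ℕ) := EuclideanSpace ℝ (Fin d)

variable {d : ℕ}

/-- The determinant of a continuous linear endomorphism of `EuclideanSpace ℝ (Fin d)` is smooth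
in the endomorphism. -/
theorem contDiff_clm_det : ContDiff ℝ ∞ (fun f : Eu d →L[ℝ] Eu d => f.det) := by
  classical
  let b : Module.Basis (Fin d) ℝ (Eu d) := (EuclideanSpace.basisFun (Fin d) ℝ).toBasis
  have key : ∀ f : Eu d →L[ℝ] Eu d, f.det =
      ∑ σ : Equiv.Perm (Fin d), (Equiv.Perm.sign σ : ℤ) •
        ∏ i, (LinearMap.toMatrix b b (f : Eu d →ₗ[ℝ] Eu d)) (σ i) i := by
    intro f
    change LinearMap.det (f : Eu d →ₗ[ℝ] Eu d) = _
    rw [← LinearMap.det_toMatrix b, Matrix.det_apply]
    rfl
  have hent : ∀ i j : Fin d, ContDiff ℝ ∞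
      (fun f : Eu d →L[ℝ] Eu d => (LinearMap.toMatrix b b (f : Eu d →ₗ[ℝ] Eu d)) i j) := by
    intro i j
    have h1 : ContDiff ℝ ∞ (fun f : Eu d →L[ℝ] Eu d => f (b j)) :=
      ContDiff.clm_apply contDiff_id contDiff_const
    have h2 : ContDiff ℝ ∞ (fun f : Eu d →L[ℝ] Eu d => (f (b j)) i) :=
      (contDiff_euclidean.1 h1) i
    convert h2 using 2 with f
    simp [LinearMap.toMatrix_apply, b]
  have : (fun f : Eu d →L[ℝ] Eu d => f.det) = fun f : Eu d →L[ℝ] Eu d =>
      ∑ σ : Equiv.Perm (Fin d), (Equiv.Perm.sign σ : ℤ) •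
        ∏ i, (LinearMap.toMatrix b b (f : Eu d →ₗ[ℝ] Eu d)) (σ i) i := funext key
  rw [this]
  refine ContDiff.sum fun σ _ => ?_
  refine ContDiff.const_smul _ ?_
  exact contDiff_prod fun i _ => hent _ _

/-- The pushed square root density. -/
noncomputable def pushRoot (e : OpenPartialHomeomorph (Eu d) (Eu d)) (g : Eu d → ℝ) (y : Eu d) : ℝ :=
  open Classical in
  if y ∈ e.target then g (e.symm y) * Real.sqrt |(fderiv ℝ e.symm y).det| else 0

theorem pushRoot_of_mem {e : OpenPartialHomeomorph (Eu d) (Eu d)} {g : Eu d → ℝ} {y : Eu d} (hy : y ∈ e.target) :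
    pushRoot e g y = g (e.symm y) * Real.sqrt |(fderiv ℝ e.symm y).det| := by
  simp [pushRoot, hy]

theorem pushRoot_of_not_mem {e : OpenPartialHomeomorph (Eu d) (Eu d)} {g : Eu d → ℝ} {y : Eu d}
    (hy : y ∉ e.target) : pushRoot e g y = 0 := by
  simp [pushRoot, hy]

section
variable {e : OpenPartialHomeomorph (Eu d) (Eu d)} {g : Eu d → ℝ}

/-- `D(e.symm)` has non-zero determinant on the target. -/
theorem det_fderiv_symm_ne_zero (he : ContDiffOn ℝ ∞ e e.source)
    (he' : ContDiffOn ℝ ∞ e.symm e.target) {y : Eu d} (hy : y ∈ e.target) :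
    (fderiv ℝ e.symm y).det ≠ 0 := by
  have hx : e.symm y ∈ e.source := e.map_target hy
  have h1 : HasFDerivAt e.symm (fderiv ℝ e.symm y) y :=
    ((he'.contDiffAt (e.open_target.mem_nhds hy)).differentiableAt (by simp)).hasFDerivAt
  have h2 : HasFDerivAt e (fderiv ℝ e (e.symm y)) (e.symm y) :=
    ((he.contDiffAt (e.open_source.mem_nhds hx)).differentiableAt (by simp)).hasFDerivAt
  have h3 : HasFDerivAt (e ∘ e.symm) ((fderiv ℝ e (e.symm y)).comp (fderiv ℝ e.symm y)) y :=
    h2.comp y h1
  have h4 : (e ∘ e.symm) =ᶠ[𝓝 y] id := by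
    filter_upwards [e.open_target.mem_nhds hy] with z hz
    exact e.right_inv hz
  have h5 : HasFDerivAt (e ∘ e.symm) (ContinuousLinearMap.id ℝ (Eu d)) y :=
    (hasFDerivAt_id y).congr_of_eventuallyEq h4
  have h6 := h3.unique h5
  intro h0
  have h7 : ((fderiv ℝ e (e.symm y)).comp (fderiv ℝ e.symm y)).det = 1 := by
    rw [h6]
    exact LinearMap.det_id
  have h8 : ((fderiv ℝ e (e.symm y)).comp (fderiv ℝ e.symm y)).det =
      (fderiv ℝ e (e.symm y)).det * (fderiv ℝ e.symm y).det :=
    LinearMap.det_comp _ _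
  rw [h8, h0] at h7
  simp at h7

/-- The compact set containing the support of `pushRoot e g`. -/
theorem support_pushRoot_subset :
    Function.support (pushRoot e g) ⊆ e '' tsupport g := by
  intro y hy
  by_cases hyt : y ∈ e.target
  · have h : g (e.symm y) ≠ 0 := by
      intro h0
      apply hy
      simp [pushRoot_of_mem hyt, h0]
    exact ⟨e.symm y, subset_tsupport g h, e.right_inv hyt⟩
  · exact absurd (pushRoot_of_not_mem hyt) hy

theorem isCompact_image_tsupport (hgc : HasCompactSupport g) (hgs : tsupport g ⊆ e.source) :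
    IsCompact (e '' tsupport g) :=
  hgc.isCompact.image_of_continuousOn (e.continuousOn.mono hgs)

theorem image_tsupport_subset_target (hgs : tsupport g ⊆ e.source) :
    e '' tsupport g ⊆ e.target := by
  rintro _ ⟨x, hx, rfl⟩
  exact e.map_source (hgs hx)

theorem hasCompactSupport_pushRoot (hgc : HasCompactSupport g) (hgs : tsupport g ⊆ e.source) :
    HasCompactSupport (pushRoot e g) :=
  HasCompactSupport.intro (isCompact_image_tsupport hgc hgs) fun y hy => by
    by_contra h
    exact hy (support_pushRoot_subset h)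

theorem tsupport_pushRoot_subset (hgc : HasCompactSupport g) (hgs : tsupport g ⊆ e.source) :
    tsupport (pushRoot e g) ⊆ e.target := by
  refine (closure_minimal support_pushRoot_subset
    (isCompact_image_tsupport hgc hgs).isClosed).trans (image_tsupport_subset_target hgs)

/-- `pushRoot e g` is smooth. -/
theorem contDiff_pushRoot (he : ContDiffOn ℝ ∞ e e.source)
    (he' : ContDiffOn ℝ ∞ e.symm e.target) (hg : ContDiff ℝ ∞ g)
    (hgc : HasCompactSupport g) (hgs : tsupport g ⊆ e.source) :
    ContDiff ℝ ∞ (pushRoot e g) := by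
  rw [contDiff_iff_contDiffAt]
  intro y
  by_cases hy : y ∈ e.target
  · -- smooth formula on the open target
    have hd : ContDiffOn ℝ ∞ (fderiv ℝ e.symm) e.target :=
      he'.fderiv_of_isOpen e.open_target (by simp)
    have hdet : ContDiffOn ℝ ∞ (fun z => (fderiv ℝ e.symm z).det) e.target :=
      contDiff_clm_det.comp_contDiffOn hd
    have hne : (fderiv ℝ e.symm y).det ≠ 0 := det_fderiv_symm_ne_zero he he' hy
    have hdetAt : ContDiffAt ℝ ∞ (fun z => (fderiv ℝ e.symm z).det) y :=
      hdet.contDiffAt (e.open_target.mem_nhds hy)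
    have habs : ContDiffAt ℝ ∞ (fun z => |(fderiv ℝ e.symm z).det|) y :=
      hdetAt.abs hne
    have hsqrt : ContDiffAt ℝ ∞ (fun z => Real.sqrt |(fderiv ℝ e.symm z).det|) y :=
      habs.sqrt (by simpa using hne)
    have hsymm : ContDiffAt ℝ ∞ e.symm y := he'.contDiffAt (e.open_target.mem_nhds hy)
    have hcomp : ContDiffAt ℝ ∞ (fun z => g (e.symm z)) y := hg.contDiffAt.comp y hsymm
    have hmain := hcomp.mul hsqrt
    refine hmain.congr_of_eventuallyEq ?_
    filter_upwards [e.open_target.mem_nhds hy] with z hz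
    exact pushRoot_of_mem hz
  · -- vanishes near `y`
    have hK : IsCompact (e '' tsupport g) := isCompact_image_tsupport hgc hgs
    have hyK : y ∉ e '' tsupport g := fun h => hy (image_tsupport_subset_target hgs h)
    have hev : pushRoot e g =ᶠ[𝓝 y] fun _ => (0 : ℝ) := by
      filter_upwards [hK.isClosed.isOpen_compl.mem_nhds hyK] with z hz
      by_contra h
      exact hz (support_pushRoot_subset h)
    exact contDiffAt_const.congr_of_eventuallyEq hev

/-- The push-forward identity: any measurable extension `ê` of `e` from its source transports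
`g² dx` to `(pushRoot e g)² dy`. -/
theorem map_withDensity_sq (_he : ContDiffOn ℝ ∞ e e.source)
    (he' : ContDiffOn ℝ ∞ e.symm e.target) (hg : ContDiff ℝ ∞ g)
    (hgs : tsupport g ⊆ e.source) (ehat : Eu d → Eu d) (hehat : Measurable ehat)
    (hext : ∀ x ∈ e.source, ehat x = e x) :
    ((volume : Measure (Eu d)).withDensity (fun x => ENNReal.ofReal (g x ^ 2))).map ehat =
      (volume : Measure (Eu d)).withDensity (fun y => ENNReal.ofReal (pushRoot e g y ^ 2)) := by
  ext B hB
  have hgm : Measurable (fun x => ENNReal.ofReal (g x ^ 2)) :=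
    ((hg.continuous.pow 2).measurable).ennreal_ofReal
  rw [Measure.map_apply hehat hB, withDensity_apply _ (hehat hB), withDensity_apply _ hB]
  -- restrict to the source, resp. the target
  have hSm : MeasurableSet e.source := e.open_source.measurableSet
  have hTm : MeasurableSet e.target := e.open_target.measurableSet
  have hset : e.symm '' (B ∩ e.target) = (ehat ⁻¹' B) ∩ e.source := by
    ext x
    constructor
    · rintro ⟨y, ⟨hyB, hyt⟩, rfl⟩
      have hx : e.symm y ∈ e.source := e.map_target hyt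
      refine ⟨?_, hx⟩
      change ehat (e.symm y) ∈ B
      rw [hext _ hx, e.right_inv hyt]
      exact hyB
    · rintro ⟨hxB, hxs⟩
      refine ⟨e x, ⟨?_, e.map_source hxs⟩, e.left_inv hxs⟩
      have : ehat x ∈ B := hxB
      rwa [hext x hxs] at this
  have hL : ∫⁻ x in ehat ⁻¹' B, ENNReal.ofReal (g x ^ 2) =
      ∫⁻ x in e.symm '' (B ∩ e.target), ENNReal.ofReal (g x ^ 2) := by
    rw [hset, ← lintegral_indicator (hehat hB), ← lintegral_indicator ((hehat hB).inter hSm)]
    refine lintegral_congr fun x => ?_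
    by_cases hx : x ∈ e.source
    · by_cases hxB : x ∈ ehat ⁻¹' B
      · rw [indicator_of_mem hxB, indicator_of_mem (show x ∈ ehat ⁻¹' B ∩ e.source from ⟨hxB, hx⟩)]
      · rw [indicator_of_notMem hxB, indicator_of_notMem (fun h => hxB h.1)]
    · have h0 : g x = 0 := by
        by_contra h
        exact hx (hgs (subset_tsupport g h))
      rw [indicator_of_notMem (s := ehat ⁻¹' B ∩ e.source) (fun h => hx h.2)]
      by_cases hxB : x ∈ ehat ⁻¹' B
      · rw [indicator_of_mem hxB, h0]; simp
      · rw [indicator_of_notMem hxB]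
  have hR : ∫⁻ y in B, ENNReal.ofReal (pushRoot e g y ^ 2) =
      ∫⁻ y in B ∩ e.target, ENNReal.ofReal (pushRoot e g y ^ 2) := by
    rw [← lintegral_indicator hB, ← lintegral_indicator (hB.inter hTm)]
    refine lintegral_congr fun y => ?_
    by_cases hy : y ∈ e.target
    · by_cases hyB : y ∈ B
      · rw [indicator_of_mem hyB, indicator_of_mem (show y ∈ B ∩ e.target from ⟨hyB, hy⟩)]
      · rw [indicator_of_notMem hyB, indicator_of_notMem (fun h => hyB h.1)]
    · rw [indicator_of_notMem (s := B ∩ e.target) (fun h => hy h.2)]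
      by_cases hyB : y ∈ B
      · rw [indicator_of_mem hyB, pushRoot_of_not_mem hy]; simp
      · rw [indicator_of_notMem hyB]
  rw [hL, hR]
  have hderiv : ∀ y ∈ B ∩ e.target,
      HasFDerivWithinAt e.symm (fderiv ℝ e.symm y) (B ∩ e.target) y := by
    intro y hy
    exact (((he'.contDiffAt (e.open_target.mem_nhds hy.2)).differentiableAt
      (by simp)).hasFDerivAt).hasFDerivWithinAt
  have hinj : InjOn e.symm (B ∩ e.target) := e.symm.injOn.mono inter_subset_right
  rw [lintegral_image_eq_lintegral_abs_det_fderiv_mul volume (hB.inter hTm) hderiv hinj]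
  refine setLIntegral_congr_fun (hB.inter hTm) fun y hy => ?_
  rw [pushRoot_of_mem hy.2, ← ENNReal.ofReal_mul (abs_nonneg _), mul_pow,
    Real.sq_sqrt (abs_nonneg _), mul_comm]

end

end Crest.Agent.Lib.OT3
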