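import Crest.Agent.Lib.OT3.Base
import Crest.Agent.Lib.OT3.Push

/-!
From the base data to the density `ρ`: measure identities and smoothness.
-/

set_option autoImplicit false

namespace Crest.Agent.Lib.OT3

set_option linter.unusedSectionVars false

open scoped RealInnerProductSpace ContDiff Topology ENNReal
open Crest.AnalysisR.OT Metric Filter MeasureTheory

section generic

variable {E : Type*} [NormedAddCommGroup E] [InnerProductSpace ℝ E] [MeasurableSpace E] [BorelSpace E]
  [SecondCountableTopology E]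

lemma ClusterData.measurable_u (D : ClusterData E) (hm : Measurable D.uC) : Measurable D.u := by
  have mA : Measurable D.uAe := by
    unfold ClusterData.uAe
    apply Measurable.indicator _ measurableSet_ball
    unfold uA
    exact (measurable_const.sub (measurable_const.mul (measurable_id.norm.pow_const 2))).ennreal_ofReal
  have mB : Measurable D.uBe := by
    unfold ClusterData.uBe
    apply Measurable.indicator _ measurableSet_ball
    unfold uB
    have h4 : Measurable (fun y : E => y - D.e0) := measurable_id.sub_const _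
    exact ((measurable_const.add h4.const_inner).sub
      (measurable_const.mul (h4.norm.pow_const 2))).ennreal_ofReal
  have mC : Measurable D.uCe := by
    unfold ClusterData.uCe
    exact Measurable.indicator hm.ennreal_ofReal measurableSet_ball
  have mR : Measurable D.R := D.R.continuous.measurable
  unfold ClusterData.u
  exact ((((mA.add mB).add mC)).add (mB.comp mR)).add (mC.comp mR)

lemma map_withDensity_of_invol {R : E → E} (hR : ∀ x, R (R x) = x) {m : Measure E}
    (hmp : MeasurePreserving R m m) {h : E → ℝ≥0∞} (hh : Measurable h) :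
    (m.withDensity h).map R = m.withDensity (fun x => h (R x)) := by
  ext W hW
  rw [Measure.map_apply hmp.measurable hW, withDensity_apply _ (hmp.measurable hW),
    withDensity_apply _ hW]
  have h1 := hmp.setLIntegral_comp_preimage (s := W) (f := fun x => h (R x)) hW
    (hh.comp hmp.measurable)
  simp only [hR] at h1
  exact h1

end generic

section

variable {d : ℕ}

/-- The measure with density `g²`. -/
noncomputable def nuOf (g : Eu d → ℝ) : Measure (Eu d) :=
  (volume : Measure (Eu d)).withDensity (fun x => ENNReal.ofReal (g x ^ 2))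

/-- The density. -/
noncomputable def rhoOf (B : Base (Eu d)) (g : Eu d → ℝ) (y : Eu d) : ℝ :=
  (1 / 6) * (g y ^ 2 + g y ^ 2 + pushRoot B.eb g y ^ 2 + pushRoot B.ec g y ^ 2 +
    pushRoot B.eb g (B.R y) ^ 2 + pushRoot B.ec g (B.R y) ^ 2)

/-- The square root of the density. -/
noncomputable def rootOf (B : Base (Eu d)) (g : Eu d → ℝ) (y : Eu d) : ℝ :=
  Real.sqrt (1 / 6) * (Real.sqrt 2 * g y + pushRoot B.eb g y + pushRoot B.ec g y +
    pushRoot B.eb g (B.R y) + pushRoot B.ec g (B.R y))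

variable (B : Base (Eu d)) {g : Eu d → ℝ}

lemma map_b (hg : ContDiff ℝ ∞ g) (hgO : tsupport g ⊆ B.O) :
    (nuOf g).map B.b = (volume : Measure (Eu d)).withDensity
      (fun y => ENNReal.ofReal (pushRoot B.eb g y ^ 2)) :=
  map_withDensity_sq B.sb B.sb' hg (by rw [B.ebs]; exact hgO) B.b B.mb
    (fun x hx => B.ebb x (by rw [← B.ebs]; exact hx))

lemma map_c (hg : ContDiff ℝ ∞ g) (hgO : tsupport g ⊆ B.O) :
    (nuOf g).map B.c = (volume : Measure (Eu d)).withDensity
      (fun y => ENNReal.ofReal (pushRoot B.ec g y ^ 2)) :=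
  map_withDensity_sq B.sc B.sc' hg (by rw [B.ecs]; exact hgO) B.c B.mc
    (fun x hx => B.ecc x (by rw [← B.ecs]; exact hx))

lemma measurable_ofReal_sq {f : Eu d → ℝ} (hf : Continuous f) :
    Measurable (fun y => ENNReal.ofReal (f y ^ 2)) :=
  ((hf.pow 2).measurable).ennreal_ofReal

lemma map_R_nu (hmp : MeasurePreserving B.R volume volume) (hg : ContDiff ℝ ∞ g)
    (hgR : ∀ x, g (B.R x) = g x) : (nuOf g).map B.R = nuOf g := by
  unfold nuOf
  rw [map_withDensity_of_invol B.hR hmp (measurable_ofReal_sq hg.continuous)]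
  simp only [hgR]

lemma map_conj {h : Eu d → Eu d} (hm : Measurable h) (hmp : MeasurePreserving B.R volume volume)
    (hg : ContDiff ℝ ∞ g) (hgR : ∀ x, g (B.R x) = g x) {f : Eu d → ℝ} (hf : Continuous f)
    (hmap : (nuOf g).map h = (volume : Measure (Eu d)).withDensity
      (fun y => ENNReal.ofReal (f y ^ 2))) :
    (nuOf g).map (fun x => B.R (h (B.R x))) = (volume : Measure (Eu d)).withDensity
      (fun y => ENNReal.ofReal (f (B.R y) ^ 2)) := by
  have hR : Measurable B.R := B.R.continuous.measurable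
  have e : (fun x => B.R (h (B.R x))) = B.R ∘ (h ∘ B.R) := rfl
  rw [e, ← Measure.map_map hR (hm.comp hR), ← Measure.map_map hm hR, map_R_nu B hmp hg hgR, hmap,
    map_withDensity_of_invol B.hR hmp (measurable_ofReal_sq hf)]

/-- The key identity between the abstract marginal and the density. -/
theorem muOf_eq (hmp : MeasurePreserving B.R volume volume) (hg : ContDiff ℝ ∞ g)
    (hgc : HasCompactSupport g) (hgO : tsupport g ⊆ B.O) (hgR : ∀ x, g (B.R x) = g x) :
    muOf (nuOf g) B.b B.c (fun x => B.R (B.b (B.R x))) (fun x => B.R (B.c (B.R x))) =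
      measOfDensity (rhoOf B g) := by
  have cb : Continuous (pushRoot B.eb g) := (contDiff_pushRoot B.sb B.sb' hg hgc
    (by rw [B.ebs]; exact hgO)).continuous
  have cc : Continuous (pushRoot B.ec g) := (contDiff_pushRoot B.sc B.sc' hg hgc
    (by rw [B.ecs]; exact hgO)).continuous
  have cR : Continuous B.R := B.R.continuous
  have m0 := measurable_ofReal_sq hg.continuous
  have m1 := measurable_ofReal_sq cb
  have m2 := measurable_ofReal_sq cc
  have m3 : Measurable (fun y => ENNReal.ofReal (pushRoot B.eb g (B.R y) ^ 2)) :=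
    measurable_ofReal_sq (cb.comp cR)
  have m4 : Measurable (fun y => ENNReal.ofReal (pushRoot B.ec g (B.R y) ^ 2)) :=
    measurable_ofReal_sq (cc.comp cR)
  unfold muOf
  rw [map_conj B B.mb hmp hg hgR cb (map_b B hg hgO), map_conj B B.mc hmp hg hgR cc (map_c B hg hgO),
    map_b B hg hgO, map_c B hg hgO]
  unfold nuOf measOfDensity
  have hsum : ((volume : Measure (Eu d)).withDensity (fun x => ENNReal.ofReal (g x ^ 2)) +
      (volume : Measure (Eu d)).withDensity (fun x => ENNReal.ofReal (g x ^ 2)) +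
      (volume : Measure (Eu d)).withDensity (fun y => ENNReal.ofReal (pushRoot B.eb g y ^ 2)) +
      (volume : Measure (Eu d)).withDensity (fun y => ENNReal.ofReal (pushRoot B.ec g y ^ 2)) +
      (volume : Measure (Eu d)).withDensity (fun y => ENNReal.ofReal (pushRoot B.eb g (B.R y) ^ 2)) +
      (volume : Measure (Eu d)).withDensity (fun y => ENNReal.ofReal (pushRoot B.ec g (B.R y) ^ 2))) =
      (volume : Measure (Eu d)).withDensity (fun y => ENNReal.ofReal (g y ^ 2) +
        ENNReal.ofReal (g y ^ 2) + ENNReal.ofReal (pushRoot B.eb g y ^ 2) +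
        ENNReal.ofReal (pushRoot B.ec g y ^ 2) + ENNReal.ofReal (pushRoot B.eb g (B.R y) ^ 2) +
        ENNReal.ofReal (pushRoot B.ec g (B.R y) ^ 2)) := by
    have s1 := withDensity_add_left (μ := (volume : Measure (Eu d))) m0 (fun x => ENNReal.ofReal (g x ^ 2))
    have s2 := withDensity_add_left (μ := (volume : Measure (Eu d))) (m0.add m0)
      (fun y => ENNReal.ofReal (pushRoot B.eb g y ^ 2))
    have s3 := withDensity_add_left (μ := (volume : Measure (Eu d))) ((m0.add m0).add m1)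
      (fun y => ENNReal.ofReal (pushRoot B.ec g y ^ 2))
    have s4 := withDensity_add_left (μ := (volume : Measure (Eu d))) (((m0.add m0).add m1).add m2)
      (fun y => ENNReal.ofReal (pushRoot B.eb g (B.R y) ^ 2))
    have s5 := withDensity_add_left (μ := (volume : Measure (Eu d))) ((((m0.add m0).add m1).add m2).add m3)
      (fun y => ENNReal.ofReal (pushRoot B.ec g (B.R y) ^ 2))
    rw [← s1, ← s2, ← s3, ← s4, ← s5]
    rfl
  have mm : Measurable (fun y => ENNReal.ofReal (g y ^ 2) +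
        ENNReal.ofReal (g y ^ 2) + ENNReal.ofReal (pushRoot B.eb g y ^ 2) +
        ENNReal.ofReal (pushRoot B.ec g y ^ 2) + ENNReal.ofReal (pushRoot B.eb g (B.R y) ^ 2) +
        ENNReal.ofReal (pushRoot B.ec g (B.R y) ^ 2)) :=
    (((((m0.add m0).add m1).add m2).add m3).add m4)
  rw [hsum, ← withDensity_smul _ mm]
  congr 1
  funext y
  simp only [Pi.smul_apply, smul_eq_mul, rhoOf]
  rw [ENNReal.ofReal_mul (by norm_num)]
  have h6 : ENNReal.ofReal (1 / 6) = (6 : ℝ≥0∞)⁻¹ := by
    rw [one_div, ENNReal.ofReal_inv_of_pos (by norm_num)]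
    norm_num
  rw [h6]
  congr 1
  rw [ENNReal.ofReal_add (by positivity) (by positivity), ENNReal.ofReal_add (by positivity) (by positivity),
    ENNReal.ofReal_add (by positivity) (by positivity), ENNReal.ofReal_add (by positivity) (by positivity),
    ENNReal.ofReal_add (by positivity) (by positivity)]

lemma contDiff_rhoOf (hg : ContDiff ℝ ∞ g) (hgc : HasCompactSupport g) (hgO : tsupport g ⊆ B.O) :
    ContDiff ℝ ∞ (rhoOf B g) := by
  have cb : ContDiff ℝ ∞ (pushRoot B.eb g) := contDiff_pushRoot B.sb B.sb' hg hgc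
    (by rw [B.ebs]; exact hgO)
  have cc : ContDiff ℝ ∞ (pushRoot B.ec g) := contDiff_pushRoot B.sc B.sc' hg hgc
    (by rw [B.ecs]; exact hgO)
  have cR : ContDiff ℝ ∞ B.R := B.R.contDiff
  unfold rhoOf
  exact contDiff_const.mul ((((((hg.pow 2).add (hg.pow 2)).add (cb.pow 2)).add (cc.pow 2)).add
    ((cb.comp cR).pow 2)).add ((cc.comp cR).pow 2))

lemma contDiff_rootOf (hg : ContDiff ℝ ∞ g) (hgc : HasCompactSupport g) (hgO : tsupport g ⊆ B.O) :
    ContDiff ℝ ∞ (rootOf B g) := by
  have cb : ContDiff ℝ ∞ (pushRoot B.eb g) := contDiff_pushRoot B.sb B.sb' hg hgc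
    (by rw [B.ebs]; exact hgO)
  have cc : ContDiff ℝ ∞ (pushRoot B.ec g) := contDiff_pushRoot B.sc B.sc' hg hgc
    (by rw [B.ecs]; exact hgO)
  have cR : ContDiff ℝ ∞ B.R := B.R.contDiff
  unfold rootOf
  exact contDiff_const.mul (((((contDiff_const.mul hg).add cb).add cc).add (cb.comp cR)).add
    (cc.comp cR))

lemma hasCompactSupport_comp_R {f : Eu d → ℝ} (hf : HasCompactSupport f) :
    HasCompactSupport (fun y => f (B.R y)) := by
  have hK : IsCompact (B.R '' tsupport f) := hf.isCompact.image B.R.continuous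
  apply HasCompactSupport.intro hK
  intro y hy
  by_contra h
  apply hy
  refine ⟨B.R y, subset_tsupport f h, B.hR y⟩

lemma hasCompactSupport_sq {f : Eu d → ℝ} (hf : HasCompactSupport f) :
    HasCompactSupport (fun y => f y ^ 2) := by
  apply hf.mono
  intro y hy h
  apply hy
  simp [h]

lemma hasCompactSupport_rhoOf (hgc : HasCompactSupport g) (hgO : tsupport g ⊆ B.O) :
    HasCompactSupport (rhoOf B g) := by
  have cb : HasCompactSupport (pushRoot B.eb g) :=
    hasCompactSupport_pushRoot hgc (by rw [B.ebs]; exact hgO)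
  have cc : HasCompactSupport (pushRoot B.ec g) :=
    hasCompactSupport_pushRoot hgc (by rw [B.ecs]; exact hgO)
  have h0 := hasCompactSupport_sq hgc
  have h1 := hasCompactSupport_sq cb
  have h2 := hasCompactSupport_sq cc
  have h3 := hasCompactSupport_comp_R B h1
  have h4 := hasCompactSupport_comp_R B h2
  unfold rhoOf
  exact (((((h0.add h0).add h1).add h2).add h3).add h4).mul_left

lemma pushRoot_nonneg {e : OpenPartialHomeomorph (Eu d) (Eu d)} (hg0 : ∀ x, 0 ≤ g x) (y : Eu d) :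
    0 ≤ pushRoot e g y := by
  by_cases hy : y ∈ e.target
  · rw [pushRoot_of_mem hy]; exact mul_nonneg (hg0 _) (Real.sqrt_nonneg _)
  · rw [pushRoot_of_not_mem hy]

lemma rhoOf_nonneg (y : Eu d) : 0 ≤ rhoOf B g y := by
  unfold rhoOf; positivity

lemma rootOf_nonneg (hg0 : ∀ x, 0 ≤ g x) (y : Eu d) : 0 ≤ rootOf B g y := by
  unfold rootOf
  have h1 := hg0 y
  have h2 : 0 ≤ pushRoot B.eb g y := pushRoot_nonneg hg0 y
  have h3 : 0 ≤ pushRoot B.ec g y := pushRoot_nonneg hg0 y
  have h4 : 0 ≤ pushRoot B.eb g (B.R y) := pushRoot_nonneg hg0 _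
  have h5 : 0 ≤ pushRoot B.ec g (B.R y) := pushRoot_nonneg hg0 _
  positivity

lemma prod_zero {y p q : Eu d} {a a' : ℝ} (h : a ≠ 0 → y ∈ ball p (1 / 8))
    (h' : a' ≠ 0 → y ∈ ball q (1 / 8)) (far : 1 / 4 ≤ ‖p - q‖) : a * a' = 0 := by
  by_contra hne
  have h1 : a ≠ 0 := left_ne_zero_of_mul hne
  have h2 : a' ≠ 0 := right_ne_zero_of_mul hne
  exact ClusterData.not_mem_of_far (h h1) far (h' h2)

/-- Locations of the supports of the pieces. -/
lemma gb_loc (hgO : tsupport g ⊆ B.O) {y : Eu d} (hy : pushRoot B.eb g y ≠ 0) :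
    y ∈ ball B.e0 (1 / 8) := by
  obtain ⟨q, hq, rfl⟩ := support_pushRoot_subset hy
  have hqO := hgO hq
  rw [mem_ball_iff_norm, ← B.ebb q hqO]
  exact lt_of_lt_of_le (B.hbε q hqO) B.hε8

lemma gc_loc (hgO : tsupport g ⊆ B.O) {y : Eu d} (hy : pushRoot B.ec g y ≠ 0) :
    y ∈ ball (-B.e0) (1 / 8) := by
  obtain ⟨q, hq, rfl⟩ := support_pushRoot_subset hy
  have hqO := hgO hq
  rw [mem_ball_iff_norm, ← B.ecc q hqO, sub_neg_eq_add]
  exact lt_of_lt_of_le (B.hcε q hqO) B.hε8

lemma g0_loc (hgO : tsupport g ⊆ B.O) {y : Eu d} (hy : g y ≠ 0) : y ∈ ball (0 : Eu d) (1 / 8) := by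
  have hyO := hgO (subset_tsupport g hy)
  rw [mem_ball_zero_iff]
  exact lt_of_lt_of_le (B.hSε y hyO) B.hε8

lemma R_loc {y p : Eu d} (h : B.R y ∈ ball p (1 / 8)) : y ∈ ball (B.R p) (1 / 8) := by
  rw [mem_ball_iff_norm] at h ⊢
  have : ‖B.R (B.R y) - B.R p‖ = ‖B.R y - p‖ := by
    rw [← map_sub, B.R.norm_map]
  rw [B.hR] at this
  rwa [this]

/-- Distances between the five centres. -/
lemma far_facts : (1 / 4 ≤ ‖(0 : Eu d) - B.e0‖) ∧ (1 / 4 ≤ ‖(0 : Eu d) - (-B.e0)‖) ∧
    (1 / 4 ≤ ‖(0 : Eu d) - B.e1‖) ∧ (1 / 4 ≤ ‖(0 : Eu d) - (-B.e1)‖) ∧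
    (1 / 4 ≤ ‖B.e0 - (-B.e0)‖) ∧ (1 / 4 ≤ ‖B.e0 - B.e1‖) ∧ (1 / 4 ≤ ‖B.e0 - (-B.e1)‖) ∧
    (1 / 4 ≤ ‖(-B.e0) - B.e1‖) ∧ (1 / 4 ≤ ‖(-B.e0) - (-B.e1)‖) ∧ (1 / 4 ≤ ‖B.e1 - (-B.e1)‖) := by
  let D : ClusterData (Eu d) := B.cluster ∅ (by simp) (by simp)
  have hs2 := ClusterData.sqrt2_ge_quarter
  have h1 : ‖B.e1 - (-B.e1)‖ = 2 := by
    have : B.e1 - (-B.e1) = (2:ℝ) • B.e1 := by rw [two_smul]; abel
    rw [this, norm_smul, B.he1]; simp
  refine ⟨?_, ?_, ?_, ?_, ?_, ?_, ?_, ?_, ?_, ?_⟩
  · simp [B.he0]; norm_num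
  · simp [B.he0]; norm_num
  · simp [B.he1]; norm_num
  · simp [B.he1]; norm_num
  · have := D.d02
    have e : ‖D.e0 - (-D.e0)‖ = ‖B.e0 - (-B.e0)‖ := rfl
    rw [← e, this]; norm_num
  · have := D.cross_pp
    have e : ‖D.e0 - D.e1‖ = ‖B.e0 - B.e1‖ := rfl
    rw [← e, this]; exact hs2
  · have := D.cross_pm
    have e : ‖D.e0 - (-D.e1)‖ = ‖B.e0 - (-B.e1)‖ := rfl
    rw [← e, this]; exact hs2
  · have := D.cross_mp
    have e : ‖-D.e0 - D.e1‖ = ‖-B.e0 - B.e1‖ := rfl
    rw [← e, this]; exact hs2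
  · have := D.cross_mm
    have e : ‖-D.e0 - (-D.e1)‖ = ‖-B.e0 - (-B.e1)‖ := rfl
    rw [← e, this]; exact hs2
  · rw [h1]; norm_num

lemma R_neg' (x : Eu d) : B.R (-x) = - B.R x := map_neg B.R x

/-- The square root identity. -/
theorem sqrt_rhoOf (hg0 : ∀ x, 0 ≤ g x) (hgO : tsupport g ⊆ B.O) (y : Eu d) :
    Real.sqrt (rhoOf B g y) = rootOf B g y := by
  obtain ⟨f1, f2, f3, f4, f5, f6, f7, f8, f9, f10⟩ := far_facts B
  set a := g y with ha
  set b' := pushRoot B.eb g y with hb'
  set c' := pushRoot B.ec g y with hc'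
  set d' := pushRoot B.eb g (B.R y) with hd'
  set e' := pushRoot B.ec g (B.R y) with he'
  have la : a ≠ 0 → y ∈ ball (0 : Eu d) (1 / 8) := fun h => g0_loc B hgO h
  have lb : b' ≠ 0 → y ∈ ball B.e0 (1 / 8) := fun h => gb_loc B hgO h
  have lc : c' ≠ 0 → y ∈ ball (-B.e0) (1 / 8) := fun h => gc_loc B hgO h
  have ld : d' ≠ 0 → y ∈ ball B.e1 (1 / 8) := fun h => by
    have := R_loc B (gb_loc B hgO h)
    rwa [B.hRe] at this
  have le : e' ≠ 0 → y ∈ ball (-B.e1) (1 / 8) := fun h => by
    have := R_loc B (gc_loc B hgO h)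
    rwa [R_neg', B.hRe] at this
  have p1 : a * b' = 0 := prod_zero la lb f1
  have p2 : a * c' = 0 := prod_zero la lc f2
  have p3 : a * d' = 0 := prod_zero la ld f3
  have p4 : a * e' = 0 := prod_zero la le f4
  have p5 : b' * c' = 0 := prod_zero lb lc f5
  have p6 : b' * d' = 0 := prod_zero lb ld f6
  have p7 : b' * e' = 0 := prod_zero lb le f7
  have p8 : c' * d' = 0 := prod_zero lc ld f8
  have p9 : c' * e' = 0 := prod_zero lc le f9
  have p10 : d' * e' = 0 := prod_zero ld le f10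
  have hroot := rootOf_nonneg B (g := g) hg0 y
  have hsq : rhoOf B g y = rootOf B g y ^ 2 := by
    simp only [rhoOf, rootOf, ← ha, ← hb', ← hc', ← hd', ← he']
    have h6 : Real.sqrt (1 / 6) ^ 2 = 1 / 6 := Real.sq_sqrt (by norm_num)
    have h2 : Real.sqrt 2 ^ 2 = 2 := Real.sq_sqrt (by norm_num)
    rw [mul_pow, h6]
    congr 1
    have : (Real.sqrt 2 * a + b' + c' + d' + e') ^ 2 =
        Real.sqrt 2 ^ 2 * a ^ 2 + b' ^ 2 + c' ^ 2 + d' ^ 2 + e' ^ 2 +
        2 * Real.sqrt 2 * (a * b' + a * c' + a * d' + a * e') +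
        2 * (b' * c' + b' * d' + b' * e' + c' * d' + c' * e' + d' * e') := by ring
    rw [this, h2, p1, p2, p3, p4, p5, p6, p7, p8, p9, p10]
    ring
  rw [hsq, Real.sqrt_sq hroot]

/-- Total mass. -/
lemma integral_rhoOf (hmp : MeasurePreserving B.R volume volume) (hg : ContDiff ℝ ∞ g)
    (hgc : HasCompactSupport g) (hgO : tsupport g ⊆ B.O) (hgR : ∀ x, g (B.R x) = g x)
    (hprob : nuOf g Set.univ = 1) : ∫ x, rhoOf B g x = 1 := by
  have hc : Continuous (rhoOf B g) := (contDiff_rhoOf B hg hgc hgO).continuous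
  have hint : Integrable (rhoOf B g) := hc.integrable_of_hasCompactSupport (hasCompactSupport_rhoOf B hgc hgO)
  have h1 := muOf_eq B hmp hg hgc hgO hgR
  have hR : Measurable B.R := B.R.continuous.measurable
  have hd : Measurable (fun x => B.R (B.b (B.R x))) := hR.comp (B.mb.comp hR)
  have he : Measurable (fun x => B.R (B.c (B.R x))) := hR.comp (B.mc.comp hR)
  have h2 : muOf (nuOf g) B.b B.c (fun x => B.R (B.b (B.R x))) (fun x => B.R (B.c (B.R x))) Set.univ = 1 := by
    simp only [muOf, Measure.smul_apply, Measure.add_apply, smul_eq_mul]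
    rw [Measure.map_apply B.mb MeasurableSet.univ, Measure.map_apply B.mc MeasurableSet.univ,
      Measure.map_apply hd MeasurableSet.univ, Measure.map_apply he MeasurableSet.univ]
    simp only [Set.preimage_univ, hprob]
    have : (1 + 1 + 1 + 1 + 1 + 1 : ℝ≥0∞) = 6 := by norm_num
    rw [this]
    exact ENNReal.inv_mul_cancel (by simp) (by simp)
  rw [h1] at h2
  unfold measOfDensity at h2
  rw [withDensity_apply _ MeasurableSet.univ, Measure.restrict_univ] at h2
  have h3 := ofReal_integral_eq_lintegral_ofReal hint (Eventually.of_forall (rhoOf_nonneg B))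
  rw [h2] at h3
  have h4 : (0:ℝ) ≤ ∫ x, rhoOf B g x := integral_nonneg (rhoOf_nonneg B)
  have := (ENNReal.ofReal_eq_one.mp h3)
  exact this

end

end Crest.Agent.Lib.OT3
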