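import Crest.Agent.Lib.OT3.Final1

/-!
Assembly: from base data, a smooth `g`, and the mixing maps, to the final statement.
-/

set_option autoImplicit false

namespace Crest.Agent.Lib.OT3

set_option linter.unusedSectionVars false

open scoped RealInnerProductSpace ContDiff Topology ENNReal
open Crest.AnalysisR.OT Metric Filter MeasureTheory

section gen

variable {E : Type*} [NormedAddCommGroup E] [MeasurableSpace E] [BorelSpace E]
  [SecondCountableTopology E]
variable {ν : Measure E} {S : Set E}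

lemma image_meas {h l : E → E} (hh : Measurable h) (hl : Measurable l) (hlh : ∀ p ∈ S, l (h p) = p)
    {P : Set E} (hPS : P ⊆ S) (hP : MeasurableSet P) : MeasurableSet (h '' P) := by
  have e : h '' P = l ⁻¹' P ∩ {y | h (l y) = y} := by
    ext y
    constructor
    · rintro ⟨p, hp, rfl⟩
      refine ⟨?_, ?_⟩
      · show l (h p) ∈ P
        rw [hlh p (hPS hp)]; exact hp
      · show h (l (h p)) = h p
        rw [hlh p (hPS hp)]
    · rintro ⟨h1, h2⟩
      exact ⟨l y, h1, h2⟩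
  rw [e]
  exact (hl hP).inter (measurableSet_eq_fun (hh.comp hl) measurable_id)

lemma map_apply_le (hS : ν Sᶜ = 0) {m : E → E} (hm : Measurable m) {Q X : Set E}
    (hQ : MeasurableSet Q) (h : ∀ p ∈ S, m p ∈ Q → p ∈ X) : (ν.map m) Q ≤ ν X := by
  rw [Measure.map_apply hm hQ]
  calc ν (m ⁻¹' Q) ≤ ν (Sᶜ ∪ X) := by
        apply measure_mono
        intro p hp
        by_cases hpS : p ∈ S
        · exact Or.inr (h p hpS hp)
        · exact Or.inl hpS
    _ ≤ ν Sᶜ + ν X := measure_union_le _ _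
    _ = ν X := by rw [hS, zero_add]

lemma nu_apply_zero (hS : ν Sᶜ = 0) {Q : Set E} (h : ∀ p ∈ S, p ∉ Q) : ν Q = 0 := by
  apply measure_mono_null _ hS
  intro p hp hpS
  exact h p hpS hp

lemma muOf_le (hS : ν Sᶜ = 0) {b c d e : E → E} (mb : Measurable b) (mc : Measurable c)
    (md : Measurable d) (me : Measurable e) {Q Xb Xc Xd Xe : Set E} (hQ : MeasurableSet Q)
    (h0 : ∀ p ∈ S, p ∉ Q) (hb : ∀ p ∈ S, b p ∈ Q → p ∈ Xb) (hc : ∀ p ∈ S, c p ∈ Q → p ∈ Xc)
    (hd : ∀ p ∈ S, d p ∈ Q → p ∈ Xd) (he : ∀ p ∈ S, e p ∈ Q → p ∈ Xe) :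
    muOf ν b c d e Q ≤ (6 : ℝ≥0∞)⁻¹ * (ν Xb + ν Xc + ν Xd + ν Xe) := by
  simp only [muOf, Measure.smul_apply, Measure.add_apply, smul_eq_mul]
  refine mul_le_mul' le_rfl ?_
  rw [nu_apply_zero hS h0]
  simp only [add_zero, zero_add]
  have h1 := map_apply_le hS mb hQ hb
  have h2 := map_apply_le hS mc hQ hc
  have h3 := map_apply_le hS md hQ hd
  have h4 := map_apply_le hS me hQ he
  exact add_le_add (add_le_add (add_le_add h1 h2) h3) h4

lemma disj_of_far {X Y : Set E} {p q : E} (hX : X ⊆ ball p (1 / 8)) (hY : Y ⊆ ball q (1 / 8))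
    (far : 1 / 4 ≤ ‖p - q‖) : Disjoint X Y := by
  rw [Set.disjoint_left]
  intro x hxX hxY
  have h1 := hX hxX
  have h2 := hY hxY
  rw [mem_ball_iff_norm] at h1 h2
  have h3 : ‖p - q‖ ≤ ‖x - q‖ + ‖x - p‖ := by
    have h := norm_sub_le (x - q) (x - p)
    have e : x - q - (x - p) = p - q := by abel
    rwa [e] at h
  linarith

end gen

section perturb

variable {E : Type*} [NormedAddCommGroup E] [InnerProductSpace ℝ E]

lemma pairCost_perturb {s δ : ℝ} (hs : 0 < s) {x x' y : E} (hδ : ‖x' - x‖ ≤ δ)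
    (h1 : 1 / 2 ≤ ‖x - y‖) (h2 : 1 / 2 ≤ ‖x' - y‖) :
    pairCost s x' y ≤ pairCost s x y + ENNReal.ofReal (s * (2:ℝ) ^ (s + 1) * δ +
      s * (2:ℝ) ^ (s + 1) * δ ^ 2) := by
  have hn1 : x - y ≠ 0 := by
    intro h; rw [h] at h1; simp at h1; linarith
  have hn2 : x' - y ≠ 0 := by
    intro h; rw [h] at h2; simp at h2; linarith
  have hxy : x ≠ y := sub_ne_zero.mp hn1
  have hxy' : x' ≠ y := sub_ne_zero.mp hn2
  have ht := tangent_ineq hs hn2 hn1
  have hδ0 : 0 ≤ δ := le_trans (norm_nonneg _) hδ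
  have e : x - y - (x' - y) = -(x' - x) := by abel
  rw [e, norm_neg] at ht
  have hGn : ‖G s (x' - y)‖ ≤ s * (2:ℝ) ^ (s + 1) := by
    have hp : 0 < ‖x' - y‖ := norm_pos_iff.mpr hn2
    have h3 : ‖G s (x' - y)‖ = s * ‖x' - y‖ ^ (-s - 1) := by
      simp only [G, norm_smul, norm_mul, norm_neg, Real.norm_eq_abs, abs_of_pos hs]
      rw [abs_of_nonneg (Real.rpow_nonneg (norm_nonneg _) _)]
      have : (-s - 1) = (-s - 2) + 1 := by ring
      rw [this, Real.rpow_add hp, Real.rpow_one]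
      ring
    rw [h3]
    apply mul_le_mul_of_nonneg_left _ hs.le
    calc ‖x' - y‖ ^ (-s - 1) ≤ (1 / 2 : ℝ) ^ (-s - 1) :=
          Real.rpow_le_rpow_of_nonpos (by norm_num) h2 (by linarith)
      _ = (2:ℝ) ^ (s + 1) := by
          rw [one_div, Real.inv_rpow (by norm_num), ← Real.rpow_neg (by norm_num)]
          congr 1; ring
  have hin : ⟪G s (x' - y), -(x' - x)⟫ ≥ -(s * (2:ℝ) ^ (s + 1) * δ) := by
    have h3 := abs_real_inner_le_norm (G s (x' - y)) (-(x' - x))
    rw [norm_neg] at h3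
    have h4 : ‖G s (x' - y)‖ * ‖x' - x‖ ≤ s * (2:ℝ) ^ (s + 1) * δ :=
      mul_le_mul hGn hδ (norm_nonneg _) (by positivity)
    have := abs_le.mp (h3.trans h4)
    linarith [this.1]
  have hw : (s / 2) * ‖x' - y‖ ^ (-s - 2) * ‖x' - x‖ ^ 2 ≤ s * (2:ℝ) ^ (s + 1) * δ ^ 2 := by
    have h5 := wt_le hs h2
    have h6 : (2:ℝ) ^ (s + 2) = 2 * (2:ℝ) ^ (s + 1) := by
      have : s + 2 = (s + 1) + 1 := by ring
      rw [this, Real.rpow_add (by norm_num), Real.rpow_one]; ring
    have h7 : ‖x' - x‖ ^ 2 ≤ δ ^ 2 := pow_le_pow_left₀ (norm_nonneg _) hδ 2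
    calc (s / 2) * ‖x' - y‖ ^ (-s - 2) * ‖x' - x‖ ^ 2
        ≤ (s / 2) * (2 * (2:ℝ) ^ (s + 1)) * δ ^ 2 := by
          apply mul_le_mul _ h7 (by positivity) (by positivity)
          apply mul_le_mul_of_nonneg_left _ (by positivity)
          rw [← h6]; exact h5
      _ = _ := by ring
  rw [pairCost_eq_ofReal s hxy', pairCost_eq_ofReal s hxy, ← ENNReal.ofReal_add (by positivity) (by positivity)]
  apply ENNReal.ofReal_le_ofReal
  linarith

lemma tripleCost_perturb {s δ : ℝ} (hs : 0 < s) {x x' y z : E} (hδ : ‖x' - x‖ ≤ δ)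
    (h1 : 1 / 2 ≤ ‖x - y‖) (h2 : 1 / 2 ≤ ‖x' - y‖) (h3 : 1 / 2 ≤ ‖x - z‖) (h4 : 1 / 2 ≤ ‖x' - z‖) :
    tripleCost s (x', y, z) ≤ tripleCost s (x, y, z) +
      ENNReal.ofReal (2 * (s * (2:ℝ) ^ (s + 1) * δ + s * (2:ℝ) ^ (s + 1) * δ ^ 2)) := by
  have p1 := pairCost_perturb hs hδ h1 h2
  have p2 := pairCost_perturb hs hδ h3 h4
  have hδ0 : 0 ≤ δ := le_trans (norm_nonneg _) hδ
  have hK : 0 ≤ s * (2:ℝ) ^ (s + 1) * δ + s * (2:ℝ) ^ (s + 1) * δ ^ 2 := by positivity
  rw [two_mul, ENNReal.ofReal_add hK hK]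
  simp only [tripleCost]
  calc pairCost s x' y + pairCost s x' z + pairCost s y z
      ≤ (pairCost s x y + ENNReal.ofReal _) + (pairCost s x z + ENNReal.ofReal _) + pairCost s y z :=
        add_le_add (add_le_add p1 p2) le_rfl
    _ = _ := by ring

lemma exists_delta {s r : ℝ} (hs : 0 < s) (hr : 0 < r) :
    ∃ δ : ℝ, 0 < δ ∧ 2 * (s * (2:ℝ) ^ (s + 1) * δ + s * (2:ℝ) ^ (s + 1) * δ ^ 2) ≤ r := by
  have hA : 0 < s * (2:ℝ) ^ (s + 1) := mul_pos hs (Real.rpow_pos_of_pos (by norm_num) _)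
  set A := s * (2:ℝ) ^ (s + 1) with hAdef
  refine ⟨min 1 (r / (4 * A)), lt_min (by norm_num) (by positivity), ?_⟩
  set δ := min 1 (r / (4 * A)) with hδ
  have h1 : δ ≤ 1 := min_le_left _ _
  have h2 : δ ≤ r / (4 * A) := min_le_right _ _
  have h0 : 0 < δ := lt_min (by norm_num) (by positivity)
  have h3 : δ ^ 2 ≤ δ := by nlinarith
  have h4 : 4 * A * δ ≤ r := by
    have := mul_le_mul_of_nonneg_left h2 (by positivity : 0 ≤ 4 * A)
    rwa [mul_div_cancel₀ _ (by positivity)] at this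
  have h5 : A * δ ^ 2 ≤ A * δ := mul_le_mul_of_nonneg_left h3 hA.le
  nlinarith

end perturb

section main

variable {d : ℕ} (B : Base (Eu d)) {S : Set (Eu d)} {g : Eu d → ℝ}

theorem main_of_base (hSO : S ⊆ B.O) (hSm : MeasurableSet S) (hRS : ∀ x ∈ S, B.R x ∈ S)
    (hmp : MeasurePreserving B.R volume volume)
    (hg : ContDiff ℝ ∞ g) (hgc : HasCompactSupport g) (hg0 : ∀ x, 0 ≤ g x)
    (hgS : ∀ x, g x ≠ 0 → x ∈ S) (hgO : tsupport g ⊆ B.O) (hgR : ∀ x, g (B.R x) = g x)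
    (hprob : nuOf g Set.univ = 1)
    (hmix : ∀ δ : ℝ, 0 < δ → ∃ (ι₁ ι₂ φ₁ φ₂ : Eu d → Eu d) (A₁ A₂ : Set (Eu d)),
      Measurable ι₁ ∧ Measurable ι₂ ∧ Measurable φ₁ ∧ Measurable φ₂ ∧ MeasurableSet A₁ ∧
      MeasurableSet A₂ ∧ Disjoint A₁ A₂ ∧
      (∀ x ∈ S, ι₁ x ∈ A₁ ∧ ι₁ x ∈ S ∧ φ₁ (ι₁ x) = x ∧ ‖ι₁ x - x‖ ≤ δ) ∧
      (∀ x ∈ S, ι₂ x ∈ A₂ ∧ ι₂ x ∈ S ∧ φ₂ (ι₂ x) = x ∧ ‖ι₂ x - x‖ ≤ δ) ∧
      (nuOf g).map ι₁ + (nuOf g).map ι₂ = nuOf g + nuOf g) :
    (∀ x, 0 ≤ rhoOf B g x) ∧ ContDiff ℝ ∞ (rhoOf B g) ∧ HasCompactSupport (rhoOf B g) ∧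
      ContDiff ℝ ∞ (fun x => Real.sqrt (rhoOf B g x)) ∧ ∫ x, rhoOf B g x = 1 ∧
      ∃ π₀ : Measure (Eu d × Eu d × Eu d),
        IsCoupling₃ (measOfDensity (rhoOf B g)) π₀ ∧ ∫⁻ p, tripleCost B.s p ∂π₀ < ⊤ ∧
        (∀ π : Measure (Eu d × Eu d × Eu d), IsCoupling₃ (measOfDensity (rhoOf B g)) π →
          ∫⁻ p, tripleCost B.s p ∂π₀ ≤ ∫⁻ p, tripleCost B.s p ∂π) ∧
        (∀ T₂ T₃ : Eu d → Eu d, Measurable T₂ → Measurable T₃ →
          (measOfDensity (rhoOf B g)).map T₂ = measOfDensity (rhoOf B g) →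
          (measOfDensity (rhoOf B g)).map T₃ = measOfDensity (rhoOf B g) →
          ∫⁻ p, tripleCost B.s p ∂π₀ <
            ∫⁻ x, tripleCost B.s (x, T₂ x, T₃ x) ∂(measOfDensity (rhoOf B g))) ∧
        (∀ ε : ℝ≥0∞, 0 < ε → ∃ T₂ T₃ : Eu d → Eu d, Measurable T₂ ∧ Measurable T₃ ∧
          (measOfDensity (rhoOf B g)).map T₂ = measOfDensity (rhoOf B g) ∧
          (measOfDensity (rhoOf B g)).map T₃ = measOfDensity (rhoOf B g) ∧
          ∫⁻ x, tripleCost B.s (x, T₂ x, T₃ x) ∂(measOfDensity (rhoOf B g)) <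
            ∫⁻ p, tripleCost B.s p ∂π₀ + ε) := by
  set ν := nuOf g with hν
  have : IsProbabilityMeasure ν := ⟨hprob⟩
  let D : ClusterData (Eu d) := B.cluster S hSO hRS
  have hs := B.hs
  have hR : Measurable B.R := B.R.continuous.measurable
  set b := B.b with hb
  set c := B.c with hc
  set dd : Eu d → Eu d := fun x => B.R (B.b (B.R x)) with hdd
  set ee : Eu d → Eu d := fun x => B.R (B.c (B.R x)) with hee
  have mb : Measurable b := B.mb
  have mc : Measurable c := B.mc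
  have md : Measurable dd := hR.comp (B.mb.comp hR)
  have me : Measurable ee := hR.comp (B.mc.comp hR)
  have hμ : muOf ν b c dd ee = measOfDensity (rhoOf B g) := muOf_eq B hmp hg hgc hgO hgR
  rw [← hμ]
  have hSnull : ν Sᶜ = 0 := by
    rw [hν, nuOf, withDensity_apply _ hSm.compl]
    have : ∀ x ∈ Sᶜ, ENNReal.ofReal (g x ^ 2) = 0 := by
      intro x hx
      have : g x = 0 := by
        by_contra h
        exact hx (hgS x h)
      simp [this]
    rw [setLIntegral_congr_fun hSm.compl this]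
    simp
  -- measurable left inverses
  let ld : Eu d → Eu d := fun x => B.R (B.binv (B.R x))
  let le' : Eu d → Eu d := fun x => B.R (B.cinv (B.R x))
  have mld : Measurable ld := hR.comp (B.mbinv.comp hR)
  have mle : Measurable le' := hR.comp (B.mcinv.comp hR)
  have hlb : ∀ p ∈ S, B.binv (b p) = p := fun p hp => B.hbinv p (hSO hp)
  have hlc : ∀ p ∈ S, B.cinv (c p) = p := fun p hp => B.hcinv p (hSO hp)
  have hld : ∀ p ∈ S, ld (dd p) = p := fun p hp => by
    show B.R (B.binv (B.R (B.R (B.b (B.R p))))) = p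
    rw [B.hR, B.hbinv _ (hSO (hRS p hp)), B.hR]
  have hle : ∀ p ∈ S, le' (ee p) = p := fun p hp => by
    show B.R (B.cinv (B.R (B.R (B.c (B.R p))))) = p
    rw [B.hR, B.hcinv _ (hSO (hRS p hp)), B.hR]
  -- `K`
  have hKeq : D.K = S ∪ b '' S ∪ c '' S ∪ dd '' S ∪ ee '' S := rfl
  have hKm : MeasurableSet D.K := by
    rw [hKeq]
    exact ((((hSm.union (image_meas mb B.mbinv hlb subset_rfl hSm)).union
      (image_meas mc B.mcinv hlc subset_rfl hSm)).union
      (image_meas md mld hld subset_rfl hSm)).union (image_meas me mle hle subset_rfl hSm))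
  have hSK : ∀ p ∈ S, p ∈ D.K := fun p hp => Or.inl (Or.inl (Or.inl (Or.inl hp)))
  have hbK : ∀ p ∈ S, b p ∈ D.K := fun p hp => Or.inl (Or.inl (Or.inl (Or.inr ⟨p, hp, rfl⟩)))
  have hcK : ∀ p ∈ S, c p ∈ D.K := fun p hp => Or.inl (Or.inl (Or.inr ⟨p, hp, rfl⟩))
  have hdK : ∀ p ∈ S, dd p ∈ D.K := fun p hp => Or.inl (Or.inr ⟨p, hp, rfl⟩)
  have heK : ∀ p ∈ S, ee p ∈ D.K := fun p hp => Or.inr ⟨p, hp, rfl⟩
  have hμK : muOf ν b c dd ee D.Kᶜ = 0 := by
    have h := muOf_le (ν := ν) (S := S) hSnull mb mc md me (Q := D.Kᶜ) (Xb := ∅) (Xc := ∅) (Xd := ∅)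
      (Xe := ∅) hKm.compl (fun p hp h => h (hSK p hp)) (fun p hp h => h (hbK p hp))
      (fun p hp h => h (hcK p hp)) (fun p hp h => h (hdK p hp)) (fun p hp h => h (heK p hp))
    simpa using h
  have hu : Measurable D.u := D.measurable_u B.muC
  have hkant : ∀ x ∈ D.K, ∀ y ∈ D.K, ∀ z ∈ D.K, D.u x + D.u y + D.u z ≤ tripleCost B.s (x, y, z) :=
    fun x hx y hy z hz => D.kant hx hy hz
  -- total mass of `μ` is one
  have hμuniv : muOf ν b c dd ee Set.univ = 1 := by
    simp only [muOf, Measure.smul_apply, Measure.add_apply, smul_eq_mul]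
    rw [Measure.map_apply mb MeasurableSet.univ, Measure.map_apply mc MeasurableSet.univ,
      Measure.map_apply md MeasurableSet.univ, Measure.map_apply me MeasurableSet.univ]
    simp only [Set.preimage_univ, measure_univ]
    have : (1 + 1 + 1 + 1 + 1 + 1 : ℝ≥0∞) = 6 := by norm_num
    rw [this]
    exact ENNReal.inv_mul_cancel (by simp) (by simp)
  have hfin : ∫⁻ x, D.u x ∂(muOf ν b c dd ee) ≠ ⊤ := by
    have hae : ∀ᵐ x ∂(muOf ν b c dd ee), x ∈ D.K := by rw [ae_iff]; exact hμK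
    have : ∫⁻ x, D.u x ∂(muOf ν b c dd ee) ≤ ∫⁻ _, ENNReal.ofReal (D.U + D.τ) ∂(muOf ν b c dd ee) :=
      lintegral_mono_ae (by filter_upwards [hae] with x hx using D.val_K hx)
    refine ne_top_of_le_ne_top ?_ this
    rw [lintegral_const, hμuniv]
    simp
  set V := 3 * ∫⁻ x, D.u x ∂(muOf ν b c dd ee) with hV
  have hVfin : V ≠ ⊤ := ENNReal.mul_ne_top (by simp) hfin
  have hcoup : IsCoupling₃ (muOf ν b c dd ee) (piOf ν b c dd ee) := isCoupling_piOf mb mc md me
  have hct1 : ∀ p ∈ S, tripleCost B.s (p, b p, c p) ≤ D.u p + D.u (b p) + D.u (c p) :=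
    fun p hp => D.contact_graph1 hp
  have hct2 : ∀ p ∈ S, tripleCost B.s (p, dd p, ee p) ≤ D.u p + D.u (dd p) + D.u (ee p) :=
    fun p hp => D.contact_graph2 hp
  have hcost : ∫⁻ p, tripleCost B.s p ∂(piOf ν b c dd ee) = V := by
    apply le_antisymm
    · exact cost_piOf_le hSnull mb mc md me hu hct1 hct2
    · exact weak_duality hcoup hu hKm hμK hkant
  -- location of clusters
  obtain ⟨f1, f2, f3, f4, f5, f6, f7, f8, f9, f10⟩ := far_facts B
  have lS : ∀ p ∈ S, p ∈ ball (0 : Eu d) (1 / 8) := fun p hp => D.S_ball hp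
  have lb : ∀ p ∈ S, b p ∈ ball B.e0 (1 / 8) := fun p hp => D.b_ball hp
  have lc : ∀ p ∈ S, c p ∈ ball (-B.e0) (1 / 8) := fun p hp => D.c_ball hp
  have ld' : ∀ p ∈ S, dd p ∈ ball B.e1 (1 / 8) := fun p hp => D.ball_of_ε (D.near_d hp)
  have le'' : ∀ p ∈ S, ee p ∈ ball (-B.e1) (1 / 8) := fun p hp => D.ball_of_ε (D.near_e hp)
  have nf : ∀ {x : Eu d} {p q : Eu d}, x ∈ ball p (1 / 8) → 1 / 4 ≤ ‖p - q‖ → x ∉ ball q (1 / 8) :=
    fun hx hf => ClusterData.not_mem_of_far hx hf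
  have nf' : ∀ {x : Eu d} {p q : Eu d}, x ∈ ball p (1 / 8) → 1 / 4 ≤ ‖q - p‖ → x ∉ ball q (1 / 8) :=
    fun hx hf => ClusterData.not_mem_of_far hx (by rwa [norm_sub_rev])
  refine ⟨rhoOf_nonneg B, contDiff_rhoOf B hg hgc hgO, hasCompactSupport_rhoOf B hgc hgO, ?_,
    integral_rhoOf B hmp hg hgc hgO hgR hprob, piOf ν b c dd ee, hcoup, ?_, ?_, ?_, ?_⟩
  · have : (fun x => Real.sqrt (rhoOf B g x)) = rootOf B g := by
      funext x; exact sqrt_rhoOf B hg0 hgO x
    rw [this]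
    exact contDiff_rootOf B hg hgc hgO
  · rw [hcost]; exact lt_top_iff_ne_top.mpr hVfin
  · intro π hπ
    rw [hcost]
    exact weak_duality hπ hu hKm hμK hkant
  · intro T₂ T₃ mT₂ mT₃ h₂ h₃
    rw [hcost]
    refine monge_strict hSnull hSm hu hKm hμK hkant hfin mb mc md me ?_ ?_ ?_ ?_ ?_ mT₂ mT₃ h₂ h₃
    · intro p hp y hy z hz hle
      exact (D.main_A hp hy hz).2 hle
    · intro P hPS hP
      refine ⟨b '' P, image_meas mb B.mbinv hlb hPS hP, subset_rfl, ?_⟩
      have hQ := image_meas mb B.mbinv hlb hPS hP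
      have h := muOf_le (ν := ν) (S := S) hSnull mb mc md me (Q := b '' P) (Xb := P) (Xc := ∅)
        (Xd := ∅) (Xe := ∅) hQ
        (by
          rintro p hp ⟨q, hq, h⟩
          exact nf (lb q (hPS hq)) (by rw [norm_sub_rev]; exact f1) (h ▸ lS p hp))
        (by
          rintro p hp ⟨q, hq, h⟩
          have := congrArg B.binv h
          rw [hlb q (hPS hq), hlb p hp] at this
          rwa [← this])
        (by
          rintro p hp ⟨q, hq, h⟩
          exact absurd (lc p hp) (by rw [← h]; exact nf (lb q (hPS hq)) f5))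
        (by
          rintro p hp ⟨q, hq, h⟩
          exact absurd (ld' p hp) (by rw [← h]; exact nf (lb q (hPS hq)) f6))
        (by
          rintro p hp ⟨q, hq, h⟩
          exact absurd (le'' p hp) (by rw [← h]; exact nf (lb q (hPS hq)) f7))
      simpa using h
    · intro P hPS hP
      refine ⟨c '' P, image_meas mc B.mcinv hlc hPS hP, subset_rfl, ?_⟩
      have hQ := image_meas mc B.mcinv hlc hPS hP
      have h := muOf_le (ν := ν) (S := S) hSnull mb mc md me (Q := c '' P) (Xb := ∅) (Xc := P)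
        (Xd := ∅) (Xe := ∅) hQ
        (by
          rintro p hp ⟨q, hq, h⟩
          exact nf (lc q (hPS hq)) (by rw [norm_sub_rev]; exact f2) (h ▸ lS p hp))
        (by
          rintro p hp ⟨q, hq, h⟩
          exact absurd (lb p hp) (by rw [← h]; exact nf' (lc q (hPS hq)) f5))
        (by
          rintro p hp ⟨q, hq, h⟩
          have := congrArg B.cinv h
          rw [hlc q (hPS hq), hlc p hp] at this
          rwa [← this])
        (by
          rintro p hp ⟨q, hq, h⟩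
          exact absurd (ld' p hp) (by rw [← h]; exact nf (lc q (hPS hq)) f8))
        (by
          rintro p hp ⟨q, hq, h⟩
          exact absurd (le'' p hp) (by rw [← h]; exact nf (lc q (hPS hq)) f9))
      simpa using h
    · intro P hPS hP
      refine ⟨dd '' P, image_meas md mld hld hPS hP, subset_rfl, ?_⟩
      have hQ := image_meas md mld hld hPS hP
      have h := muOf_le (ν := ν) (S := S) hSnull mb mc md me (Q := dd '' P) (Xb := ∅) (Xc := ∅)
        (Xd := P) (Xe := ∅) hQ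
        (by
          rintro p hp ⟨q, hq, h⟩
          exact nf (ld' q (hPS hq)) (by rw [norm_sub_rev]; exact f3) (h ▸ lS p hp))
        (by
          rintro p hp ⟨q, hq, h⟩
          exact absurd (lb p hp) (by rw [← h]; exact nf' (ld' q (hPS hq)) f6))
        (by
          rintro p hp ⟨q, hq, h⟩
          exact absurd (lc p hp) (by rw [← h]; exact nf' (ld' q (hPS hq)) f8))
        (by
          rintro p hp ⟨q, hq, h⟩
          have := congrArg ld h
          rw [hld q (hPS hq), hld p hp] at this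
          rwa [← this])
        (by
          rintro p hp ⟨q, hq, h⟩
          exact absurd (le'' p hp) (by rw [← h]; exact nf (ld' q (hPS hq)) f10))
      simpa using h
    · intro P hPS hP
      refine ⟨ee '' P, image_meas me mle hle hPS hP, subset_rfl, ?_⟩
      have hQ := image_meas me mle hle hPS hP
      have h := muOf_le (ν := ν) (S := S) hSnull mb mc md me (Q := ee '' P) (Xb := ∅) (Xc := ∅)
        (Xd := ∅) (Xe := P) hQ
        (by
          rintro p hp ⟨q, hq, h⟩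
          exact nf (le'' q (hPS hq)) (by rw [norm_sub_rev]; exact f4) (h ▸ lS p hp))
        (by
          rintro p hp ⟨q, hq, h⟩
          exact absurd (lb p hp) (by rw [← h]; exact nf' (le'' q (hPS hq)) f7))
        (by
          rintro p hp ⟨q, hq, h⟩
          exact absurd (lc p hp) (by rw [← h]; exact nf' (le'' q (hPS hq)) f9))
        (by
          rintro p hp ⟨q, hq, h⟩
          exact absurd (ld' p hp) (by rw [← h]; exact nf' (le'' q (hPS hq)) f10))
        (by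
          rintro p hp ⟨q, hq, h⟩
          have := congrArg le' h
          rw [hle q (hPS hq), hle p hp] at this
          rwa [← this])
      simpa using h
  · -- approximants
    intro ε hε
    obtain ⟨r, hr0, hrε⟩ := ENNReal.lt_iff_exists_nnreal_btwn.mp hε
    have hr0' : (0:ℝ) < r := by exact_mod_cast hr0
    obtain ⟨δ, hδ, hδr⟩ := exists_delta (s := B.s) hs hr0'
    obtain ⟨ι₁, ι₂, φ₁, φ₂, A₁, A₂, mι₁, mι₂, mφ₁, mφ₂, mA₁, mA₂, hA, h1, h2, hm⟩ := hmix δ hδ
    set K' : ℝ := 2 * (B.s * (2:ℝ) ^ (B.s + 1) * δ + B.s * (2:ℝ) ^ (B.s + 1) * δ ^ 2) with hK'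
    -- the sets
    let Rs : Fin 6 → Set (Eu d) := ![A₁ ∩ ball 0 (1 / 8), ball B.e0 (1 / 8), ball (-B.e0) (1 / 8),
      A₂ ∩ ball 0 (1 / 8), ball B.e1 (1 / 8), ball (-B.e1) (1 / 8)]
    have hRs : ∀ i, MeasurableSet (Rs i) := by
      intro i
      fin_cases i
      · exact mA₁.inter measurableSet_ball
      · exact measurableSet_ball
      · exact measurableSet_ball
      · exact mA₂.inter measurableSet_ball
      · exact measurableSet_ball
      · exact measurableSet_ball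
    let cen : Fin 6 → Eu d := ![0, B.e0, -B.e0, 0, B.e1, -B.e1]
    have hsub : ∀ i, Rs i ⊆ ball (cen i) (1 / 8) := by
      intro i
      fin_cases i
      · exact Set.inter_subset_right
      · exact subset_rfl
      · exact subset_rfl
      · exact Set.inter_subset_right
      · exact subset_rfl
      · exact subset_rfl
    have hdisj : Pairwise (Function.onFun Disjoint Rs) := by
      intro i j hij
      have key : (i = 0 ∧ j = 3) ∨ (i = 3 ∧ j = 0) ∨ 1 / 4 ≤ ‖cen i - cen j‖ := by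
        have g1 := f1; have g2 := f2; have g3 := f3; have g4 := f4; have g5 := f5
        have g6 := f6; have g7 := f7; have g8 := f8; have g9 := f9; have g10 := f10
        fin_cases i <;> fin_cases j <;> first
          | exact absurd rfl hij
          | exact Or.inl ⟨rfl, rfl⟩
          | exact Or.inr (Or.inl ⟨rfl, rfl⟩)
          | exact Or.inr (Or.inr g1) | exact Or.inr (Or.inr g2) | exact Or.inr (Or.inr g3)
          | exact Or.inr (Or.inr g4) | exact Or.inr (Or.inr g5) | exact Or.inr (Or.inr g6)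
          | exact Or.inr (Or.inr g7) | exact Or.inr (Or.inr g8) | exact Or.inr (Or.inr g9)
          | exact Or.inr (Or.inr g10)
          | exact Or.inr (Or.inr (by rw [norm_sub_rev]; exact g1))
          | exact Or.inr (Or.inr (by rw [norm_sub_rev]; exact g2))
          | exact Or.inr (Or.inr (by rw [norm_sub_rev]; exact g3))
          | exact Or.inr (Or.inr (by rw [norm_sub_rev]; exact g4))
          | exact Or.inr (Or.inr (by rw [norm_sub_rev]; exact g5))
          | exact Or.inr (Or.inr (by rw [norm_sub_rev]; exact g6))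
          | exact Or.inr (Or.inr (by rw [norm_sub_rev]; exact g7))
          | exact Or.inr (Or.inr (by rw [norm_sub_rev]; exact g8))
          | exact Or.inr (Or.inr (by rw [norm_sub_rev]; exact g9))
          | exact Or.inr (Or.inr (by rw [norm_sub_rev]; exact g10))
      rcases key with ⟨rfl, rfl⟩ | ⟨rfl, rfl⟩ | hfar
      · exact hA.mono Set.inter_subset_left Set.inter_subset_left
      · exact hA.symm.mono Set.inter_subset_left Set.inter_subset_left
      · exact disj_of_far (hsub i) (hsub j) hfar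
    let l : Fin 6 → Eu d → Eu d := ![φ₁, B.binv, B.cinv, φ₂, ld, le']
    have hl : ∀ i, Measurable (l i) := by
      intro i
      fin_cases i
      · exact mφ₁
      · exact B.mbinv
      · exact B.mcinv
      · exact mφ₂
      · exact mld
      · exact mle
    have hf : ∀ i, ∀ p ∈ S, (![ι₁, b, c, ι₂, dd, ee] : Fin 6 → Eu d → Eu d) i p ∈ Rs i ∧
        l i ((![ι₁, b, c, ι₂, dd, ee] : Fin 6 → Eu d → Eu d) i p) = p := by
      intro i p hp
      fin_cases i
      · obtain ⟨a1, a2, a3, _⟩ := h1 p hp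
        exact ⟨⟨a1, lS _ a2⟩, a3⟩
      · exact ⟨lb p hp, hlb p hp⟩
      · exact ⟨lc p hp, hlc p hp⟩
      · obtain ⟨a1, a2, a3, _⟩ := h2 p hp
        exact ⟨⟨a1, lS _ a2⟩, a3⟩
      · exact ⟨ld' p hp, hld p hp⟩
      · exact ⟨le'' p hp, hle p hp⟩
    -- perturbation bounds
    have far1 : ∀ {x y p : Eu d}, x ∈ S → ‖p‖ = 1 → ‖y - p‖ < B.ε → 1 / 2 ≤ ‖x - y‖ := by
      intro x y p hx hp hy
      have hx0 := D.hSε x hx
      have h8 := D.hε8
      have h3 : ‖p‖ ≤ ‖x - y‖ + ‖x‖ + ‖y - p‖ := ClusterData.triangle3 p x y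
      have hy' : ‖y - p‖ < D.ε := hy
      rw [hp] at h3
      linarith
    have hp1 : ∀ p ∈ S, tripleCost B.s (ι₁ p, b p, c p) ≤ tripleCost B.s (p, b p, c p) +
        ENNReal.ofReal K' := by
      intro p hp
      obtain ⟨_, a2, _, a4⟩ := h1 p hp
      exact tripleCost_perturb hs a4 (far1 hp B.he0 (D.near_b hp)) (far1 a2 B.he0 (D.near_b hp))
        (far1 hp D.me0_norm (D.near_c hp)) (far1 a2 D.me0_norm (D.near_c hp))
    have hp2 : ∀ p ∈ S, tripleCost B.s (ι₂ p, dd p, ee p) ≤ tripleCost B.s (p, dd p, ee p) +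
        ENNReal.ofReal K' := by
      intro p hp
      obtain ⟨_, a2, _, a4⟩ := h2 p hp
      exact tripleCost_perturb hs a4 (far1 hp B.he1 (D.near_d hp)) (far1 a2 B.he1 (D.near_d hp))
        (far1 hp D.me1_norm (D.near_e hp)) (far1 a2 D.me1_norm (D.near_e hp))
    obtain ⟨T₂, T₃, mT₂, mT₃, hT₂, hT₃, hcostT⟩ := monge_approx hSnull mb mc md me mι₁ mι₂ hm Rs hRs
      hdisj l hl hf (ENNReal.ofReal K') hp1 hp2
    refine ⟨T₂, T₃, mT₂, mT₃, hT₂, hT₃, lt_of_le_of_lt hcostT ?_⟩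
    rw [hcost]
    have hrle : ENNReal.ofReal K' ≤ (r : ℝ≥0∞) := by
      rw [← ENNReal.ofReal_coe_nnreal]
      exact ENNReal.ofReal_le_ofReal hδr
    exact ENNReal.add_lt_add_left hVfin (lt_of_le_of_lt hrle hrε)

end main

end Crest.Agent.Lib.OT3
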