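import Mathlib

/-!
One-dimensional mixing maps (module M-MIX for S0175).

For a continuous `γ`, positive on `(-a, a)` and zero outside, with `m = γ² dt`, there are measurable
maps `θ₁ θ₂`, with measurable left inverses `φ₁ φ₂`, having values in disjoint measurable sets,
`δ`-close to the identity on `(-a, a)`, with `m.map θ₁ + m.map θ₂ = 2 • m`.

We use the normalised c.d.f. `Fb`, its monotone inverse `H` and the explicit piecewise affine maps
`u ↦ u/2 + (⌊N u⌋ + j) / (2 N)` of the unit interval.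
-/

set_option autoImplicit false
set_option linter.unusedSectionVars false
set_option linter.deprecated false

open MeasureTheory Set Filter
open scoped ENNReal Topology

namespace Crest.Agent.Lib.OT3.Mix

/-! ### The piecewise affine maps on the unit interval -/

/-- The contraction `u ↦ u/2 + (⌊N u⌋ + j) / (2 N)`. -/
noncomputable def psi (N : ℕ) (j : ℤ) (u : ℝ) : ℝ :=
  u / 2 + ((⌊(N : ℝ) * u⌋ + j : ℤ) : ℝ) / (2 * N)

/-- Left inverse of `psi`. -/
noncomputable def chi (N : ℕ) (j : ℤ) (v : ℝ) : ℝ :=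
  2 * v - ((⌊(N : ℝ) * v⌋ + j : ℤ) : ℝ) / N

theorem measurable_psi (N : ℕ) (j : ℤ) : Measurable (psi N j) := by
  unfold psi
  have : Measurable (fun u : ℝ => ((⌊(N : ℝ) * u⌋ + j : ℤ) : ℝ)) :=
    measurable_from_top.comp (((measurable_const.mul measurable_id).floor).add_const j)
  exact (measurable_id.div_const 2).add (this.div_const _)

theorem measurable_chi (N : ℕ) (j : ℤ) : Measurable (chi N j) := by
  unfold chi
  have : Measurable (fun u : ℝ => ((⌊(N : ℝ) * u⌋ + j : ℤ) : ℝ)) :=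
    measurable_from_top.comp (((measurable_const.mul measurable_id).floor).add_const j)
  exact (measurable_id.const_mul 2).sub (this.div_const _)

section cell
variable {N : ℕ} (hN : 0 < N) {j : ℤ} (hj : j = 0 ∨ j = 1) {u : ℝ}
include hN

/-- `N * psi u = ⌊N u⌋ + (frac + j)/2`. -/
theorem mul_psi (j : ℤ) (u : ℝ) : (N : ℝ) * psi N j u =
    (⌊(N : ℝ) * u⌋ : ℝ) + (((N : ℝ) * u - ⌊(N : ℝ) * u⌋) + j) / 2 := by
  have hN' : (N : ℝ) ≠ 0 := by positivity
  unfold psi
  push_cast
  field_simp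
  ring

include hj

theorem floor_mul_psi (u : ℝ) : ⌊(N : ℝ) * psi N j u⌋ = ⌊(N : ℝ) * u⌋ := by
  rw [mul_psi hN, Int.floor_eq_iff]
  have h1 := Int.floor_le ((N : ℝ) * u)
  have h2 := Int.lt_floor_add_one ((N : ℝ) * u)
  rcases hj with rfl | rfl
  · constructor <;> push_cast <;> linarith
  · constructor <;> push_cast <;> linarith

theorem chi_psi (u : ℝ) : chi N j (psi N j u) = u := by
  have hN' : (N : ℝ) ≠ 0 := by positivity
  unfold chi
  rw [floor_mul_psi hN hj]
  unfold psi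
  push_cast
  field_simp
  ring

theorem floor_two_mul_psi (u : ℝ) :
    ⌊2 * ((N : ℝ) * psi N j u)⌋ = 2 * ⌊(N : ℝ) * u⌋ + j := by
  rw [mul_psi hN, Int.floor_eq_iff]
  have h1 := Int.floor_le ((N : ℝ) * u)
  have h2 := Int.lt_floor_add_one ((N : ℝ) * u)
  rcases hj with rfl | rfl
  · constructor <;> push_cast <;> linarith
  · constructor <;> push_cast <;> linarith

theorem abs_psi_sub_le (u : ℝ) : |psi N j u - u| ≤ 1 / (2 * N) := by
  have hN' : (0 : ℝ) < N := by positivity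
  have h1 := Int.floor_le ((N : ℝ) * u)
  have h2 := Int.lt_floor_add_one ((N : ℝ) * u)
  have key : psi N j u - u = (((⌊(N : ℝ) * u⌋ : ℝ) + j) - (N : ℝ) * u) / (2 * N) := by
    unfold psi
    push_cast
    field_simp
    ring
  rw [key, abs_div, abs_of_pos (by positivity : (0 : ℝ) < 2 * N)]
  refine div_le_div_of_nonneg_right ?_ (by positivity)
  rw [abs_le]
  rcases hj with rfl | rfl
  · constructor <;> push_cast <;> linarith
  · constructor <;> push_cast <;> linarith

theorem psi_mem_Ioo (hu : u ∈ Ioo (0 : ℝ) 1) : psi N j u ∈ Ioo (0 : ℝ) 1 := by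
  have hN' : (0 : ℝ) < N := by positivity
  have hk0 : 0 ≤ ⌊(N : ℝ) * u⌋ := Int.floor_nonneg.2 (by have := hu.1; positivity)
  have hk1 : ⌊(N : ℝ) * u⌋ < N := by
    rw [Int.floor_lt]
    have := hu.2
    push_cast
    nlinarith
  have hk1' : ((⌊(N : ℝ) * u⌋ : ℤ) : ℝ) + 1 ≤ N := by exact_mod_cast hk1
  have hk0' : (0 : ℝ) ≤ (⌊(N : ℝ) * u⌋ : ℤ) := by exact_mod_cast hk0
  have hm := mul_psi hN j u
  have h1 := Int.floor_le ((N : ℝ) * u)
  have h2 := Int.lt_floor_add_one ((N : ℝ) * u)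
  have hNu : 0 < (N : ℝ) * u := mul_pos hN' hu.1
  have hpos : 0 < (N : ℝ) * psi N j u := by
    rw [hm]
    rcases hj with rfl | rfl
    · push_cast; nlinarith
    · push_cast; nlinarith
  have hlt : (N : ℝ) * psi N j u < N := by
    rw [hm]
    rcases hj with rfl | rfl
    · push_cast; nlinarith
    · push_cast; nlinarith
  constructor
  · by_contra hc
    rw [not_lt] at hc
    nlinarith
  · by_contra hc
    rw [not_lt] at hc
    nlinarith

end cell

/-- Affine preimages scale Lebesgue measure by two. -/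
theorem volume_preimage_half_add (c : ℝ) (X : Set ℝ) :
    volume ((fun u : ℝ => u / 2 + c) ⁻¹' X) = 2 * volume X := by
  have h1 : (fun u : ℝ => u / 2 + c) ⁻¹' X = (fun u : ℝ => u * (1 / 2)) ⁻¹' ((fun w => w + c) ⁻¹' X) := by
    ext u
    simp [div_eq_mul_inv]
  rw [h1, Real.volume_preimage_mul_right (by norm_num : (1 / 2 : ℝ) ≠ 0), measure_preimage_add_right]
  congr 1
  norm_num [ENNReal.ofReal_ofNat]

/-- The basic mixing identity on the whole line. -/
theorem volume_psi_add {N : ℕ} (hN : 0 < N) {X : Set ℝ} (hX : MeasurableSet X) :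
    volume (psi N 0 ⁻¹' X) + volume (psi N 1 ⁻¹' X) = 2 * volume X := by
  have hN' : (0 : ℝ) < N := by positivity
  -- the cells
  let C : ℤ → Set ℝ := fun k => {u | ⌊(N : ℝ) * u⌋ = k}
  let D : ℤ → ℤ → Set ℝ := fun k j => {v | ⌊2 * ((N : ℝ) * v)⌋ = 2 * k + j}
  have hCm : ∀ k, MeasurableSet (C k) := fun k =>
    (measurable_const.mul measurable_id).floor (measurableSet_singleton k)
  have hDm : ∀ k j, MeasurableSet (D k j) := fun k j =>
    (measurable_const.mul (measurable_const.mul measurable_id)).floor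
      (measurableSet_singleton (2 * k + j))
  have hCd : Pairwise (Function.onFun Disjoint C) := by
    intro k l hkl
    refine Set.disjoint_left.2 fun u hu hu' => hkl ?_
    exact hu.symm.trans hu'
  have hCu : (⋃ k, C k) = univ := by
    ext u
    simp only [mem_iUnion, mem_univ, iff_true]
    exact ⟨_, rfl⟩
  -- sum over the cells
  have hsplit : ∀ Y : Set ℝ, MeasurableSet Y → volume Y = ∑' k, volume (Y ∩ C k) := by
    intro Y hY
    conv_lhs => rw [← inter_univ Y, ← hCu, inter_iUnion]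
    refine measure_iUnion ?_ (fun k => hY.inter (hCm k))
    intro k l hkl
    exact (hCd hkl).mono inter_subset_right inter_subset_right
  -- a single cell
  have hcell : ∀ (k j : ℤ), (j = 0 ∨ j = 1) →
      volume (psi N j ⁻¹' X ∩ C k) = 2 * volume (X ∩ D k j) := by
    intro k j hj
    have hset : psi N j ⁻¹' X ∩ C k =
        (fun u : ℝ => u / 2 + ((k + j : ℤ) : ℝ) / (2 * N)) ⁻¹' (X ∩ D k j) := by
      ext u
      constructor
      · rintro ⟨hu, hk⟩
        have hk' : ⌊(N : ℝ) * u⌋ = k := hk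
        have hf : psi N j u = u / 2 + ((k + j : ℤ) : ℝ) / (2 * N) := by
          unfold psi; rw [hk']
        refine ⟨?_, ?_⟩
        · change u / 2 + ((k + j : ℤ) : ℝ) / (2 * N) ∈ X
          rw [← hf]; exact hu
        · change ⌊2 * ((N : ℝ) * (u / 2 + ((k + j : ℤ) : ℝ) / (2 * N)))⌋ = 2 * k + j
          rw [← hf, floor_two_mul_psi hN hj, hk']
      · rintro ⟨hu, hd⟩
        have hd' : ⌊2 * ((N : ℝ) * (u / 2 + ((k + j : ℤ) : ℝ) / (2 * N)))⌋ = 2 * k + j := hd
        have e1 : 2 * ((N : ℝ) * (u / 2 + ((k + j : ℤ) : ℝ) / (2 * N))) =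
            (N : ℝ) * u + ((k + j : ℤ) : ℝ) := by
          field_simp
        rw [e1, Int.floor_add_intCast] at hd'
        have hk' : ⌊(N : ℝ) * u⌋ = k := by omega
        refine ⟨?_, hk'⟩
        change psi N j u ∈ X
        have hf : psi N j u = u / 2 + ((k + j : ℤ) : ℝ) / (2 * N) := by
          unfold psi; rw [hk']
        rw [hf]; exact hu
    rw [hset, volume_preimage_half_add]
  have hDC : ∀ k, volume (X ∩ D k 0) + volume (X ∩ D k 1) = volume (X ∩ C k) := by
    intro k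
    rw [← measure_union]
    · congr 1
      ext v
      simp only [mem_union, mem_inter_iff, D, C, mem_setOf_eq]
      rw [← and_or_left]
      refine and_congr_right fun _ => ?_
      have h1 := Int.floor_le ((N : ℝ) * v)
      have h2 := Int.lt_floor_add_one ((N : ℝ) * v)
      constructor
      · rintro (h | h)
        · rw [Int.floor_eq_iff] at h ⊢
          push_cast at h ⊢
          constructor <;> linarith [h.1, h.2]
        · rw [Int.floor_eq_iff] at h ⊢
          push_cast at h ⊢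
          constructor <;> linarith [h.1, h.2]
      · intro h
        rw [h] at h1 h2
        by_cases hv : (N : ℝ) * v < k + 1 / 2
        · left
          rw [Int.floor_eq_iff]
          push_cast
          constructor <;> linarith
        · right
          rw [Int.floor_eq_iff]
          push_cast
          constructor <;> linarith
    · refine Set.disjoint_left.2 fun v hv hv' => ?_
      have h0 : ⌊2 * ((N : ℝ) * v)⌋ = 2 * k + 0 := hv.2
      have h1 : ⌊2 * ((N : ℝ) * v)⌋ = 2 * k + 1 := hv'.2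
      omega
    · exact hX.inter (hDm k 1)
  rw [hsplit _ (measurable_psi N 0 hX), hsplit _ (measurable_psi N 1 hX), hsplit X hX,
    ← ENNReal.tsum_add, ← ENNReal.tsum_mul_left]
  refine tsum_congr fun k => ?_
  rw [hcell k 0 (Or.inl rfl), hcell k 1 (Or.inr rfl), ← mul_add, hDC]

/-- `psi` preserves `[0, 1)` exactly. -/
theorem preimage_psi_Ico {N : ℕ} (hN : 0 < N) {j : ℤ} (hj : j = 0 ∨ j = 1) :
    psi N j ⁻¹' Ico (0 : ℝ) 1 = Ico (0 : ℝ) 1 := by
  have hN' : (0 : ℝ) < N := by positivity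
  have hIco : ∀ w : ℝ, w ∈ Ico (0 : ℝ) 1 ↔ 0 ≤ ⌊(N : ℝ) * w⌋ ∧ ⌊(N : ℝ) * w⌋ < N := by
    intro w
    rw [Int.floor_nonneg, Int.floor_lt, mem_Ico]
    push_cast
    constructor
    · rintro ⟨h0, h1⟩
      exact ⟨by positivity, by nlinarith⟩
    · rintro ⟨h0, h1⟩
      exact ⟨nonneg_of_mul_nonneg_right h0 hN', by nlinarith⟩
  ext u
  rw [mem_preimage, hIco, hIco, floor_mul_psi hN hj]

/-- The mixing identity on the unit interval. -/
theorem map_psi_add_restrict {N : ℕ} (hN : 0 < N) :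
    (volume.restrict (Ioo (0 : ℝ) 1)).map (psi N 0) +
        (volume.restrict (Ioo (0 : ℝ) 1)).map (psi N 1) =
      (2 : ℝ≥0∞) • volume.restrict (Ioo (0 : ℝ) 1) := by
  have hr : (volume : Measure ℝ).restrict (Ioo (0 : ℝ) 1) = volume.restrict (Ico (0 : ℝ) 1) :=
    Measure.restrict_congr_set Ioo_ae_eq_Ico
  rw [hr]
  ext B hB
  have h1 : ∀ j : ℤ, (j = 0 ∨ j = 1) → ((volume.restrict (Ico (0 : ℝ) 1)).map (psi N j)) B =
      volume (psi N j ⁻¹' (B ∩ Ico (0 : ℝ) 1)) := by
    intro j hj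
    rw [Measure.map_apply (measurable_psi N j) hB, Measure.restrict_apply (measurable_psi N j hB),
      preimage_inter, preimage_psi_Ico hN hj]
  rw [Measure.add_apply, h1 0 (Or.inl rfl), h1 1 (Or.inr rfl),
    volume_psi_add hN (hB.inter measurableSet_Ico), Measure.smul_apply,
    Measure.restrict_apply hB, smul_eq_mul]

/-! ### The main construction -/

section main

variable (γ : ℝ → ℝ) (a : ℝ)

/-- Total mass. -/
noncomputable def M0 : ℝ := ∫ s in (-a)..a, γ s ^ 2

/-- Normalised cumulative distribution function. -/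
noncomputable def Fb (t : ℝ) : ℝ := (∫ s in (-a)..t, γ s ^ 2) / M0 γ a

/-- Monotone inverse of `Fb`. -/
noncomputable def H (v : ℝ) : ℝ := sInf (insert a {t ∈ Icc (-a) a | v ≤ Fb γ a t})

variable {γ a}

theorem Fb_neg : Fb γ a (-a) = 0 := by simp [Fb]

variable (hγ : Continuous γ) (ha : 0 < a) (hpos : ∀ t, |t| < a → 0 < γ t)
  (hzero : ∀ t, a ≤ |t| → γ t = 0)

include hγ ha hpos

theorem M0_pos : 0 < M0 γ a := by
  have hc : Continuous fun s => γ s ^ 2 := hγ.pow 2
  refine intervalIntegral.intervalIntegral_pos_of_pos_on (hc.intervalIntegrable _ _) ?_ (by linarith)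
  intro x hx
  have : |x| < a := abs_lt.2 hx
  exact pow_pos (hpos x this) 2

theorem hasDerivAt_Fb (t : ℝ) : HasDerivAt (Fb γ a) (γ t ^ 2 / M0 γ a) t := by
  have hc : Continuous fun s => γ s ^ 2 := hγ.pow 2
  exact ((hc.integral_hasStrictDerivAt (-a) t).hasDerivAt).div_const _

theorem continuous_Fb : Continuous (Fb γ a) :=
  continuous_iff_continuousAt.2 fun t => (hasDerivAt_Fb hγ ha hpos t).continuousAt

theorem Fb_pos : Fb γ a a = 1 := by
  have := (M0_pos hγ ha hpos).ne'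
  simp [Fb]
  exact div_self this

theorem strictMonoOn_Fb : StrictMonoOn (Fb γ a) (Icc (-a) a) := by
  intro s hs t ht hst
  have hc : Continuous fun s => γ s ^ 2 := hγ.pow 2
  have hM := M0_pos hγ ha hpos
  have h1 : ∫ x in (-a)..t, γ x ^ 2 = (∫ x in (-a)..s, γ x ^ 2) + ∫ x in s..t, γ x ^ 2 :=
    (intervalIntegral.integral_add_adjacent_intervals (hc.intervalIntegrable _ _)
      (hc.intervalIntegrable _ _)).symm
  have h2 : 0 < ∫ x in s..t, γ x ^ 2 := by
    refine intervalIntegral.intervalIntegral_pos_of_pos_on (hc.intervalIntegrable _ _) ?_ hst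
    intro x hx
    have : |x| < a := abs_lt.2 ⟨lt_of_le_of_lt hs.1 hx.1, lt_of_lt_of_le hx.2 ht.2⟩
    exact pow_pos (hpos x this) 2
  unfold Fb
  rw [h1]
  exact (div_lt_div_iff_of_pos_right hM).2 (by linarith)

theorem H_Fb {t : ℝ} (ht : t ∈ Icc (-a) a) : H γ a (Fb γ a t) = t := by
  have hs := strictMonoOn_Fb hγ ha hpos
  have : insert a {s ∈ Icc (-a) a | Fb γ a t ≤ Fb γ a s} = Icc t a := by
    ext s
    simp only [mem_insert_iff, mem_setOf_eq, mem_Icc]
    constructor
    · rintro (rfl | ⟨h1, h2⟩)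
      · exact ⟨ht.2, le_rfl⟩
      · exact ⟨(hs.le_iff_le ht h1).1 h2, h1.2⟩
    · rintro ⟨h1, h2⟩
      right
      have hs' : s ∈ Icc (-a) a := ⟨ht.1.trans h1, h2⟩
      exact ⟨hs', (hs.le_iff_le ht hs').2 h1⟩
  unfold H
  rw [this, csInf_Icc ht.2]

theorem H_mem (v : ℝ) : H γ a v ∈ Icc (-a) a := by
  have hne : (insert a {t ∈ Icc (-a) a | v ≤ Fb γ a t}).Nonempty := ⟨a, mem_insert _ _⟩
  have hbdd : BddBelow (insert a {t ∈ Icc (-a) a | v ≤ Fb γ a t}) := by
    refine ⟨-a, ?_⟩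
    rintro s (rfl | hs)
    · linarith
    · exact hs.1.1
  constructor
  · refine le_csInf hne ?_
    rintro s (rfl | hs)
    · linarith
    · exact hs.1.1
  · exact csInf_le hbdd (mem_insert _ _)

theorem H_mono : Monotone (H γ a) := by
  intro v v' hv
  unfold H
  refine csInf_le_csInf ?_ ⟨a, mem_insert _ _⟩ ?_
  · refine ⟨-a, ?_⟩
    rintro s (rfl | hs)
    · linarith
    · exact hs.1.1
  · rintro s (rfl | hs)
    · exact mem_insert _ _
    · exact mem_insert_of_mem _ ⟨hs.1, hv.trans hs.2⟩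

theorem Fb_H {v : ℝ} (hv : v ∈ Icc (0 : ℝ) 1) : Fb γ a (H γ a v) = v := by
  have hIVT := intermediate_value_Icc (by linarith : -a ≤ a)
    (continuous_Fb hγ ha hpos).continuousOn
  rw [Fb_neg, Fb_pos hγ ha hpos] at hIVT
  obtain ⟨t, ht, rfl⟩ := hIVT hv
  rw [H_Fb hγ ha hpos ht]

theorem Fb_mem_Ioo {t : ℝ} (ht : |t| < a) : Fb γ a t ∈ Ioo (0 : ℝ) 1 := by
  have hs := strictMonoOn_Fb hγ ha hpos
  have h' := abs_lt.1 ht
  have ht' : t ∈ Icc (-a) a := ⟨h'.1.le, h'.2.le⟩
  constructor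
  · have := hs ⟨le_rfl, by linarith⟩ ht' h'.1
    rwa [Fb_neg] at this
  · have := hs ht' ⟨by linarith, le_rfl⟩ h'.2
    rwa [Fb_pos hγ ha hpos] at this

theorem abs_H_lt {v : ℝ} (hv : v ∈ Ioo (0 : ℝ) 1) : |H γ a v| < a := by
  have hm := H_mem hγ ha hpos v
  have hF := Fb_H hγ ha hpos (Ioo_subset_Icc_self hv)
  rw [abs_lt]
  constructor
  · refine lt_of_le_of_ne hm.1 fun h => ?_
    rw [← h, Fb_neg] at hF
    exact hv.1.ne hF
  · refine lt_of_le_of_ne hm.2 fun h => ?_
    rw [h, Fb_pos hγ ha hpos] at hF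
    exact hv.2.ne' hF

/-- Uniform modulus for the inverse. -/
theorem exists_modulus {δ : ℝ} (hδ : 0 < δ) : ∃ η > 0, ∀ u v : ℝ, u ∈ Ioo (0 : ℝ) 1 →
    v ∈ Ioo (0 : ℝ) 1 → |u - v| < η → |H γ a u - H γ a v| ≤ δ := by
  classical
  let K : Set (ℝ × ℝ) := (Icc (-a) a ×ˢ Icc (-a) a) ∩ {p | δ ≤ |p.1 - p.2|}
  have hKc : IsCompact K := by
    refine (isCompact_Icc.prod isCompact_Icc).inter_right ?_
    exact isClosed_le continuous_const ((continuous_fst.sub continuous_snd).abs)
  have hcF := continuous_Fb hγ ha hpos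
  by_cases hne : K.Nonempty
  · obtain ⟨p, hp, hmin⟩ := hKc.exists_isMinOn hne
      (f := fun p : ℝ × ℝ => |Fb γ a p.1 - Fb γ a p.2|)
      ((hcF.comp continuous_fst).sub (hcF.comp continuous_snd)).abs.continuousOn
    have hs := strictMonoOn_Fb hγ ha hpos
    have hη : 0 < |Fb γ a p.1 - Fb γ a p.2| := by
      rw [abs_pos, sub_ne_zero]
      intro h
      have := hs.injOn hp.1.1 hp.1.2 h
      have h2 : δ ≤ |p.1 - p.2| := hp.2
      rw [this, sub_self, abs_zero] at h2
      linarith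
    refine ⟨_, hη, fun u v hu hv huv => ?_⟩
    by_contra hc
    rw [not_le] at hc
    have hq : (H γ a u, H γ a v) ∈ K :=
      ⟨⟨H_mem hγ ha hpos u, H_mem hγ ha hpos v⟩, hc.le⟩
    have h3 := hmin hq
    simp only [mem_setOf_eq] at h3
    rw [Fb_H hγ ha hpos (Ioo_subset_Icc_self hu), Fb_H hγ ha hpos (Ioo_subset_Icc_self hv)] at h3
    linarith
  · refine ⟨1, one_pos, fun u v _ _ _ => ?_⟩
    by_contra hc
    rw [not_le] at hc
    exact hne ⟨(H γ a u, H γ a v),
      ⟨H_mem hγ ha hpos u, H_mem hγ ha hpos v⟩, hc.le⟩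

include hzero

/-- The c.d.f. transports `γ² dt` to Lebesgue measure on the unit interval. -/
theorem map_Fb :
    ((volume : Measure ℝ).withDensity fun t => ENNReal.ofReal (γ t ^ 2)).map (Fb γ a) =
      ENNReal.ofReal (M0 γ a) • volume.restrict (Ioo (0 : ℝ) 1) := by
  have hM := M0_pos hγ ha hpos
  have hc := continuous_Fb hγ ha hpos
  ext B hB
  have hρm : Measurable fun t => ENNReal.ofReal (γ t ^ 2) :=
    ((hγ.pow 2).measurable).ennreal_ofReal
  rw [Measure.map_apply hc.measurable hB, withDensity_apply _ (hc.measurable hB),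
    Measure.smul_apply, Measure.restrict_apply hB, smul_eq_mul]
  let s : Set ℝ := Fb γ a ⁻¹' B ∩ Ioo (-a) a
  have hsm : MeasurableSet s := (hc.measurable hB).inter measurableSet_Ioo
  have h1 : ∫⁻ t in Fb γ a ⁻¹' B, ENNReal.ofReal (γ t ^ 2) =
      ∫⁻ t in s, ENNReal.ofReal (γ t ^ 2) := by
    rw [← lintegral_indicator (hc.measurable hB), ← lintegral_indicator hsm]
    refine lintegral_congr fun t => ?_
    by_cases ht : t ∈ Ioo (-a) a
    · by_cases htB : t ∈ Fb γ a ⁻¹' B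
      · rw [indicator_of_mem htB, indicator_of_mem (show t ∈ s from ⟨htB, ht⟩)]
      · rw [indicator_of_notMem htB, indicator_of_notMem (fun h : t ∈ s => htB h.1)]
    · have h0 : γ t = 0 := by
        apply hzero
        by_contra hc'
        rw [not_le] at hc'
        exact ht (abs_lt.1 hc')
      rw [indicator_of_notMem (fun h : t ∈ s => ht h.2)]
      by_cases htB : t ∈ Fb γ a ⁻¹' B
      · rw [indicator_of_mem htB, h0]; simp
      · rw [indicator_of_notMem htB]
  have himg : Fb γ a '' s = B ∩ Ioo (0 : ℝ) 1 := by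
    ext v
    constructor
    · rintro ⟨t, ⟨htB, ht⟩, rfl⟩
      exact ⟨htB, Fb_mem_Ioo hγ ha hpos (abs_lt.2 ht)⟩
    · rintro ⟨hvB, hv⟩
      have h' := abs_lt.1 (abs_H_lt hγ ha hpos hv)
      refine ⟨H γ a v, ⟨?_, h'⟩, Fb_H hγ ha hpos (Ioo_subset_Icc_self hv)⟩
      change Fb γ a (H γ a v) ∈ B
      rw [Fb_H hγ ha hpos (Ioo_subset_Icc_self hv)]
      exact hvB
  have hinj : InjOn (Fb γ a) s := by
    refine (strictMonoOn_Fb hγ ha hpos).injOn.mono ?_
    rintro t ⟨_, ht⟩
    exact ⟨ht.1.le, ht.2.le⟩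
  have h2 := lintegral_image_eq_lintegral_abs_deriv_mul hsm
    (fun t _ => (hasDerivAt_Fb hγ ha hpos t).hasDerivWithinAt) hinj (fun _ => (1 : ℝ≥0∞))
  rw [himg] at h2
  simp only [lintegral_const, Measure.restrict_apply MeasurableSet.univ, univ_inter, one_mul,
    mul_one] at h2
  rw [h1, h2, ← lintegral_const_mul' _ _ ENNReal.ofReal_ne_top]
  refine lintegral_congr fun t => ?_
  rw [← ENNReal.ofReal_mul hM.le, abs_of_nonneg (by positivity)]
  congr 1
  field_simp

/-- The main theorem of the module. -/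
theorem exists_mix {δ : ℝ} (hδ : 0 < δ) :
    ∃ (θ₁ θ₂ φ₁ φ₂ : ℝ → ℝ) (A₁ A₂ : Set ℝ),
      Measurable θ₁ ∧ Measurable θ₂ ∧ Measurable φ₁ ∧ Measurable φ₂ ∧
      MeasurableSet A₁ ∧ MeasurableSet A₂ ∧ Disjoint A₁ A₂ ∧
      (∀ t, |t| < a → θ₁ t ∈ A₁ ∧ |θ₁ t| < a ∧ φ₁ (θ₁ t) = t ∧ |θ₁ t - t| ≤ δ) ∧
      (∀ t, |t| < a → θ₂ t ∈ A₂ ∧ |θ₂ t| < a ∧ φ₂ (θ₂ t) = t ∧ |θ₂ t - t| ≤ δ) ∧
      ((volume : Measure ℝ).withDensity fun t => ENNReal.ofReal (γ t ^ 2)).map θ₁ +
        ((volume : Measure ℝ).withDensity fun t => ENNReal.ofReal (γ t ^ 2)).map θ₂ =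
        (2 : ℝ≥0∞) • (volume : Measure ℝ).withDensity fun t => ENNReal.ofReal (γ t ^ 2) := by
  classical
  obtain ⟨η, hη, hmod⟩ := exists_modulus hγ ha hpos hδ
  obtain ⟨N, hN⟩ := exists_nat_gt (1 / η)
  have hN0 : 0 < N := by
    have : (0 : ℝ) < N := lt_trans (by positivity) hN
    exact_mod_cast this
  have hN' : (0 : ℝ) < N := by exact_mod_cast hN0
  have hFc := continuous_Fb hγ ha hpos
  have hHm : Measurable (H γ a) := (H_mono hγ ha hpos).measurable
  have hclose : (1 : ℝ) / (2 * N) < η := by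
    have h1 : 1 / (N : ℝ) < η := by
      rw [div_lt_iff₀ hN'] 
      rw [div_lt_iff₀ hη] at hN
      linarith
    have h2 : (1 : ℝ) / (2 * N) ≤ 1 / N := by
      apply one_div_le_one_div_of_le hN'
      linarith
    linarith
  -- the maps
  let θ : ℤ → ℝ → ℝ := fun j t => H γ a (psi N j (Fb γ a t))
  let φ : ℤ → ℝ → ℝ := fun j t => H γ a (chi N j (Fb γ a t))
  let A : ℤ → Set ℝ := fun j => {t | |t| < a ∧ ∃ k : ℤ, ⌊2 * ((N : ℝ) * Fb γ a t)⌋ = 2 * k + j}
  have hθm : ∀ j, Measurable (θ j) := fun j =>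
    hHm.comp ((measurable_psi N j).comp hFc.measurable)
  have hφm : ∀ j, Measurable (φ j) := fun j =>
    hHm.comp ((measurable_chi N j).comp hFc.measurable)
  have hAm : ∀ j, MeasurableSet (A j) := by
    intro j
    have h1 : MeasurableSet {t : ℝ | |t| < a} :=
      measurableSet_lt (measurable_id.abs) measurable_const
    have h2 : MeasurableSet {t : ℝ | ∃ k : ℤ, ⌊2 * ((N : ℝ) * Fb γ a t)⌋ = 2 * k + j} := by
      have : {t : ℝ | ∃ k : ℤ, ⌊2 * ((N : ℝ) * Fb γ a t)⌋ = 2 * k + j} =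
          ⋃ k : ℤ, (fun t => ⌊2 * ((N : ℝ) * Fb γ a t)⌋) ⁻¹' {2 * k + j} := by
        ext t
        simp
      rw [this]
      refine MeasurableSet.iUnion fun k => ?_
      exact ((measurable_const.mul (measurable_const.mul hFc.measurable)).floor)
        (measurableSet_singleton _)
    exact h1.inter h2
  have hdisj : Disjoint (A 0) (A 1) := by
    refine Set.disjoint_left.2 ?_
    rintro t ⟨_, k, hk⟩ ⟨_, l, hl⟩
    omega
  have hprops : ∀ j : ℤ, (j = 0 ∨ j = 1) → ∀ t, |t| < a →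
      θ j t ∈ A j ∧ |θ j t| < a ∧ φ j (θ j t) = t ∧ |θ j t - t| ≤ δ := by
    intro j hj t ht
    have hu := Fb_mem_Ioo hγ ha hpos ht
    have hv := psi_mem_Ioo hN0 hj hu
    have hFθ : Fb γ a (θ j t) = psi N j (Fb γ a t) :=
      Fb_H hγ ha hpos (Ioo_subset_Icc_self hv)
    have ht' := abs_lt.1 ht
    have htI : t ∈ Icc (-a) a := ⟨ht'.1.le, ht'.2.le⟩
    have habs : |θ j t| < a := abs_H_lt hγ ha hpos hv
    refine ⟨⟨habs, ⌊(N : ℝ) * Fb γ a t⌋, ?_⟩, habs, ?_, ?_⟩
    · rw [hFθ, floor_two_mul_psi hN0 hj]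
    · change H γ a (chi N j (Fb γ a (θ j t))) = t
      rw [hFθ, chi_psi hN0 hj, H_Fb hγ ha hpos htI]
    · have h1 : |psi N j (Fb γ a t) - Fb γ a t| < η :=
        lt_of_le_of_lt (abs_psi_sub_le hN0 hj _) hclose
      have h2 := hmod _ _ hv hu h1
      rwa [H_Fb hγ ha hpos htI] at h2
  refine ⟨θ 0, θ 1, φ 0, φ 1, A 0, A 1, hθm 0, hθm 1, hφm 0, hφm 1, hAm 0, hAm 1, hdisj,
    hprops 0 (Or.inl rfl), hprops 1 (Or.inr rfl), ?_⟩
  -- the measure identity
  set m : Measure ℝ := (volume : Measure ℝ).withDensity fun t => ENNReal.ofReal (γ t ^ 2) with hm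
  have hmap : ∀ j : ℤ, m.map (θ j) =
      ENNReal.ofReal (M0 γ a) • ((volume.restrict (Ioo (0 : ℝ) 1)).map (psi N j)).map (H γ a) := by
    intro j
    have h1 : θ j = H γ a ∘ (psi N j ∘ Fb γ a) := rfl
    rw [h1, ← Measure.map_map hHm ((measurable_psi N j).comp hFc.measurable),
      ← Measure.map_map (measurable_psi N j) hFc.measurable, hm, map_Fb hγ ha hpos hzero,
      Measure.map_smul, Measure.map_smul]
  have hid : m.map (H γ a ∘ Fb γ a) = m := by
    have hρm : Measurable fun t => ENNReal.ofReal (γ t ^ 2) :=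
      ((hγ.pow 2).measurable).ennreal_ofReal
    have hae : (H γ a ∘ Fb γ a) =ᵐ[m] id := by
      rw [hm]
      refine (ae_withDensity_iff hρm).2 (Eventually.of_forall fun t ht => ?_)
      have hta : |t| < a := by
        by_contra hc
        rw [not_lt] at hc
        apply ht
        rw [hzero t hc]
        simp
      have ht' := abs_lt.1 hta
      exact H_Fb hγ ha hpos ⟨ht'.1.le, ht'.2.le⟩
    rw [Measure.map_congr hae, Measure.map_id]
  rw [hmap 0, hmap 1, ← smul_add, ← Measure.map_add _ _ hHm, map_psi_add_restrict hN0,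
    Measure.map_smul, smul_comm, ← Measure.map_smul, ← map_Fb hγ ha hpos hzero,
    Measure.map_map hHm hFc.measurable, ← hm, hid]

end main

end Crest.Agent.Lib.OT3.Mix
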