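import Crest.Agent.Lib.OT3.Push
import Crest.Agent.Lib.OT3.Mix1D

/-!
Lifting the one-dimensional mixing maps to `EuclideanSpace ℝ (Fin (n+2))`: only coordinate `0`
changes; the product structure of the density gives the measure identity.
-/

set_option autoImplicit false

open MeasureTheory
open scoped ENNReal

namespace Crest.Agent.Lib.OT3

variable {n : ℕ}

/-- Splitting off coordinate `0`. -/
noncomputable def splitE (n : ℕ) : Eu (n+2) ≃ᵐ ℝ × (Fin (n+1) → ℝ) :=
  (MeasurableEquiv.toLp 2 (Fin (n+2) → ℝ)).symm.trans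
    (MeasurableEquiv.piFinSuccAbove (fun _ : Fin (n+2) => ℝ) 0)

lemma splitE_mp : MeasurePreserving (splitE n) (volume : Measure (Eu (n+2)))
    ((volume : Measure ℝ).prod (volume : Measure (Fin (n+1) → ℝ))) := by
  have h1 := PiLp.volume_preserving_ofLp (Fin (n+2))
  have h2 := volume_preserving_piFinSuccAbove (fun _ : Fin (n+2) => ℝ) 0
  exact h1.trans h2

lemma splitE_apply_fst (x : Eu (n+2)) : (splitE n x).1 = x 0 := rfl

lemma splitE_apply_snd (x : Eu (n+2)) (j : Fin (n+1)) : (splitE n x).2 j = x j.succ := rfl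

lemma splitE_symm_zero (t : ℝ) (w : Fin (n+1) → ℝ) : (splitE n).symm (t, w) 0 = t := by
  have h := congrArg Prod.fst ((splitE n).apply_symm_apply (t, w))
  rw [splitE_apply_fst] at h
  exact h

lemma splitE_symm_succ (t : ℝ) (w : Fin (n+1) → ℝ) (j : Fin (n+1)) :
    (splitE n).symm (t, w) j.succ = w j := by
  have h := congrArg (fun z => z.2 j) ((splitE n).apply_symm_apply (t, w))
  simp only [splitE_apply_snd] at h
  exact h

lemma map_withDensity_equiv {α β : Type*} [MeasurableSpace α] [MeasurableSpace β] (Φ : α ≃ᵐ β)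
    {μ : Measure α} {ν : Measure β} (hΦ : MeasurePreserving Φ μ ν) {h : α → ℝ≥0∞} (hh : Measurable h) :
    (μ.withDensity h).map Φ = ν.withDensity (fun y => h (Φ.symm y)) := by
  ext W hW
  rw [Measure.map_apply Φ.measurable hW, withDensity_apply _ (Φ.measurable hW),
    withDensity_apply _ hW]
  have h1 := hΦ.setLIntegral_comp_preimage (s := W) (f := fun y => h (Φ.symm y)) hW
    (hh.comp Φ.symm.measurable)
  simp only [MeasurableEquiv.symm_apply_apply] at h1
  exact h1

/-- The map changing only coordinate `0`. -/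
noncomputable def liftMap (θ : ℝ → ℝ) (x : Eu (n+2)) : Eu (n+2) :=
  (splitE n).symm (θ (splitE n x).1, (splitE n x).2)

lemma measurable_liftMap {θ : ℝ → ℝ} (hθ : Measurable θ) : Measurable (liftMap (n := n) θ) := by
  unfold liftMap
  exact (splitE n).symm.measurable.comp
    ((hθ.comp (measurable_fst.comp (splitE n).measurable)).prodMk
      (measurable_snd.comp (splitE n).measurable))

lemma liftMap_zero (θ : ℝ → ℝ) (x : Eu (n+2)) : liftMap θ x 0 = θ (x 0) := by
  unfold liftMap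
  rw [splitE_symm_zero, splitE_apply_fst]

lemma liftMap_succ (θ : ℝ → ℝ) (x : Eu (n+2)) (j : Fin (n+1)) : liftMap θ x j.succ = x j.succ := by
  unfold liftMap
  rw [splitE_symm_succ, splitE_apply_snd]

lemma liftMap_comp (θ φ : ℝ → ℝ) (x : Eu (n+2)) {t : ℝ} (h : φ (θ t) = t) (hx : x 0 = t) :
    liftMap φ (liftMap θ x) = x := by
  ext i
  refine Fin.cases ?_ (fun j => ?_) i
  · rw [liftMap_zero, liftMap_zero, hx, h]
  · rw [liftMap_succ, liftMap_succ]

lemma norm_liftMap_sub (θ : ℝ → ℝ) (x : Eu (n+2)) : ‖liftMap θ x - x‖ = |θ (x 0) - x 0| := by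
  rw [EuclideanSpace.norm_eq, Fin.sum_univ_succ]
  have h1 : ∀ j : Fin (n+1), ‖(liftMap θ x - x) j.succ‖ ^ 2 = 0 := by
    intro j
    simp [liftMap_succ]
  simp only [h1, Finset.sum_const_zero, add_zero]
  have h2 : (liftMap θ x - x) 0 = θ (x 0) - x 0 := by
    simp [liftMap_zero]
  rw [h2, Real.norm_eq_abs, Real.sqrt_sq (abs_nonneg _)]

/-- The lifted mixing maps. -/
theorem exists_lift {γ : ℝ → ℝ} {a δ : ℝ} (hγ : Continuous γ) (ha : 0 < a)
    (hpos : ∀ t, |t| < a → 0 < γ t) (hzero : ∀ t, a ≤ |t| → γ t = 0) (N : ℝ) (hδ : 0 < δ) :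
    ∃ (ι₁ ι₂ φ₁ φ₂ : Eu (n+2) → Eu (n+2)) (A₁ A₂ : Set (Eu (n+2))),
      Measurable ι₁ ∧ Measurable ι₂ ∧ Measurable φ₁ ∧ Measurable φ₂ ∧ MeasurableSet A₁ ∧
      MeasurableSet A₂ ∧ Disjoint A₁ A₂ ∧
      (∀ x ∈ {x : Eu (n+2) | ∀ i, |x i| < a}, ι₁ x ∈ A₁ ∧ ι₁ x ∈ {x : Eu (n+2) | ∀ i, |x i| < a} ∧
        φ₁ (ι₁ x) = x ∧ ‖ι₁ x - x‖ ≤ δ) ∧
      (∀ x ∈ {x : Eu (n+2) | ∀ i, |x i| < a}, ι₂ x ∈ A₂ ∧ ι₂ x ∈ {x : Eu (n+2) | ∀ i, |x i| < a} ∧
        φ₂ (ι₂ x) = x ∧ ‖ι₂ x - x‖ ≤ δ) ∧
      ((volume : Measure (Eu (n+2))).withDensity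
          (fun x => ENNReal.ofReal ((N * ∏ i, γ (x i)) ^ 2))).map ι₁ +
      ((volume : Measure (Eu (n+2))).withDensity
          (fun x => ENNReal.ofReal ((N * ∏ i, γ (x i)) ^ 2))).map ι₂ =
      ((volume : Measure (Eu (n+2))).withDensity (fun x => ENNReal.ofReal ((N * ∏ i, γ (x i)) ^ 2))) +
      ((volume : Measure (Eu (n+2))).withDensity (fun x => ENNReal.ofReal ((N * ∏ i, γ (x i)) ^ 2))) := by
  obtain ⟨θ₁, θ₂, φ₁, φ₂, A₁, A₂, mθ₁, mθ₂, mφ₁, mφ₂, mA₁, mA₂, hA, h1, h2, hm⟩ :=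
    Mix.exists_mix hγ ha hpos hzero hδ
  -- sets
  have m0 : Measurable (fun x : Eu (n+2) => x 0) := measurable_fst.comp (splitE n).measurable
  refine ⟨liftMap θ₁, liftMap θ₂, liftMap φ₁, liftMap φ₂, {x | x 0 ∈ A₁}, {x | x 0 ∈ A₂},
    measurable_liftMap mθ₁, measurable_liftMap mθ₂, measurable_liftMap mφ₁, measurable_liftMap mφ₂,
    m0 mA₁, m0 mA₂, ?_, ?_, ?_, ?_⟩
  · rw [Set.disjoint_left]
    intro x h3 h4
    exact Set.disjoint_left.mp hA h3 h4
  · intro x hx
    obtain ⟨a1, a2, a3, a4⟩ := h1 (x 0) (hx 0)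
    refine ⟨?_, ?_, liftMap_comp θ₁ φ₁ x a3 rfl, ?_⟩
    · show liftMap θ₁ x 0 ∈ A₁
      rw [liftMap_zero]; exact a1
    · intro i
      refine Fin.cases ?_ (fun j => ?_) i
      · rw [liftMap_zero]; exact a2
      · rw [liftMap_succ]; exact hx _
    · rw [norm_liftMap_sub]; exact a4
  · intro x hx
    obtain ⟨a1, a2, a3, a4⟩ := h2 (x 0) (hx 0)
    refine ⟨?_, ?_, liftMap_comp θ₂ φ₂ x a3 rfl, ?_⟩
    · show liftMap θ₂ x 0 ∈ A₂
      rw [liftMap_zero]; exact a1
    · intro i
      refine Fin.cases ?_ (fun j => ?_) i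
      · rw [liftMap_zero]; exact a2
      · rw [liftMap_succ]; exact hx _
    · rw [norm_liftMap_sub]; exact a4
  -- the measure identity
  set m : Measure ℝ := (volume : Measure ℝ).withDensity (fun t => ENNReal.ofReal (γ t ^ 2)) with hmdef
  set m' : Measure (Fin (n+1) → ℝ) := (volume : Measure (Fin (n+1) → ℝ)).withDensity
    (fun w => ENNReal.ofReal ((N * ∏ j, γ (w j)) ^ 2)) with hm'def
  set ν : Measure (Eu (n+2)) := (volume : Measure (Eu (n+2))).withDensity
    (fun x => ENNReal.ofReal ((N * ∏ i, γ (x i)) ^ 2)) with hν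
  have mf : Measurable (fun t => ENNReal.ofReal (γ t ^ 2)) :=
    ((hγ.pow 2).measurable).ennreal_ofReal
  have mg : Measurable (fun w : Fin (n+1) → ℝ => ENNReal.ofReal ((N * ∏ j, γ (w j)) ^ 2)) := by
    apply Measurable.ennreal_ofReal
    apply Measurable.pow_const
    apply Measurable.const_mul
    apply Finset.measurable_prod
    intro j _
    exact hγ.measurable.comp (measurable_pi_apply j)
  have mh : Measurable (fun x : Eu (n+2) => ENNReal.ofReal ((N * ∏ i, γ (x i)) ^ 2)) := by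
    apply Measurable.ennreal_ofReal
    apply Measurable.pow_const
    apply Measurable.const_mul
    apply Finset.measurable_prod
    intro j _
    have : Continuous (fun x : Eu (n+2) => x j) := (EuclideanSpace.proj j : Eu (n+2) →L[ℝ] ℝ).continuous
    exact hγ.measurable.comp this.measurable
  -- the law under the splitting
  have hsplit : ν.map (splitE n) = m.prod m' := by
    rw [hν, map_withDensity_equiv (splitE n) splitE_mp mh, hmdef, hm'def, prod_withDensity mf mg]
    congr 1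
    funext z
    obtain ⟨t, w⟩ := z
    simp only
    rw [Fin.prod_univ_succ, splitE_symm_zero]
    simp only [splitE_symm_succ]
    rw [← ENNReal.ofReal_mul (by positivity)]
    congr 1
    ring
  have hmapι : ∀ θ : ℝ → ℝ, Measurable θ → ν.map (liftMap θ) =
      ((m.map θ).prod m').map (splitE n).symm := by
    intro θ hθ
    have e : (liftMap θ : Eu (n+2) → Eu (n+2)) =
        (splitE n).symm ∘ (Prod.map θ id) ∘ (splitE n) := by
      funext x; rfl
    have e2 : m'.map id = m' := Measure.map_id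
    rw [e, ← Measure.map_map (splitE n).symm.measurable ((hθ.prodMap measurable_id).comp (splitE n).measurable),
      ← Measure.map_map (hθ.prodMap measurable_id) (splitE n).measurable, hsplit]
    congr 1
    rw [← Measure.map_prod_map m m' hθ measurable_id, e2]
  have hν2 : ν = (m.prod m').map (splitE n).symm := by
    rw [← hsplit, Measure.map_map (splitE n).symm.measurable (splitE n).measurable]
    simp
  rw [hmapι θ₁ mθ₁, hmapι θ₂ mθ₂]
  have hadd : ((m.map θ₁).prod m').map (splitE n).symm + ((m.map θ₂).prod m').map (splitE n).symm =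
      (((m.map θ₁) + (m.map θ₂)).prod m').map (splitE n).symm := by
    rw [Measure.add_prod, Measure.map_add _ _ (splitE n).symm.measurable]
  rw [hadd, hm, Measure.prod_smul_left, Measure.map_smul, ← hν2]
  rw [two_smul]

end Crest.Agent.Lib.OT3
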