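import Crest.Agent.Lib.OT3.Final2
import Crest.Agent.Lib.OT3.Lift

set_option autoImplicit false

namespace Crest.Agent.Lib.OT3

set_option linter.unusedSectionVars false

open scoped RealInnerProductSpace ContDiff Topology ENNReal
open Crest.AnalysisR.OT Metric Filter MeasureTheory

/-- The concrete theorem. -/
theorem final_statement (n : ℕ) (s : ℝ) (hs : 0 < s) :
    ∃ ρ : Eu (n+2) → ℝ, (∀ x, 0 ≤ ρ x) ∧ ContDiff ℝ ∞ ρ ∧ HasCompactSupport ρ ∧
      ContDiff ℝ ∞ (fun x => Real.sqrt (ρ x)) ∧ ∫ x, ρ x = 1 ∧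
      ∃ π₀ : Measure (Eu (n+2) × Eu (n+2) × Eu (n+2)),
        IsCoupling₃ (measOfDensity ρ) π₀ ∧ ∫⁻ p, tripleCost s p ∂π₀ < ⊤ ∧
        (∀ π : Measure (Eu (n+2) × Eu (n+2) × Eu (n+2)), IsCoupling₃ (measOfDensity ρ) π →
          ∫⁻ p, tripleCost s p ∂π₀ ≤ ∫⁻ p, tripleCost s p ∂π) ∧
        (∀ T₂ T₃ : Eu (n+2) → Eu (n+2), Measurable T₂ → Measurable T₃ →
          (measOfDensity ρ).map T₂ = measOfDensity ρ → (measOfDensity ρ).map T₃ = measOfDensity ρ →
          ∫⁻ p, tripleCost s p ∂π₀ < ∫⁻ x, tripleCost s (x, T₂ x, T₃ x) ∂(measOfDensity ρ)) ∧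
        (∀ ε : ℝ≥0∞, 0 < ε → ∃ T₂ T₃ : Eu (n+2) → Eu (n+2), Measurable T₂ ∧ Measurable T₃ ∧
          (measOfDensity ρ).map T₂ = measOfDensity ρ ∧ (measOfDensity ρ).map T₃ = measOfDensity ρ ∧
          ∫⁻ x, tripleCost s (x, T₂ x, T₃ x) ∂(measOfDensity ρ) < ∫⁻ p, tripleCost s p ∂π₀ + ε) := by
  -- coordinates
  let e0 : Eu (n+2) := EuclideanSpace.single 0 1
  let e1 : Eu (n+2) := EuclideanSpace.single 1 1
  let Req : Eu (n+2) ≃ₗᵢ[ℝ] Eu (n+2) :=
    LinearIsometryEquiv.piLpCongrLeft 2 ℝ ℝ (Equiv.swap (0 : Fin (n+2)) 1)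
  have hReq : ∀ (x : Eu (n+2)) (i : Fin (n+2)), Req x i = x (Equiv.swap (0 : Fin (n+2)) 1 i) := by
    intro x i
    simp [Req, LinearIsometryEquiv.piLpCongrLeft_apply, Equiv.piCongrLeft']
  have he0 : ‖e0‖ = 1 := by simp [e0]
  have he1 : ‖e1‖ = 1 := by simp [e1]
  have h01 : (0 : Fin (n+2)) ≠ 1 := by simp
  have horth : ⟪e0, e1⟫ = 0 := by
    simp [e0, e1, EuclideanSpace.inner_single_left, h01]
  have hR : ∀ x, Req.toLinearIsometry (Req.toLinearIsometry x) = x := by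
    intro x
    ext i
    show Req (Req x) i = x i
    rw [hReq, hReq]
    simp
  have hRe : Req.toLinearIsometry e0 = e1 := by
    show Req e0 = e1
    simp only [Req, e0, e1]
    rw [EuclideanSpace.piLpCongrLeft_single]
    simp
  obtain ⟨B, hBs, hBe0, hBe1, hBR⟩ := exists_base hs he0 he1 horth Req.toLinearIsometry hR hRe
  subst hBs
  have hRapply : ∀ (x : Eu (n+2)) (i : Fin (n+2)), B.R x i = x (Equiv.swap (0 : Fin (n+2)) 1 i) := by
    intro x i
    rw [hBR]
    exact hReq x i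
  have hmp : MeasurePreserving B.R volume volume := by
    rw [hBR]
    exact Req.measurePreserving
  -- the small cube
  obtain ⟨r, hr, hrO⟩ := Metric.isOpen_iff.mp B.hOo 0 B.h0O
  set a : ℝ := r / (2 * (n + 2)) with ha
  have hn : (0:ℝ) < n + 2 := by positivity
  have hapos : 0 < a := by positivity
  let S : Set (Eu (n+2)) := {x | ∀ i, |x i| < a}
  have hnorm : ∀ x : Eu (n+2), (∀ i, |x i| ≤ a) → ‖x‖ ≤ r / 2 := by
    intro x hx
    rw [EuclideanSpace.norm_eq]
    have h1 : ∑ i, ‖x i‖ ^ 2 ≤ ∑ _i : Fin (n+2), a ^ 2 := by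
      apply Finset.sum_le_sum
      intro i _
      rw [Real.norm_eq_abs]
      exact pow_le_pow_left₀ (abs_nonneg _) (hx i) 2
    have h2 : ∑ _i : Fin (n+2), a ^ 2 = (n + 2) * a ^ 2 := by simp
    rw [h2] at h1
    have h3 : (n + 2) * a ^ 2 ≤ (r / 2) ^ 2 := by
      have h4 : r / 2 = (n + 2) * a := by
        rw [ha]; field_simp
      rw [h4]
      have h5 : (1:ℝ) ≤ n + 2 := by linarith [(Nat.cast_nonneg n : (0:ℝ) ≤ n)]
      have : 0 ≤ a ^ 2 := by positivity
      nlinarith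
    calc Real.sqrt (∑ i, ‖x i‖ ^ 2) ≤ Real.sqrt ((r / 2) ^ 2) := Real.sqrt_le_sqrt (h1.trans h3)
      _ = r / 2 := Real.sqrt_sq (by positivity)
  have hSO : S ⊆ B.O := by
    intro x hx
    apply hrO
    rw [mem_ball_zero_iff]
    have := hnorm x (fun i => (hx i).le)
    linarith
  have hSo : IsOpen S := by
    have : S = ⋂ i, {x : Eu (n+2) | |x i| < a} := by
      ext x; simp [S]
    rw [this]
    apply isOpen_iInter_of_finite
    intro i
    exact isOpen_lt ((EuclideanSpace.proj i : Eu (n+2) →L[ℝ] ℝ).continuous.abs) continuous_const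
  have hRS : ∀ x ∈ S, B.R x ∈ S := by
    intro x hx i
    rw [hRapply]
    exact hx _
  -- the bump
  let f : ContDiffBump (0:ℝ) := ⟨a / 2, a, by positivity, by linarith⟩
  let γ : ℝ → ℝ := f
  have hγc : ContDiff ℝ ∞ γ := f.contDiff
  have hγpos : ∀ t, |t| < a → 0 < γ t := by
    intro t ht
    apply f.pos_of_mem_ball
    simpa [Real.dist_eq] using ht
  have hγzero : ∀ t, a ≤ |t| → γ t = 0 := by
    intro t ht
    apply f.zero_of_le_dist
    simpa [Real.dist_eq] using ht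
  have hγ0 : ∀ t, 0 ≤ γ t := fun t => f.nonneg
  let g₁ : Eu (n+2) → ℝ := fun x => ∏ i, γ (x i)
  have hg₁c : ContDiff ℝ ∞ g₁ := by
    apply contDiff_prod
    intro i _
    exact hγc.comp (EuclideanSpace.proj i : Eu (n+2) →L[ℝ] ℝ).contDiff
  have hg₁S : ∀ x, g₁ x ≠ 0 → x ∈ S := by
    intro x hx i
    by_contra h
    apply hx
    exact Finset.prod_eq_zero (Finset.mem_univ i) (hγzero _ (not_lt.mp h))
  have hg₁supp : HasCompactSupport g₁ := by
    apply HasCompactSupport.intro (isCompact_closedBall (0 : Eu (n+2)) (r / 2))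
    intro x hx
    by_contra h
    apply hx
    rw [mem_closedBall_zero_iff]
    exact hnorm x (fun i => (hg₁S x h i).le)
  have hg₁0 : ∀ x, 0 ≤ g₁ x := fun x => Finset.prod_nonneg (fun i _ => hγ0 _)
  have hg₁R : ∀ x, g₁ (B.R x) = g₁ x := by
    intro x
    show ∏ i, γ (B.R x i) = ∏ i, γ (x i)
    simp only [hRapply]
    exact Equiv.prod_comp (Equiv.swap (0 : Fin (n+2)) 1) (fun i => γ (x i))
  -- normalisation
  have hg₁sq : Continuous (fun x => g₁ x ^ 2) := hg₁c.continuous.pow 2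
  have hg₁sqs : HasCompactSupport (fun x => g₁ x ^ 2) := hg₁supp.mono (by
    intro x hx h
    apply hx
    simp [h])
  have hZpos : 0 < ∫ x, g₁ x ^ 2 := by
    have h0 : g₁ 0 ^ 2 ≠ 0 := by
      have : g₁ 0 ≠ 0 := by
        apply ne_of_gt
        apply Finset.prod_pos
        intro i _
        apply hγpos
        simpa using hapos
      positivity
    exact hg₁sq.integral_pos_of_hasCompactSupport_nonneg_nonzero hg₁sqs (fun x => by positivity) h0
  set Z := ∫ x, g₁ x ^ 2 with hZ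
  set N : ℝ := Real.sqrt (1 / Z) with hN
  have hNpos : 0 < N := Real.sqrt_pos.mpr (by positivity)
  have hN2 : N ^ 2 = 1 / Z := Real.sq_sqrt (by positivity)
  let g : Eu (n+2) → ℝ := fun x => N * ∏ i, γ (x i)
  have hgc : ContDiff ℝ ∞ g := contDiff_const.mul hg₁c
  have hgsupp : HasCompactSupport g := hg₁supp.mul_left
  have hg0 : ∀ x, 0 ≤ g x := fun x => mul_nonneg hNpos.le (hg₁0 x)
  have hgS : ∀ x, g x ≠ 0 → x ∈ S := fun x hx => hg₁S x (right_ne_zero_of_mul hx)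
  have hgO : tsupport g ⊆ B.O := by
    have hsub : Function.support g ⊆ closedBall (0 : Eu (n+2)) (r / 2) := by
      intro x hx
      rw [mem_closedBall_zero_iff]
      exact hnorm x (fun i => (hgS x hx i).le)
    have h1 : tsupport g ⊆ closedBall (0 : Eu (n+2)) (r / 2) :=
      closure_minimal hsub isClosed_closedBall
    intro x hx
    apply hrO
    have h2 := h1 hx
    rw [mem_closedBall_zero_iff] at h2
    rw [mem_ball_zero_iff]
    linarith
  have hgR : ∀ x, g (B.R x) = g x := fun x => by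
    show N * g₁ (B.R x) = N * g₁ x
    rw [hg₁R]
  have hprob : nuOf g Set.univ = 1 := by
    unfold nuOf
    rw [withDensity_apply _ MeasurableSet.univ, Measure.restrict_univ]
    have hcont : Continuous (fun x => g x ^ 2) := hgc.continuous.pow 2
    have hsupp : HasCompactSupport (fun x => g x ^ 2) := hgsupp.mono (by
      intro x hx h
      apply hx
      simp [h])
    have hint : Integrable (fun x => g x ^ 2) := hcont.integrable_of_hasCompactSupport hsupp
    rw [← ofReal_integral_eq_lintegral_ofReal hint (Eventually.of_forall (fun x => by positivity))]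
    have : ∫ x, g x ^ 2 = 1 := by
      have h1 : (fun x => g x ^ 2) = fun x => N ^ 2 * g₁ x ^ 2 := by
        funext x
        show (N * g₁ x) ^ 2 = _
        ring
      rw [h1, integral_const_mul, ← hZ, hN2]
      field_simp
    rw [this]
    simp
  have hmix : ∀ δ : ℝ, 0 < δ → ∃ (ι₁ ι₂ φ₁ φ₂ : Eu (n+2) → Eu (n+2)) (A₁ A₂ : Set (Eu (n+2))),
      Measurable ι₁ ∧ Measurable ι₂ ∧ Measurable φ₁ ∧ Measurable φ₂ ∧ MeasurableSet A₁ ∧
      MeasurableSet A₂ ∧ Disjoint A₁ A₂ ∧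
      (∀ x ∈ S, ι₁ x ∈ A₁ ∧ ι₁ x ∈ S ∧ φ₁ (ι₁ x) = x ∧ ‖ι₁ x - x‖ ≤ δ) ∧
      (∀ x ∈ S, ι₂ x ∈ A₂ ∧ ι₂ x ∈ S ∧ φ₂ (ι₂ x) = x ∧ ‖ι₂ x - x‖ ≤ δ) ∧
      (nuOf g).map ι₁ + (nuOf g).map ι₂ = nuOf g + nuOf g := by
    intro δ hδ
    exact exists_lift hγc.continuous hapos hγpos hγzero N hδ
  exact ⟨rhoOf B g, main_of_base B hSO hSo.measurableSet hRS hmp hgc hgsupp hg0 hgS hgO hgR hprob hmix⟩

end Crest.Agent.Lib.OT3
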