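import Crest.Agent.Lib.OT3.Calc

/-!
The stationarity system: for `x` near `0` there are `y = b x`, `z = c x` solving
the first order conditions; `b`, `c` are smooth with invertible derivative at `0`.
-/

set_option autoImplicit false

namespace Crest.Agent.Lib.OT3

open scoped RealInnerProductSpace ContDiff Topology

variable {E : Type*} [NormedAddCommGroup E] [InnerProductSpace ℝ E]

/-- The stationarity map. -/
noncomputable def Phi (s Λ : ℝ) (e0 ℓ : E) (P : E × E × E) : E × E × E :=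
  (P.1, G s (P.1 - P.2.1) + G s (P.1 - P.2.2) + Λ • P.1,
    G s (P.2.1 - P.1) + G s (P.2.1 - P.2.2) + Λ • (P.2.1 - e0) - ℓ)

/-- Coordinates. -/
noncomputable def p1 : E × E × E →L[ℝ] E := ContinuousLinearMap.fst ℝ E (E × E)
/-- Coordinates. -/
noncomputable def p2 : E × E × E →L[ℝ] E :=
  (ContinuousLinearMap.fst ℝ E E).comp (ContinuousLinearMap.snd ℝ E (E × E))
/-- Coordinates. -/
noncomputable def p3 : E × E × E →L[ℝ] E :=
  (ContinuousLinearMap.snd ℝ E E).comp (ContinuousLinearMap.snd ℝ E (E × E))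

@[simp] lemma p1_apply (P : E × E × E) : (p1 : E × E × E →L[ℝ] E) P = P.1 := rfl
@[simp] lemma p2_apply (P : E × E × E) : (p2 : E × E × E →L[ℝ] E) P = P.2.1 := rfl
@[simp] lemma p3_apply (P : E × E × E) : (p3 : E × E × E →L[ℝ] E) P = P.2.2 := rfl

/-- Derivative of `Phi`. -/
noncomputable def DPhi (s Λ : ℝ) (P : E × E × E) : E × E × E →L[ℝ] E × E × E :=
  (p1 : E × E × E →L[ℝ] E).prod
    (((DG s (P.1 - P.2.1)).comp (p1 - p2) + (DG s (P.1 - P.2.2)).comp (p1 - p3) + Λ • p1).prod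
      ((DG s (P.2.1 - P.1)).comp (p2 - p1) + (DG s (P.2.1 - P.2.2)).comp (p2 - p3) + Λ • p2))

lemma DPhi_apply (s Λ : ℝ) (P w : E × E × E) :
    DPhi s Λ P w = (w.1,
      DG s (P.1 - P.2.1) (w.1 - w.2.1) + DG s (P.1 - P.2.2) (w.1 - w.2.2) + Λ • w.1,
      DG s (P.2.1 - P.1) (w.2.1 - w.1) + DG s (P.2.1 - P.2.2) (w.2.1 - w.2.2) + Λ • w.2.1) := by
  simp [DPhi]

lemma hasFDerivAt_Phi (s Λ : ℝ) (e0 ℓ : E) {P : E × E × E} (h12 : P.1 ≠ P.2.1)
    (h13 : P.1 ≠ P.2.2) (h23 : P.2.1 ≠ P.2.2) :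
    HasFDerivAt (Phi s Λ e0 ℓ) (DPhi s Λ P) P := by
  have hp1 : HasFDerivAt (fun Q : E × E × E => Q.1) (p1 : E × E × E →L[ℝ] E) P :=
    (p1 : E × E × E →L[ℝ] E).hasFDerivAt
  have hp2 : HasFDerivAt (fun Q : E × E × E => Q.2.1) (p2 : E × E × E →L[ℝ] E) P :=
    (p2 : E × E × E →L[ℝ] E).hasFDerivAt
  have hp3 : HasFDerivAt (fun Q : E × E × E => Q.2.2) (p3 : E × E × E →L[ℝ] E) P :=
    (p3 : E × E × E →L[ℝ] E).hasFDerivAt
  have g12 : HasFDerivAt (fun Q : E × E × E => G s (Q.1 - Q.2.1))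
      ((DG s (P.1 - P.2.1)).comp (p1 - p2)) P :=
    HasFDerivAt.comp (g := G s) (f := fun Q : E × E × E => Q.1 - Q.2.1) P (hasFDerivAt_G s (sub_ne_zero.mpr h12)) (hp1.sub hp2)
  have g13 : HasFDerivAt (fun Q : E × E × E => G s (Q.1 - Q.2.2))
      ((DG s (P.1 - P.2.2)).comp (p1 - p3)) P :=
    HasFDerivAt.comp (g := G s) (f := fun Q : E × E × E => Q.1 - Q.2.2) P (hasFDerivAt_G s (sub_ne_zero.mpr h13)) (hp1.sub hp3)
  have g21 : HasFDerivAt (fun Q : E × E × E => G s (Q.2.1 - Q.1))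
      ((DG s (P.2.1 - P.1)).comp (p2 - p1)) P :=
    HasFDerivAt.comp (g := G s) (f := fun Q : E × E × E => Q.2.1 - Q.1) P (hasFDerivAt_G s (sub_ne_zero.mpr h12.symm)) (hp2.sub hp1)
  have g23 : HasFDerivAt (fun Q : E × E × E => G s (Q.2.1 - Q.2.2))
      ((DG s (P.2.1 - P.2.2)).comp (p2 - p3)) P :=
    HasFDerivAt.comp (g := G s) (f := fun Q : E × E × E => Q.2.1 - Q.2.2) P (hasFDerivAt_G s (sub_ne_zero.mpr h23)) (hp2.sub hp3)
  have r2 := (g12.add g13).add (hp1.const_smul Λ)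
  have r3 := ((g21.add g23).add ((hp2.sub_const e0).const_smul Λ)).sub_const ℓ
  exact hp1.prodMk (r2.prodMk r3)

/-- The open set of triples with distinct entries. -/
def Wset (E : Type*) [NormedAddCommGroup E] : Set (E × E × E) :=
  {P | P.1 ≠ P.2.1 ∧ P.1 ≠ P.2.2 ∧ P.2.1 ≠ P.2.2}

omit [InnerProductSpace ℝ E] in
lemma isOpen_Wset : IsOpen (Wset E) := by
  have h1 : IsOpen {P : E × E × E | P.1 ≠ P.2.1} :=
    isOpen_ne_fun continuous_fst (continuous_fst.comp continuous_snd)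
  have h2 : IsOpen {P : E × E × E | P.1 ≠ P.2.2} :=
    isOpen_ne_fun continuous_fst (continuous_snd.comp continuous_snd)
  have h3 : IsOpen {P : E × E × E | P.2.1 ≠ P.2.2} :=
    isOpen_ne_fun (continuous_fst.comp continuous_snd) (continuous_snd.comp continuous_snd)
  exact h1.inter (h2.inter h3)

lemma contDiffOn_Phi (s Λ : ℝ) (e0 ℓ : E) : ContDiffOn ℝ ∞ (Phi s Λ e0 ℓ) (Wset E) := by
  intro P hP
  obtain ⟨h12, h13, h23⟩ := hP
  have hp1 : ContDiffAt ℝ ∞ (fun Q : E × E × E => Q.1) P := contDiffAt_fst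
  have hp2 : ContDiffAt ℝ ∞ (fun Q : E × E × E => Q.2.1) P := contDiffAt_fst.comp P contDiffAt_snd
  have hp3 : ContDiffAt ℝ ∞ (fun Q : E × E × E => Q.2.2) P := contDiffAt_snd.comp P contDiffAt_snd
  have g12 : ContDiffAt ℝ ∞ (fun Q : E × E × E => G s (Q.1 - Q.2.1)) P :=
    ContDiffAt.comp (g := G s) (f := fun Q : E × E × E => Q.1 - Q.2.1) P (contDiffAt_G s (sub_ne_zero.mpr h12)) (hp1.sub hp2)
  have g13 : ContDiffAt ℝ ∞ (fun Q : E × E × E => G s (Q.1 - Q.2.2)) P :=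
    ContDiffAt.comp (g := G s) (f := fun Q : E × E × E => Q.1 - Q.2.2) P (contDiffAt_G s (sub_ne_zero.mpr h13)) (hp1.sub hp3)
  have g21 : ContDiffAt ℝ ∞ (fun Q : E × E × E => G s (Q.2.1 - Q.1)) P :=
    ContDiffAt.comp (g := G s) (f := fun Q : E × E × E => Q.2.1 - Q.1) P (contDiffAt_G s (sub_ne_zero.mpr h12.symm)) (hp2.sub hp1)
  have g23 : ContDiffAt ℝ ∞ (fun Q : E × E × E => G s (Q.2.1 - Q.2.2)) P :=
    ContDiffAt.comp (g := G s) (f := fun Q : E × E × E => Q.2.1 - Q.2.2) P (contDiffAt_G s (sub_ne_zero.mpr h23)) (hp2.sub hp3)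
  have r2 := (g12.add g13).add (hp1.const_smul Λ)
  have r3 := ((g21.add g23).add ((hp2.sub (contDiffAt_const (c := e0))).const_smul Λ)).sub
    (contDiffAt_const (c := ℓ))
  exact (hp1.prodMk (r2.prodMk r3)).contDiffWithinAt

/-- The linear part at unit vectors. -/
noncomputable def Hm (s : ℝ) (e0 v : E) : E := (-s) • v + (s * (s + 2) * ⟪e0, v⟫) • e0

lemma DG_unit (s : ℝ) {e0 : E} (he0 : ‖e0‖ = 1) (v : E) : DG s e0 v = Hm s e0 v := by
  simp [DG_apply, Hm, he0]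

lemma DG_neg_unit (s : ℝ) {e0 : E} (he0 : ‖e0‖ = 1) (v : E) : DG s (-e0) v = Hm s e0 v := by
  simp only [DG_apply, Hm, norm_neg, he0, Real.one_rpow, inner_neg_left, smul_neg, neg_smul]
  simp

lemma DG_two_unit (s : ℝ) {e0 : E} (he0 : ‖e0‖ = 1) (v : E) :
    DG s ((2:ℝ) • e0) v = ((2:ℝ) ^ (-s - 2)) • Hm s e0 v := by
  have hn : ‖(2:ℝ) • e0‖ = 2 := by simp [norm_smul, he0]
  have h4 : (2:ℝ) ^ (-s - 4) = (2:ℝ) ^ (-s - 2) / 4 := by
    have : (-s - 4 : ℝ) = (-s - 2) - 2 := by ring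
    rw [this, Real.rpow_sub (by norm_num)]
    norm_num
  simp only [DG_apply, Hm, hn, inner_smul_left, h4]
  simp only [smul_add, smul_smul]
  simp only [map_ofNat]
  congr 1
  · congr 1; ring
  · congr 1; ring

lemma Hm_add (s : ℝ) (e0 v w : E) : Hm s e0 (v + w) = Hm s e0 v + Hm s e0 w := by
  simp only [Hm, inner_add_right]; module

lemma Hm_sub (s : ℝ) (e0 v w : E) : Hm s e0 (v - w) = Hm s e0 v - Hm s e0 w := by
  simp only [Hm, inner_sub_right]; module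

lemma Hm_neg (s : ℝ) (e0 v : E) : Hm s e0 (-v) = - Hm s e0 v := by
  simp only [Hm, inner_neg_right]; module

lemma Hm_smul (s : ℝ) (e0 : E) (a : ℝ) (v : E) : Hm s e0 (a • v) = a • Hm s e0 v := by
  simp only [Hm, inner_smul_right]; module

lemma inner_Hm_self (s : ℝ) (e0 v : E) :
    ⟪Hm s e0 v, v⟫ = -s * ‖v‖ ^ 2 + s * (s + 2) * ⟪e0, v⟫ ^ 2 := by
  simp only [Hm, inner_add_left, inner_smul_left, real_inner_self_eq_norm_sq]
  simp
  ring

lemma inner_Hm_self_ge {s : ℝ} (hs : 0 < s) (e0 v : E) : -s * ‖v‖ ^ 2 ≤ ⟪Hm s e0 v, v⟫ := by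
  rw [inner_Hm_self]
  have : 0 ≤ s * (s + 2) * ⟪e0, v⟫ ^ 2 := by positivity
  linarith

lemma Hm_eq_zero {s : ℝ} (hs : 0 < s) {e0 v : E} (he0 : ‖e0‖ = 1) (h : Hm s e0 v = 0) : v = 0 := by
  have h1 : ⟪e0, Hm s e0 v⟫ = 0 := by rw [h]; simp
  have h2 : ⟪e0, Hm s e0 v⟫ = s * (s + 1) * ⟪e0, v⟫ := by
    simp only [Hm, inner_add_right, inner_smul_right, real_inner_self_eq_norm_sq, he0]
    ring
  rw [h2] at h1
  have h3 : ⟪e0, v⟫ = 0 := by
    have : s * (s + 1) ≠ 0 := by positivity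
    exact (mul_eq_zero.mp h1).resolve_left this
  simp only [Hm, h3, mul_zero, zero_smul, add_zero] at h
  have := (smul_eq_zero.mp h).resolve_left (by simpa using hs.ne')
  exact this

/-- The base point. -/
def P0 (e0 : E) : E × E × E := (0, e0, -e0)

lemma DPhi_base_apply (s Λ : ℝ) {e0 : E} (he0 : ‖e0‖ = 1) (w : E × E × E) :
    DPhi s Λ (P0 e0) w = (w.1,
      Hm s e0 (w.1 - w.2.1) + Hm s e0 (w.1 - w.2.2) + Λ • w.1,
      Hm s e0 (w.2.1 - w.1) + ((2:ℝ) ^ (-s - 2)) • Hm s e0 (w.2.1 - w.2.2) + Λ • w.2.1) := by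
  rw [DPhi_apply]
  simp only [P0, zero_sub, sub_zero, sub_neg_eq_add, zero_add]
  simp only [DG_neg_unit s he0, DG_unit s he0]
  have : e0 + e0 = (2:ℝ) • e0 := by rw [two_smul]
  rw [this, DG_two_unit s he0]

lemma pow_kappa_pos (s : ℝ) : 0 < (2:ℝ) ^ (-s - 2) := Real.rpow_pos_of_pos (by norm_num) _

lemma kappa_inv (s : ℝ) : ((2:ℝ) ^ (-s - 2))⁻¹ = (2:ℝ) ^ (s + 2) := by
  rw [← Real.rpow_neg (by norm_num)]; congr 1; ring

lemma kappa_le_one {s : ℝ} (hs : 0 < s) : (2:ℝ) ^ (-s - 2) ≤ 1 :=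
  Real.rpow_le_one_of_one_le_of_nonpos (by norm_num) (by linarith)

lemma DPhi_base_injective {s Λ : ℝ} (hs : 0 < s) {e0 : E} (he0 : ‖e0‖ = 1) (hΛ : 3 * s < Λ) :
    Function.Injective (DPhi s Λ (P0 e0)) := by
  rw [injective_iff_map_eq_zero]
  rintro ⟨ξ, η, ζ⟩ h
  rw [DPhi_base_apply s Λ he0] at h
  simp only [Prod.mk_eq_zero] at h
  obtain ⟨rfl, h2, h3⟩ := h
  simp only [zero_sub, sub_zero, smul_zero, add_zero] at h2 h3
  -- `η + ζ = 0`
  have h4 : η + ζ = 0 := by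
    apply Hm_eq_zero hs he0
    have e1 := Hm_neg s e0 η
    have e2 := Hm_neg s e0 ζ
    rw [e1, e2] at h2
    rw [Hm_add]
    simpa [add_comm, neg_add_rev] using congrArg (fun t => -t) h2
  have h5 : ζ = -η := by
    rw [eq_neg_iff_add_eq_zero, add_comm]; exact h4
  subst h5
  -- `η = 0`
  have e3 : η - -η = (2:ℝ) • η := by rw [two_smul]; abel
  rw [e3, Hm_smul, smul_smul] at h3
  have h6 := congrArg (fun t => ⟪t, η⟫) h3
  simp only [inner_add_left, inner_smul_left, inner_zero_left] at h6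
  simp only [conj_trivial, real_inner_self_eq_norm_sq] at h6
  have h7 := inner_Hm_self_ge hs e0 η
  have hk : 0 < (2:ℝ) ^ (-s - 2) := pow_kappa_pos s
  have hk1 := kappa_le_one hs
  have hn : 0 ≤ ‖η‖ ^ 2 := by positivity
  have hineq : (Λ - 3 * s) * ‖η‖ ^ 2 ≤ 0 := by
    have h8 : -s * ‖η‖ ^ 2 * ((2:ℝ) ^ (-s - 2) * 2) ≤ ⟪Hm s e0 η, η⟫ * ((2:ℝ) ^ (-s - 2) * 2) :=
      mul_le_mul_of_nonneg_right h7 (by positivity)
    have h9 : s * ‖η‖ ^ 2 * ((2:ℝ) ^ (-s - 2) * 2) ≤ s * ‖η‖ ^ 2 * 2 := by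
      apply mul_le_mul_of_nonneg_left _ (by positivity)
      linarith
    nlinarith
  have hη : ‖η‖ ^ 2 = 0 := by
    have : 0 < Λ - 3 * s := by linarith
    nlinarith
  have : η = 0 := by
    have := pow_eq_zero_iff (n := 2) (by norm_num) |>.mp hη
    exact norm_eq_zero.mp this
  subst this
  simp

lemma inj_b_aux {s Λ : ℝ} (hs : 0 < s) {e0 : E} (he0 : ‖e0‖ = 1)
    (hΛ : (2 + (2:ℝ) ^ (s + 2)) * s < Λ) {ξ ζ : E}
    (h2 : Hm s e0 (ξ - 0) + Hm s e0 (ξ - ζ) + Λ • ξ = 0)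
    (h3 : Hm s e0 (0 - ξ) + ((2:ℝ) ^ (-s - 2)) • Hm s e0 (0 - ζ) + Λ • (0:E) = 0) : ξ = 0 := by
  set κ : ℝ := (2:ℝ) ^ (-s - 2) with hκ
  have hκpos : 0 < κ := pow_kappa_pos s
  have hκinv : κ⁻¹ = (2:ℝ) ^ (s + 2) := kappa_inv s
  have h4 : ξ + κ • ζ = 0 := by
    apply Hm_eq_zero hs he0
    rw [Hm_add, Hm_smul]
    simp only [zero_sub, Hm_neg, smul_neg, smul_zero, add_zero] at h3
    have := congrArg (fun t => -t) h3
    simpa [neg_add_rev, add_comm] using this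
  have h5 : ζ = (-κ⁻¹) • ξ := by
    have h6 : κ • ζ = -ξ := by
      rw [eq_neg_iff_add_eq_zero, add_comm]; exact h4
    calc ζ = κ⁻¹ • (κ • ζ) := by rw [smul_smul, inv_mul_cancel₀ hκpos.ne', one_smul]
      _ = (-κ⁻¹) • ξ := by rw [h6]; simp
  subst h5
  have e1 : ξ - (-κ⁻¹) • ξ = (1 + κ⁻¹) • ξ := by module
  rw [e1, Hm_smul, sub_zero] at h2
  have h7 := congrArg (fun t => ⟪t, ξ⟫) h2
  simp only [inner_add_left, inner_smul_left, inner_zero_left, conj_trivial,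
    real_inner_self_eq_norm_sq] at h7
  have h8 := inner_Hm_self_ge hs e0 ξ
  have hn : 0 ≤ ‖ξ‖ ^ 2 := by positivity
  rw [← hκinv] at hΛ
  have hκi : 0 < κ⁻¹ := inv_pos.mpr hκpos
  have hineq : (Λ - (2 + κ⁻¹) * s) * ‖ξ‖ ^ 2 ≤ 0 := by
    have h9 : (1 + κ⁻¹) * (-s * ‖ξ‖ ^ 2) ≤ (1 + κ⁻¹) * ⟪Hm s e0 ξ, ξ⟫ :=
      mul_le_mul_of_nonneg_left h8 (by positivity)
    nlinarith
  have hpos : 0 < Λ - (2 + κ⁻¹) * s := by linarith
  have hz : ‖ξ‖ ^ 2 = 0 := by nlinarith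
  exact norm_eq_zero.mp (pow_eq_zero_iff (n := 2) (by norm_num) |>.mp hz)

lemma inj_c_aux {s Λ : ℝ} (hs : 0 < s) {e0 : E} (hΛ : 3 * s < Λ) {ξ η : E}
    (h2 : Hm s e0 (ξ - η) + Hm s e0 (ξ - 0) + Λ • ξ = 0)
    (h3 : Hm s e0 (η - ξ) + ((2:ℝ) ^ (-s - 2)) • Hm s e0 (η - 0) + Λ • η = 0) : ξ = 0 := by
  set κ : ℝ := (2:ℝ) ^ (-s - 2) with hκ
  have hκpos : 0 < κ := pow_kappa_pos s
  have hκ1 : κ ≤ 1 := kappa_le_one hs
  simp only [sub_zero] at h2 h3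
  have e1 : η - ξ = -(ξ - η) := by abel
  rw [e1, Hm_neg] at h3
  have h4 := congrArg (fun t => ⟪t, ξ⟫) h2
  have h5 := congrArg (fun t => ⟪t, η⟫) h3
  simp only [inner_add_left, inner_smul_left, inner_zero_left, inner_neg_left, conj_trivial,
    real_inner_self_eq_norm_sq] at h4 h5
  have h6 := inner_Hm_self_ge hs e0 ξ
  have h7 := inner_Hm_self_ge hs e0 η
  have h8 := inner_Hm_self_ge hs e0 (ξ - η)
  have h9 : ⟪Hm s e0 (ξ - η), ξ - η⟫ = ⟪Hm s e0 (ξ - η), ξ⟫ - ⟪Hm s e0 (ξ - η), η⟫ :=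
    inner_sub_right _ _ _
  have hpar : ‖ξ - η‖ ^ 2 ≤ 2 * ‖ξ‖ ^ 2 + 2 * ‖η‖ ^ 2 := by
    have := parallelogram_law_with_norm ℝ ξ η
    nlinarith [sq_nonneg ‖ξ + η‖]
  have hn1 : 0 ≤ ‖ξ‖ ^ 2 := by positivity
  have hn2 : 0 ≤ ‖η‖ ^ 2 := by positivity
  have h10 : κ * (-s * ‖η‖ ^ 2) ≤ κ * ⟪Hm s e0 η, η⟫ := mul_le_mul_of_nonneg_left h7 hκpos.le
  have h11 : κ * (s * ‖η‖ ^ 2) ≤ 1 * (s * ‖η‖ ^ 2) :=
    mul_le_mul_of_nonneg_right hκ1 (by positivity)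
  have h12 : s * ‖ξ - η‖ ^ 2 ≤ s * (2 * ‖ξ‖ ^ 2 + 2 * ‖η‖ ^ 2) :=
    mul_le_mul_of_nonneg_left hpar hs.le
  have hineq : (Λ - 3 * s) * (‖ξ‖ ^ 2 + ‖η‖ ^ 2) ≤ 0 := by nlinarith
  have hpos : 0 < Λ - 3 * s := by linarith
  have hz : ‖ξ‖ ^ 2 = 0 := by nlinarith
  exact norm_eq_zero.mp (pow_eq_zero_iff (n := 2) (by norm_num) |>.mp hz)

/-- Existence of the stationary family. -/
theorem exists_family [FiniteDimensional ℝ E] {s Λ : ℝ} (hs : 0 < s) {e0 : E} (he0 : ‖e0‖ = 1)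
    (hΛ₁ : 3 * s < Λ) (hΛ₂ : (2 + (2:ℝ) ^ (s + 2)) * s < Λ) :
    ∃ (U : Set E) (b c : E → E), IsOpen U ∧ (0:E) ∈ U ∧ (∀ x ∈ U, ContDiffAt ℝ ∞ b x) ∧
      (∀ x ∈ U, ContDiffAt ℝ ∞ c x) ∧ b 0 = e0 ∧ c 0 = -e0 ∧
      (∀ x ∈ U, G s (x - b x) + G s (x - c x) + Λ • x = 0) ∧
      (∀ x ∈ U, G s (b x - x) + G s (b x - c x) + Λ • (b x - e0) -
        (G s e0 + G s ((2:ℝ) • e0)) = 0) ∧
      Function.Injective (fderiv ℝ b 0) ∧ Function.Injective (fderiv ℝ c 0) := by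
  set ℓ : E := G s e0 + G s ((2:ℝ) • e0) with hℓ
  have hne : e0 ≠ 0 := by
    intro h; rw [h] at he0; simp at he0
  have hne2 : e0 ≠ -e0 := by
    intro h
    have : (2:ℝ) • e0 = 0 := by
      rw [two_smul]; nth_rw 1 [h]; simp
    simp [hne] at this
  have hP0W : P0 e0 ∈ Wset E := by
    refine ⟨?_, ?_, ?_⟩
    · simpa [P0] using hne.symm
    · simpa [P0] using hne
    · exact hne2
  have hval : Phi s Λ e0 ℓ (P0 e0) = (0, 0, 0) := by
    simp only [Phi, P0, zero_sub, sub_neg_eq_add, zero_add, sub_zero, sub_self, smul_zero, add_zero]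
    have e1 : e0 + e0 = (2:ℝ) • e0 := by rw [two_smul]
    rw [G_neg, e1, hℓ]
    simp
  have hL := DPhi_base_injective (Λ := Λ) hs he0 hΛ₁
  let L : (E × E × E) ≃L[ℝ] (E × E × E) :=
    (LinearEquiv.ofInjectiveEndo (DPhi s Λ (P0 e0)).toLinearMap hL).toContinuousLinearEquiv
  have hLcoe : (L : (E × E × E) →L[ℝ] (E × E × E)) = DPhi s Λ (P0 e0) := by
    ext v <;> rfl
  have hD : HasFDerivAt (Phi s Λ e0 ℓ) (L : (E × E × E) →L[ℝ] (E × E × E)) (P0 e0) := by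
    rw [hLcoe]
    exact hasFDerivAt_Phi s Λ e0 ℓ hP0W.1 hP0W.2.1 hP0W.2.2
  obtain ⟨e, hes, hsub, hco, hder, hsm⟩ :=
    exists_local_diffeo isOpen_Wset (contDiffOn_Phi s Λ e0 ℓ) hP0W L hD
  have hPe : e (P0 e0) = (0, 0, 0) := by rw [hco]; exact hval
  have htar : ((0:E), (0:E), (0:E)) ∈ e.target := by
    rw [← hPe]; exact e.map_source hes
  have hsymm0 : e.symm (0, 0, 0) = P0 e0 := by
    rw [← hPe]; exact e.left_inv hes
  let j : E → E × E × E := fun x => (x, 0, 0)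
  have hjc : ContDiff ℝ ∞ j := contDiff_id.prodMk contDiff_const
  let U : Set E := j ⁻¹' e.target
  have hUo : IsOpen U := e.open_target.preimage hjc.continuous
  have h0U : (0:E) ∈ U := htar
  let b : E → E := fun x => (e.symm (j x)).2.1
  let c : E → E := fun x => (e.symm (j x)).2.2
  have hΨ : ∀ x ∈ U, ContDiffAt ℝ ∞ (fun x => e.symm (j x)) x := fun x hx =>
    ContDiffAt.comp (g := e.symm) (f := j) x (hsm _ hx) hjc.contDiffAt
  have hmain : ∀ x ∈ U, Phi s Λ e0 ℓ (e.symm (j x)) = j x := by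
    intro x hx
    rw [← hco]; exact e.right_inv hx
  have hfst : ∀ x ∈ U, (e.symm (j x)).1 = x := fun x hx => by
    have := congrArg Prod.fst (hmain x hx)
    simpa [Phi, j] using this
  -- derivative of the inverse at the base point
  have hPsi : HasFDerivAt e.symm (L.symm : (E × E × E) →L[ℝ] (E × E × E)) (0, 0, 0) := by
    apply e.hasFDerivAt_symm htar
    rw [hsymm0, hco]; exact hD
  have hjd : HasFDerivAt j (ContinuousLinearMap.inl ℝ E (E × E)) (0:E) :=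
    (ContinuousLinearMap.inl ℝ E (E × E)).hasFDerivAt
  have hcomp : HasFDerivAt (fun x => e.symm (j x))
      ((L.symm : (E × E × E) →L[ℝ] (E × E × E)).comp (ContinuousLinearMap.inl ℝ E (E × E))) (0:E) :=
    HasFDerivAt.comp (g := e.symm) (f := j) (0:E) hPsi hjd
  have hbd : HasFDerivAt b ((p2 : E × E × E →L[ℝ] E).comp
      ((L.symm : (E × E × E) →L[ℝ] (E × E × E)).comp (ContinuousLinearMap.inl ℝ E (E × E)))) (0:E) :=
    (p2 : E × E × E →L[ℝ] E).hasFDerivAt.comp (0:E) hcomp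
  have hcd : HasFDerivAt c ((p3 : E × E × E →L[ℝ] E).comp
      ((L.symm : (E × E × E) →L[ℝ] (E × E × E)).comp (ContinuousLinearMap.inl ℝ E (E × E)))) (0:E) :=
    (p3 : E × E × E →L[ℝ] E).hasFDerivAt.comp (0:E) hcomp
  have hLw : ∀ ξ : E, DPhi s Λ (P0 e0) (L.symm (ξ, 0, 0)) = (ξ, 0, 0) := by
    intro ξ
    rw [← hLcoe]; exact L.apply_symm_apply _
  refine ⟨U, b, c, hUo, h0U, ?_, ?_, ?_, ?_, ?_, ?_, ?_, ?_⟩
  · intro x hx
    exact ((p2 : E × E × E →L[ℝ] E).contDiff.contDiffAt).comp x (hΨ x hx)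
  · intro x hx
    exact ((p3 : E × E × E →L[ℝ] E).contDiff.contDiffAt).comp x (hΨ x hx)
  · show (e.symm (j 0)).2.1 = e0
    simp only [j]; rw [hsymm0]; rfl
  · show (e.symm (j 0)).2.2 = -e0
    simp only [j]; rw [hsymm0]; rfl
  · intro x hx
    have := congrArg (fun t => t.2.1) (hmain x hx)
    simp only [Phi, j] at this
    rw [hfst x hx] at this
    exact this
  · intro x hx
    have := congrArg (fun t => t.2.2) (hmain x hx)
    simp only [Phi, j] at this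
    rw [hfst x hx] at this
    exact this
  · rw [hbd.fderiv, injective_iff_map_eq_zero]
    intro ξ hξ
    have hξ' : (L.symm (ξ, 0, 0)).2.1 = 0 := hξ
    have h := hLw ξ
    rw [DPhi_base_apply s Λ he0] at h
    rw [hξ'] at h
    simp only [Prod.mk.injEq] at h
    obtain ⟨h1, h2, h3⟩ := h
    rw [h1] at h2 h3
    exact inj_b_aux hs he0 hΛ₂ h2 h3
  · rw [hcd.fderiv, injective_iff_map_eq_zero]
    intro ξ hξ
    have hξ' : (L.symm (ξ, 0, 0)).2.2 = 0 := hξ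
    have h := hLw ξ
    rw [DPhi_base_apply s Λ he0] at h
    rw [hξ'] at h
    simp only [Prod.mk.injEq] at h
    obtain ⟨h1, h2, h3⟩ := h
    rw [h1] at h2 h3
    exact inj_c_aux hs hΛ₁ h2 h3

end Crest.Agent.Lib.OT3
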